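import Vale.Agent.P046.Low.LDefs
import Vale.Agent.P046.Kn

/-!
P046, lower bound: the complete graph (row LKN)
-/

namespace Vale.Agent.P046

open Finset

noncomputable section

theorem np_BK (n : ℕ) : NP (BK n) := by
  intro T hT T0 hT0 hdisj
  obtain ⟨V, hV, rfl⟩ := mem_BK.mp hT
  obtain ⟨V0, hV0, rfl⟩ := mem_BK.mp hT0
  -- `V` and `V0` have at most one common vertex
  have h1 : (V0 ∩ V).card ≤ 1 := by
    have h2 : tr (V0 ∩ V) = ∅ := by
      rw [← tr_inter]
      exact disjoint_iff_inter_eq_empty.mp hdisj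
    have h3 := card_tr (V0 ∩ V)
    rw [h2, card_empty] at h3
    by_contra hcon
    have h4 : 0 < (V0 ∩ V).card.choose 2 := Nat.choose_pos (by omega)
    omega
  have h2 : 1 < (V \ V0).card := by
    have h3 := card_sdiff_add_card_inter V V0
    rw [inter_comm] at h3
    omega
  obtain ⟨x, hx, y, hy, hxy⟩ := one_lt_card.mp h2
  rw [mem_sdiff] at hx hy
  refine ⟨s(x, y), mk_mem_tr.mpr ⟨hx.1, hy.1, hxy⟩, ?_⟩
  intro T' hT' he _
  obtain ⟨V', hV', rfl⟩ := mem_BK.mp hT'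
  rw [mk_mem_tr] at he
  rw [disjoint_iff_inter_eq_empty, tr_inter]
  have h3 : (V' ∩ V0).card ≤ 1 := by
    have h4 : ({x, y} : Finset (Fin n)) ⊆ V' \ V0 := by
      intro z hz
      rw [mem_insert, mem_singleton] at hz
      rcases hz with rfl | rfl
      · exact mem_sdiff.mpr ⟨he.1, hx.2⟩
      · exact mem_sdiff.mpr ⟨he.2.1, hy.2⟩
    have h5 := card_le_card h4
    rw [card_pair hxy] at h5
    have h6 := card_sdiff_add_card_inter V' V0
    omega
  rw [← card_eq_zero, card_tr]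
  exact Nat.choose_eq_zero_of_lt (by omega)

theorem expF_ge (hlow : ∃ c : ℝ, 0 < c ∧ ∃ D0 : ℕ, ∀ (α : Type) [DecidableEq α]
    (B : Finset (Finset α)) (A : Finset α) (D : ℕ), D0 ≤ D → Lin3 B → NP B →
    (∀ T ∈ B, T ⊆ A) → (∀ e ∈ A, dg B A e = D) → A.Nonempty →
    c * ((A.card : ℝ) / Real.sqrt D) / (Real.log A.card * Real.sqrt (1 + Real.log D)) ≤
      run B (fun A => (A.card : ℝ)) A.card A) :
    ∃ c : ℝ, 0 < c ∧ ∃ n0 : ℕ, ∀ n : ℕ, n0 ≤ n →
      c * ((n : ℝ) ^ (3 / 2 : ℝ) / (Real.log n) ^ (3 / 2 : ℝ)) ≤ expF n := by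
  obtain ⟨c, hc, D0, hlow⟩ := hlow
  refine ⟨c / 16, by positivity, D0 + 4, fun n hn => ?_⟩
  have hn4 : (4 : ℝ) ≤ n := by exact_mod_cast (by omega : 4 ≤ n)
  have hn0 : (0 : ℝ) < n := by linarith
  have hne : (EE (⊤ : SimpleGraph (Fin n))).Nonempty := by
    rw [← card_pos, card_EE_top]
    exact Nat.choose_pos (by omega)
  have h1 := hlow (Sym2 (Fin n)) (BK n) (EE (⊤ : SimpleGraph (Fin n))) (n - 2) (by omega)
    (lin3_BK n) (np_BK n) (sub_EE_top n) (dg_top n) hne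
  rw [← expF_eq_run, card_EE_top] at h1
  refine le_trans ?_ h1
  -- the quantities
  have hDc : ((n - 2 : ℕ) : ℝ) = n - 2 := by
    rw [Nat.cast_sub (by omega)]
    norm_num
  rw [hDc, Nat.cast_choose_two]
  have hlog1 : (1 : ℝ) ≤ Real.log n := by
    rw [Real.le_log_iff_exp_le hn0]
    have := Real.exp_one_lt_d9
    linarith
  have hD0 : (0 : ℝ) < n - 2 := by linarith
  have hN1 : (n : ℝ) ^ 2 / 4 ≤ n * (n - 1) / 2 := by nlinarith
  have hN2 : (n : ℝ) * (n - 1) / 2 ≤ n ^ 2 := by nlinarith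
  have hN0 : (1 : ℝ) < n * (n - 1) / 2 := by nlinarith
  have hlogN : Real.log (n * (n - 1) / 2) ≤ 2 * Real.log n := by
    calc Real.log (n * (n - 1) / 2) ≤ Real.log ((n : ℝ) ^ 2) :=
          Real.log_le_log (by linarith) hN2
      _ = 2 * Real.log n := by rw [Real.log_pow]; norm_num
  have hlogN0 : 0 < Real.log (n * (n - 1) / 2) := Real.log_pos hN0
  have hlogD0 : 0 ≤ Real.log ((n : ℝ) - 2) := Real.log_nonneg (by linarith)
  have hlogD : Real.log ((n : ℝ) - 2) ≤ Real.log n := Real.log_le_log hD0 (by linarith)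
  set L := Real.log n
  have hL0 : 0 < L := by linarith
  have e32 : (n : ℝ) ^ (3 / 2 : ℝ) = n * Real.sqrt n := by
    rw [Real.sqrt_eq_rpow, ← Real.rpow_one_add' hn0.le (by norm_num)]
    norm_num
  have e32' : L ^ (3 / 2 : ℝ) = L * Real.sqrt L := by
    rw [Real.sqrt_eq_rpow, ← Real.rpow_one_add' hL0.le (by norm_num)]
    norm_num
  rw [e32, e32']
  have hsL : 0 < Real.sqrt L := Real.sqrt_pos.mpr hL0
  have hsn : 0 < Real.sqrt n := Real.sqrt_pos.mpr hn0
  have hsD : 0 < Real.sqrt ((n : ℝ) - 2) := Real.sqrt_pos.mpr hD0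
  have hs1 : Real.sqrt (1 + Real.log ((n : ℝ) - 2)) ≤ 2 * Real.sqrt L := by
    calc Real.sqrt (1 + Real.log ((n : ℝ) - 2)) ≤ Real.sqrt (2 ^ 2 * L) :=
          Real.sqrt_le_sqrt (by linarith)
      _ = 2 * Real.sqrt L := by
          rw [Real.sqrt_mul (by norm_num), Real.sqrt_sq (by norm_num)]
  have hs1' : 0 < Real.sqrt (1 + Real.log ((n : ℝ) - 2)) := Real.sqrt_pos.mpr (by linarith)
  -- denominator
  have hden : Real.log (n * (n - 1) / 2) * Real.sqrt (1 + Real.log ((n : ℝ) - 2)) ≤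
      4 * (L * Real.sqrt L) := by
    calc Real.log (n * (n - 1) / 2) * Real.sqrt (1 + Real.log ((n : ℝ) - 2)) ≤
          (2 * L) * (2 * Real.sqrt L) :=
          mul_le_mul hlogN hs1 hs1'.le (by positivity)
      _ = 4 * (L * Real.sqrt L) := by ring
  -- numerator
  have hss : Real.sqrt n * Real.sqrt n = n := Real.mul_self_sqrt hn0.le
  have hnum : n * Real.sqrt n / 4 ≤ (n : ℝ) * (n - 1) / 2 / Real.sqrt ((n : ℝ) - 2) := by
    rw [le_div_iff₀ hsD]
    have h3 : Real.sqrt ((n : ℝ) - 2) ≤ Real.sqrt n := Real.sqrt_le_sqrt (by linarith)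
    calc n * Real.sqrt n / 4 * Real.sqrt ((n : ℝ) - 2) ≤ n * Real.sqrt n / 4 * Real.sqrt n :=
          mul_le_mul_of_nonneg_left h3 (by positivity)
      _ = (n : ℝ) ^ 2 / 4 := by rw [mul_div_right_comm, mul_assoc (n / 4 : ℝ), hss]; ring
      _ ≤ _ := hN1
  calc c / 16 * (n * Real.sqrt n / (L * Real.sqrt L))
      = c * (n * Real.sqrt n / 4) / (4 * (L * Real.sqrt L)) := by
        field_simp
        ring
    _ ≤ c * (n * Real.sqrt n / 4) /
        (Real.log (n * (n - 1) / 2) * Real.sqrt (1 + Real.log ((n : ℝ) - 2))) :=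
        div_le_div_of_nonneg_left (by positivity) (by positivity) hden
    _ ≤ _ := by
        apply div_le_div_of_nonneg_right _ (by positivity)
        exact mul_le_mul_of_nonneg_left hnum hc.le

end

end Vale.Agent.P046
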