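import Vale.Agent.P046.Low.LDefs
import Vale.Agent.P046.Drift

/-!
P046, lower bound: the generator applied to the basic functionals
-/

namespace Vale.Agent.P046

open Finset Drift

noncomputable section

variable {α : Type} [DecidableEq α]

/-- the number of alive blocks which meet the alive block `T` -/
theorem card_meet (B : Finset (Finset α)) (hB : Lin3 B) (A T : Finset α) (hT : T ∈ bl B A) :
    (((bl B A).filter (fun T' => ¬ Disjoint T' T)).card : ℝ) =
      ∑ e ∈ T, (dg B A e : ℝ) - 2 := by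
  have hset : ((bl B A).filter (fun T' => ¬ Disjoint T' T)).erase T =
      T.biUnion (fun e => ((bl B A).filter (fun T' => e ∈ T')).erase T) := by
    ext T'
    simp only [mem_filter, mem_biUnion, mem_erase]
    constructor
    · rintro ⟨hne, hT', hd⟩
      obtain ⟨f, hf1, hf2⟩ := Finset.not_disjoint_iff.1 hd
      exact ⟨f, hf2, hne, hT', hf1⟩
    · rintro ⟨f, hf1, hne, hT', hf2⟩
      exact ⟨hne, hT', Finset.not_disjoint_iff.2 ⟨f, hf2, hf1⟩⟩
  have hTm : T ∈ (bl B A).filter (fun T' => ¬ Disjoint T' T) := by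
    simp only [mem_filter]
    refine ⟨hT, ?_⟩
    have h3 := hB.card3 T (mem_bl.1 hT).1
    obtain ⟨e, he⟩ : T.Nonempty := Finset.card_pos.1 (by omega)
    exact Finset.not_disjoint_iff.2 ⟨e, he, he⟩
  have h1 := Finset.card_erase_add_one hTm
  have h2 : ((((bl B A).filter (fun T' => ¬ Disjoint T' T)).erase T).card : ℝ) =
      ∑ e ∈ T, ((dg B A e : ℝ) - 1) := by
    rw [hset, Finset.card_biUnion]
    · push_cast
      refine Finset.sum_congr rfl fun e he => ?_
      have hmem : T ∈ (bl B A).filter (fun T' => e ∈ T') := by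
        simp only [mem_filter]
        exact ⟨hT, he⟩
      rw [Finset.card_erase_of_mem hmem]
      have h1 : 1 ≤ ((bl B A).filter (fun T' => e ∈ T')).card := Finset.card_pos.2 ⟨T, hmem⟩
      rw [Nat.cast_sub h1]
      simp [dg]
    · intro f hf g hg hfg
      simp only [Function.onFun]
      rw [Finset.disjoint_left]
      intro T' h1 h2
      simp only [mem_erase, mem_filter] at h1 h2
      exact h1.1 (eq_of_two hB (mem_bl.1 h1.2.1).1 (mem_bl.1 hT).1 hfg h1.2.2 h2.2.2 hf hg)
  have h3 := hB.card3 T (mem_bl.1 hT).1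
  have h4 : (((bl B A).filter (fun T' => ¬ Disjoint T' T)).card : ℝ) =
      ((((bl B A).filter (fun T' => ¬ Disjoint T' T)).erase T).card : ℝ) + 1 := by
    exact_mod_cast h1.symm
  rw [h4, h2, Finset.sum_sub_distrib, Finset.sum_const, h3]
  norm_num
  ring

theorem sum_dg (B : Finset (Finset α)) (hB : Lin3 B) (A : Finset α) :
    ∑ e ∈ A, (dg B A e : ℝ) = 3 * ((bl B A).card : ℝ) := by
  have h1 := sum_blocks B A (fun _ => (1 : ℝ))
  simp only [mul_one] at h1
  rw [← h1]
  have h2 : ∀ T ∈ bl B A, ∑ _e ∈ T, (1 : ℝ) = 3 := by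
    intro T hT
    have h3 := hB.card3 T (mem_bl.1 hT).1
    simp [h3]
  rw [Finset.sum_congr rfl h2, Finset.sum_const, nsmul_eq_mul, mul_comm]

theorem gn_sum (B : Finset (Finset α)) (hB : Lin3 B) (A : Finset α) :
    gn B (fun A => ∑ e ∈ A, (dg B A e : ℝ)) A =
      -3 * ∑ e ∈ A, (dg B A e : ℝ) ^ 2 + 2 * ∑ e ∈ A, (dg B A e : ℝ) := by
  unfold gn
  have h1 : ∀ T ∈ bl B A, (∑ e ∈ A \ T, (dg B (A \ T) e : ℝ) - ∑ e ∈ A, (dg B A e : ℝ)) =
      -3 * ∑ e ∈ T, (dg B A e : ℝ) + 6 := by
    intro T hT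
    rw [sum_dg B hB, sum_dg B hB, bl_sdiff]
    have h2 := Finset.card_filter_add_card_filter_not (s := bl B A) (fun T' => Disjoint T' T)
    have h3 := card_meet B hB A T hT
    have h4 : (((bl B A).filter (fun T' => Disjoint T' T)).card : ℝ) +
        (((bl B A).filter (fun T' => ¬ Disjoint T' T)).card : ℝ) = ((bl B A).card : ℝ) := by
      exact_mod_cast h2
    linarith
  rw [Finset.sum_congr rfl h1, Finset.sum_add_distrib, ← Finset.mul_sum, sum_blocks,
    Finset.sum_const, nsmul_eq_mul, sum_dg B hB]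
  have h2 : ∀ e ∈ A, (dg B A e : ℝ) * (dg B A e : ℝ) = (dg B A e : ℝ) ^ 2 := fun e _ => by ring
  rw [Finset.sum_congr rfl h2]
  ring

theorem mem_isos {B : Finset (Finset α)} {A T : Finset α} :
    T ∈ isos B A ↔ T ∈ bl B A ∧ ∀ e ∈ T, dg B A e = 1 := by
  simp [isos]

theorem isos_subset (B : Finset (Finset α)) (A : Finset α) : isos B A ⊆ bl B A :=
  Finset.filter_subset _ _

/-- an isolated block is disjoint from the other alive blocks -/
theorem disjoint_of_isos {B : Finset (Finset α)} {A T T' : Finset α} (hT : T ∈ isos B A)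
    (hT' : T' ∈ bl B A) (hne : T' ≠ T) : Disjoint T' T := by
  by_contra hd
  obtain ⟨f, hf1, hf2⟩ := Finset.not_disjoint_iff.1 hd
  have h1 := (mem_isos.1 hT).2 f hf2
  have h2 : ({T', T} : Finset (Finset α)) ⊆ (bl B A).filter (fun T => f ∈ T) := by
    intro X hX
    simp only [mem_insert, mem_singleton] at hX
    simp only [mem_filter]
    rcases hX with rfl | rfl
    · exact ⟨hT', hf1⟩
    · exact ⟨(mem_isos.1 hT).1, hf2⟩
  have h3 := Finset.card_le_card h2
  rw [Finset.card_pair hne] at h3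
  unfold dg at h1
  omega

theorem isos_sdiff (B : Finset (Finset α)) (A T₀ : Finset α) (hT₀ : T₀ ∈ bl B A)
    (hne : T₀.Nonempty) :
    (isos B (A \ T₀)).filter (fun T => T ∈ isos B A) = (isos B A).erase T₀ := by
  ext T
  simp only [mem_filter, mem_erase]
  constructor
  · rintro ⟨h1, h2⟩
    refine ⟨?_, h2⟩
    rintro rfl
    obtain ⟨e, he⟩ := hne
    have := (mem_bl.1 (mem_isos.1 h1).1).2 he
    simp only [mem_sdiff] at this
    exact this.2 he
  · rintro ⟨h1, h2⟩
    refine ⟨?_, h2⟩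
    have hd := disjoint_of_isos h2 hT₀ (Ne.symm h1)
    have hb : T ∈ bl B (A \ T₀) := by
      rw [bl_sdiff, mem_filter]
      exact ⟨(mem_isos.1 h2).1, hd.symm⟩
    refine mem_isos.2 ⟨hb, fun e he => ?_⟩
    have h3 := dg_pos hb he
    have h4 := dg_sdiff B A T₀ e
    have h5 := (mem_isos.1 h2).2 e he
    omega

theorem gn_Y (B : Finset (Finset α)) (hB : Lin3 B) (A : Finset α) :
    gn B (Yf B) A = -Yf B A + Fo B A := by
  unfold gn
  have h1 : ∀ T₀ ∈ bl B A, Yf B (A \ T₀) - Yf B A =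
      -(if T₀ ∈ isos B A then (1 : ℝ) else 0) +
        (((isos B (A \ T₀)).filter (fun T => T ∉ isos B A)).card : ℝ) := by
    intro T₀ hT₀
    have hc := hB.card3 T₀ (mem_bl.1 hT₀).1
    have hne : T₀.Nonempty := Finset.card_pos.1 (by omega)
    have h2 := Finset.card_filter_add_card_filter_not (s := isos B (A \ T₀))
      (fun T => T ∈ isos B A)
    rw [isos_sdiff B A T₀ hT₀ hne] at h2
    have h4 : (((isos B A).erase T₀).card : ℝ) +
        (((isos B (A \ T₀)).filter (fun T => T ∉ isos B A)).card : ℝ) = Yf B (A \ T₀) := by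
      unfold Yf
      exact_mod_cast h2
    have h5 : (((isos B A).erase T₀).card : ℝ) = Yf B A - (if T₀ ∈ isos B A then (1 : ℝ) else 0) := by
      unfold Yf
      by_cases h : T₀ ∈ isos B A
      · rw [if_pos h, ← Finset.card_erase_add_one h]
        push_cast
        ring
      · rw [if_neg h, Finset.erase_eq_of_notMem h]
        ring
    linarith
  rw [Finset.sum_congr rfl h1, Finset.sum_add_distrib, Finset.sum_neg_distrib]
  have h2 : ∑ T₀ ∈ bl B A, (if T₀ ∈ isos B A then (1 : ℝ) else 0) = Yf B A := by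
    rw [← Finset.sum_filter, Finset.filter_mem_eq_inter,
      Finset.inter_eq_right.2 (isos_subset B A), Finset.sum_const, nsmul_eq_mul, mul_one]
    rfl
  rw [h2]
  rfl

theorem gn_W (B : Finset (Finset α)) (hB : Lin3 B) (A : Finset α) :
    gn B (Wf B) A = -Sf B A - 3 * Fo B A := by
  have h1 := drift_card B hB A
  have h2 := gn_Y B hB A
  unfold gn at h2 ⊢
  have h3 : ∀ T ∈ bl B A, Wf B (A \ T) - Wf B A =
      (((A \ T).card : ℝ) - (A.card : ℝ)) - 3 * (Yf B (A \ T) - Yf B A) := by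
    intro T _
    unfold Wf
    ring
  rw [Finset.sum_congr rfl h3, Finset.sum_sub_distrib, ← Finset.mul_sum, h1, h2]
  unfold Sf
  ring

theorem gn_S (B : Finset (Finset α)) (hB : Lin3 B) (A : Finset α) :
    gn B (Sf B) A = -3 * Qf B A + 2 * Sf B A - 3 * Fo B A := by
  have h1 := gn_sum B hB A
  have h2 := gn_Y B hB A
  unfold gn at h1 h2 ⊢
  have h3 : ∀ T ∈ bl B A, Sf B (A \ T) - Sf B A =
      (∑ e ∈ A \ T, (dg B (A \ T) e : ℝ) - ∑ e ∈ A, (dg B A e : ℝ)) -
        3 * (Yf B (A \ T) - Yf B A) := by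
    intro T _
    unfold Sf
    ring
  rw [Finset.sum_congr rfl h3, Finset.sum_sub_distrib, ← Finset.mul_sum, h1, h2]
  unfold Sf Qf
  ring

end

end Vale.Agent.P046
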