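import Vale.Agent.P046.Low.LDefs
import Vale.Agent.P046.Drift

/-!
P046, lower bound, row ZM: the number of points of degree zero, the mixed blocks, and the number of
points of large degree.
-/

namespace Vale.Agent.P046

open Finset Drift

noncomputable section

variable {α : Type} [DecidableEq α]

namespace ZM

theorem dg_sdiff_le (B : Finset (Finset α)) (A T : Finset α) (e : α) :
    dg B (A \ T) e ≤ dg B A e := by
  rw [dg_sdiff B A T e]
  exact Nat.le_add_right _ _

theorem dg_zero_notMem {B : Finset (Finset α)} {A T : Finset α} (hT : T ∈ bl B A) {e : α}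
    (he : dg B A e = 0) : e ∉ T := by
  intro h
  have := dg_pos hT h
  omega

theorem zset_subset (B : Finset (Finset α)) (A T : Finset α) (hT : T ∈ bl B A) :
    A.filter (fun e => dg B A e = 0) ⊆ (A \ T).filter (fun e => dg B (A \ T) e = 0) := by
  intro e he
  rw [mem_filter] at he ⊢
  refine ⟨mem_sdiff.2 ⟨he.1, dg_zero_notMem hT he.2⟩, ?_⟩
  have := dg_sdiff_le B A T e
  omega

theorem eq_of_dg_one {B : Finset (Finset α)} {A T T' : Finset α} {e : α} (h1 : dg B A e = 1)
    (hT : T ∈ bl B A) (hT' : T' ∈ bl B A) (h2 : e ∈ T) (h3 : e ∈ T') : T = T' := by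
  unfold dg at h1
  rw [Finset.card_eq_one] at h1
  obtain ⟨S, hS⟩ := h1
  have a1 : T ∈ (bl B A).filter (fun T => e ∈ T) := mem_filter.2 ⟨hT, h2⟩
  have a2 : T' ∈ (bl B A).filter (fun T => e ∈ T) := mem_filter.2 ⟨hT', h3⟩
  rw [hS, mem_singleton] at a1 a2
  rw [a1, a2]

theorem exists_other {B : Finset (Finset α)} {A T : Finset α} {f : α} (h2 : 2 ≤ dg B A f) :
    ∃ T' ∈ bl B A, f ∈ T' ∧ T' ≠ T := by
  by_contra hcon
  push Not at hcon
  have h3 : (bl B A).filter (fun T => f ∈ T) ⊆ {T} := by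
    intro T' hT'
    rw [mem_filter] at hT'
    exact mem_singleton.2 (hcon T' hT'.1 hT'.2)
  have h4 := Finset.card_le_card h3
  rw [card_singleton] at h4
  unfold dg at h2
  omega

end ZM

open ZM

theorem Z_mono (B : Finset (Finset α)) (_hB : Lin3 B) (A T : Finset α) (hT : T ∈ bl B A) :
    Zf B A ≤ Zf B (A \ T) := by
  unfold Zf
  exact_mod_cast Finset.card_le_card (zset_subset B A T hT)

theorem M_le_gn_Z (B : Finset (Finset α)) (_hB : Lin3 B) (A : Finset α) :
    Mf B A ≤ gn B (Zf B) A := by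
  have hterm : ∀ T ∈ bl B A, Zf B (A \ T) - Zf B A =
      ((((A \ T).filter (fun e => dg B (A \ T) e = 0)) \
        (A.filter (fun e => dg B A e = 0))).card : ℝ) := by
    intro T hT
    rw [Finset.card_sdiff_of_subset (zset_subset B A T hT),
      Nat.cast_sub (Finset.card_le_card (zset_subset B A T hT))]
    rfl
  unfold gn
  rw [Finset.sum_congr rfl hterm, ← Nat.cast_sum, ← Finset.card_sigma]
  unfold Mf
  norm_cast
  have hch : ∀ T ∈ mix B A, ∃ q : (_ : Finset α) × α, q ∈ (bl B A).sigma (fun T' =>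
      (((A \ T').filter (fun e => dg B (A \ T') e = 0)) \ (A.filter (fun e => dg B A e = 0)))) ∧
      q.2 ∈ T ∧ dg B A q.2 = 1 := by
    intro T hT
    unfold mix at hT
    rw [mem_filter] at hT
    obtain ⟨hTb, ⟨e, heT, he1⟩, f, hfT, hf2⟩ := hT
    obtain ⟨T', hT'b, hfT', hne⟩ := exists_other (T := T) hf2
    refine ⟨⟨T', e⟩, ?_, heT, he1⟩
    have heT' : e ∉ T' := fun h => hne (eq_of_dg_one he1 hT'b hTb h heT)
    rw [mem_sigma, mem_sdiff, mem_filter, mem_filter, mem_sdiff]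
    refine ⟨hT'b, ⟨⟨(mem_bl.1 hTb).2 heT, heT'⟩, ?_⟩, ?_⟩
    · have h1 := dg_sdiff B A T' e
      have h2 : 1 ≤ kk B A T' e := by
        unfold kk
        refine Finset.card_pos.2 ⟨T, ?_⟩
        rw [mem_filter]
        exact ⟨hTb, heT, Finset.not_disjoint_iff.2 ⟨f, hfT, hfT'⟩⟩
      show dg B (A \ T') e = 0
      omega
    · rintro ⟨_, h0⟩
      have : dg B A e = 0 := h0
      omega
  rcases (mix B A).eq_empty_or_nonempty with h0 | ⟨T₀, hT₀⟩
  · rw [h0]
    exact Nat.zero_le _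
  obtain ⟨q₀, -⟩ := hch T₀ hT₀
  have : Nonempty ((_ : Finset α) × α) := ⟨q₀⟩
  choose! Q hQ using hch
  refine Finset.card_le_card_of_injOn Q (fun T hT => (hQ T hT).1) ?_
  intro T₁ h1 T₂ h2 h12
  have a1 := hQ T₁ h1
  have a2 := hQ T₂ h2
  have b1 : T₁ ∈ bl B A := (mem_filter.1 h1).1
  have b2 : T₂ ∈ bl B A := (mem_filter.1 h2).1
  have h12' : (Q T₁).2 = (Q T₂).2 := by rw [h12]
  exact eq_of_dg_one a1.2.2 b1 b2 a1.2.1 (h12' ▸ a2.2.1)

theorem gn_H (B : Finset (Finset α)) (_hB : Lin3 B) (k : ℝ) (A : Finset α) :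
    gn B (Hf B k) A ≤ -k * Hf B k A := by
  have hterm : ∀ T ∈ bl B A, Hf B k (A \ T) - Hf B k A ≤
      -∑ e ∈ T, if k ≤ (dg B A e : ℝ) then (1 : ℝ) else 0 := by
    intro T hT
    have hTA : T ⊆ A := (mem_bl.1 hT).2
    have hsub : T.filter (fun e => k ≤ (dg B A e : ℝ)) ⊆
        A.filter (fun e => k ≤ (dg B A e : ℝ)) := Finset.filter_subset_filter _ hTA
    have h1 : (A \ T).filter (fun e => k ≤ (dg B (A \ T) e : ℝ)) ⊆
        A.filter (fun e => k ≤ (dg B A e : ℝ)) \ T.filter (fun e => k ≤ (dg B A e : ℝ)) := by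
      intro e he
      rw [mem_filter, mem_sdiff] at he
      rw [mem_sdiff, mem_filter, mem_filter]
      refine ⟨⟨he.1.1, he.2.trans ?_⟩, fun h => he.1.2 h.1⟩
      exact_mod_cast dg_sdiff_le B A T e
    have h2 := Finset.card_le_card h1
    rw [Finset.card_sdiff_of_subset hsub] at h2
    have h3 := Finset.card_le_card hsub
    have h4 : (((A \ T).filter (fun e => k ≤ (dg B (A \ T) e : ℝ))).card : ℝ) ≤
        ((A.filter (fun e => k ≤ (dg B A e : ℝ))).card : ℝ) -
          ((T.filter (fun e => k ≤ (dg B A e : ℝ))).card : ℝ) := by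
      rw [← Nat.cast_sub h3]
      exact_mod_cast h2
    rw [Finset.sum_boole]
    unfold Hf
    linarith
  unfold gn
  refine (Finset.sum_le_sum hterm).trans ?_
  rw [Finset.sum_neg_distrib, sum_blocks, neg_mul, neg_le_neg_iff]
  unfold Hf
  rw [Finset.card_filter]
  push_cast
  rw [Finset.mul_sum]
  refine Finset.sum_le_sum fun e _ => ?_
  by_cases h : k ≤ (dg B A e : ℝ)
  · simp [h]
  · simp [h]

end

end Vale.Agent.P046
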