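import Vale.Agent.P046.Low.ItOf
import Vale.Agent.P046.Low.ZM
import Vale.Agent.P046.Low.Gen

/-!
P046, lower bound: row IT (iterates of the lazy chain), final statements.
-/

namespace Vale.Agent.P046

open Finset

noncomputable section

variable {α : Type} [DecidableEq α]

theorem It_Z (B : Finset (Finset α)) (hB : Lin3 B) (i : ℕ) (A : Finset α) :
    It B i A (Zf B) ≤ run B (fun A => (A.card : ℝ)) A.card A :=
  It_Z_of B hB (fun A T hT => Z_mono B hB A T hT) i A

theorem It_M (B : Finset (Finset α)) (hB : Lin3 B) (hM : 0 < B.card) (k : ℕ) (A : Finset α) :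
    ∑ i ∈ range k, It B i A (Mf B) / (B.card : ℝ) ≤
      run B (fun A => (A.card : ℝ)) A.card A :=
  It_M_of B hB hM (fun A T hT => Z_mono B hB A T hT) (fun A => M_le_gn_Z B hB A) k A

theorem It_H (B : Finset (Finset α)) (hB : Lin3 B) (hM : 0 < B.card) (k : ℝ) (hk : 0 ≤ k)
    (i : ℕ) (A : Finset α) :
    It B i A (Hf B k) ≤ (A.card : ℝ) * Real.exp (-(k * i / (B.card : ℝ))) :=
  It_H_of B hM k hk (fun A => gn_H B hB k A) i A

theorem It_early (B : Finset (Finset α)) (hB : Lin3 B) (hM : 0 < B.card) (A : Finset α)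
    (w : ℕ → ℝ) (hw : ∀ i, 0 ≤ w i) (hwm : ∀ i j, i ≤ j → w i ≤ w j) (k : ℕ)
    (hk : 2 * k ≤ B.card) :
    ∑ i ∈ range k, It B i A (Fo B) / (B.card : ℝ) * w (i + 1) ≤ 2 * w k * It B k A (Yf B) :=
  It_early_of B hM A (fun A => gn_Y B hB A) w hw hwm k hk

end

end Vale.Agent.P046
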