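import Vale.Agent.P046.Low.TDefs
import Vale.Agent.P046.Low.It

/-!
P046, lower bound in probability: row TZ (points of degree zero on the event that the final state
is small).
-/

namespace Vale.Agent.P046

open Finset

noncomputable section

variable {α : Type} [DecidableEq α]

namespace TZ

theorem card_sdiff_add {B : Finset (Finset α)} (hB : Lin3 B) {A T : Finset α}
    (hT : T ∈ bl B A) : (A \ T).card + 3 = A.card := by
  have hT' := mem_bl.mp hT
  have h3 := hB.card3 T hT'.1
  have h4 := card_sdiff_add_card_eq_card hT'.2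
  omega

theorem run_mono (B : Finset (Finset α)) (Φ Ψ : Finset α → ℝ) (h : ∀ A, Φ A ≤ Ψ A) :
    ∀ (k : ℕ) (A : Finset α), run B Φ k A ≤ run B Ψ k A := by
  intro k
  induction k with
  | zero => exact h
  | succ k ih =>
    intro A
    rw [run, run]
    split_ifs with h1
    · exact div_le_div_of_nonneg_right (sum_le_sum fun T _ => ih _) (by positivity)
    · exact h A

theorem run_smul (B : Finset (Finset α)) (c : ℝ) (Φ : Finset α → ℝ) :
    ∀ (k : ℕ) (A : Finset α), run B (fun A => c * Φ A) k A = c * run B Φ k A := by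
  intro k
  induction k with
  | zero => exact fun _ => rfl
  | succ k ih =>
    intro A
    rw [run, run]
    split_ifs with h1
    · rw [sum_congr rfl fun T _ => ih _, ← mul_sum, mul_div_assoc]
    · rfl

theorem run_const (B : Finset (Finset α)) (c : ℝ) :
    ∀ (k : ℕ) (A : Finset α), run B (fun _ => c) k A = c := by
  intro k
  induction k with
  | zero => exact fun _ => rfl
  | succ k ih =>
    intro A
    rw [run]
    split_ifs with h1
    · have h2 : ((bl B A).card : ℝ) ≠ 0 := by
        exact_mod_cast (card_pos.mpr h1).ne'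
      rw [sum_congr rfl fun T _ => ih _, sum_const, nsmul_eq_mul]
      field_simp
    · rfl

theorem few_nonneg (x : ℝ) (A : Finset α) : 0 ≤ few x A := by
  unfold few
  split_ifs <;> norm_num

theorem few_le_one (x : ℝ) (A : Finset α) : few x A ≤ 1 := by
  unfold few
  split_ifs <;> norm_num

/-- product rule -/
theorem gn_prod (B : Finset (Finset α)) (f g : Finset α → ℝ) (A : Finset α)
    (h : gn B g A = 0) :
    gn B (fun A => f A * g A) A = g A * gn B f A + cr B f g A := by
  have h1 : gn B (fun A => f A * g A) A =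
      g A * gn B f A + cr B f g A + f A * gn B g A := by
    unfold gn cr
    rw [mul_sum, mul_sum, ← sum_add_distrib, ← sum_add_distrib]
    exact sum_congr rfl fun T _ => by ring
  rw [h1, h]
  ring

end TZ

open TZ

theorem gn_gx (B : Finset (Finset α)) (hB : Lin3 B) (x : ℝ) (A : Finset α) :
    gn B (gx B x) A = 0 := by
  unfold gn
  rw [sum_sub_distrib, sum_const, nsmul_eq_mul]
  by_cases h1 : (bl B A).Nonempty
  · have h2 : ((bl B A).card : ℝ) ≠ 0 := by
      exact_mod_cast (card_pos.mpr h1).ne'
    have h3 := run_card B hB (few x) A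
    rw [if_pos h1, eq_div_iff h2] at h3
    unfold gx
    rw [← h3]
    ring
  · rw [not_nonempty_iff_eq_empty] at h1
    simp [h1]

theorem gx_nonneg (B : Finset (Finset α)) (hB : Lin3 B) (x : ℝ) (A : Finset α) :
    0 ≤ gx B x A := by
  have h1 := run_mono B (fun _ => 0) (few x) (fun A => few_nonneg x A) A.card A
  rw [run_const] at h1
  exact h1

theorem gx_le_one (B : Finset (Finset α)) (hB : Lin3 B) (x : ℝ) (A : Finset α) :
    gx B x A ≤ 1 := by
  have h1 := run_mono B (few x) (fun _ => 1) (fun A => few_le_one x A) A.card A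
  rw [run_const] at h1
  exact h1

namespace TZ

theorem Zg_le (B : Finset (Finset α)) (hB : Lin3 B) (x : ℝ) :
    ∀ (m : ℕ) (A : Finset α), A.card ≤ m →
      Zf B A * gx B x A ≤ run B (fun A => (A.card : ℝ) * few x A) A.card A := by
  have hcard : ∀ A : Finset α, Zf B A ≤ (A.card : ℝ) := fun A => by
    unfold Zf
    exact_mod_cast card_filter_le _ _
  intro m
  induction m with
  | zero =>
    intro A hA
    have h0 : A.card = 0 := by omega
    unfold gx
    rw [h0]
    exact mul_le_mul_of_nonneg_right (hcard A) (few_nonneg x A)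
  | succ m ih =>
    intro A hA
    unfold gx
    rw [run_card B hB, run_card B hB]
    split_ifs with h1
    · rw [mul_div_assoc', mul_sum]
      refine div_le_div_of_nonneg_right (sum_le_sum fun T hT => ?_) (by positivity)
      have hc := card_sdiff_add hB hT
      refine le_trans ?_ (ih (A \ T) (by omega))
      exact mul_le_mul_of_nonneg_right (Z_mono B hB A T hT) (gx_nonneg B hB x (A \ T))
    · exact mul_le_mul_of_nonneg_right (hcard A) (few_nonneg x A)

theorem run_card_few_le (B : Finset (Finset α)) (x : ℝ) (hx : 0 ≤ x) (A : Finset α) :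
    run B (fun A => (A.card : ℝ) * few x A) A.card A ≤ x * gx B x A := by
  unfold gx
  rw [← run_smul]
  refine run_mono B _ _ (fun A => ?_) _ _
  unfold few
  split_ifs with h
  · linarith
  · simp

end TZ

theorem It_Zg (B : Finset (Finset α)) (hB : Lin3 B) (hM : 0 < B.card) (x : ℝ) (hx : 0 ≤ x)
    (i : ℕ) (A : Finset α) :
    It B i A (fun A => Zf B A * gx B x A) ≤ x * gx B x A := by
  have h1 : ((lz B)^[i]) (fun A => run B (fun A => (A.card : ℝ) * few x A) A.card A) =
      fun A => run B (fun A => (A.card : ℝ) * few x A) A.card A :=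
    Function.iterate_fixed (lz_run B hB _) i
  have h2 := It_mono B i A (fun A => Zf B A * gx B x A)
    (fun A => run B (fun A => (A.card : ℝ) * few x A) A.card A)
    (fun A' _ => Zg_le B hB x _ A' le_rfl)
  unfold It at h2 ⊢
  rw [h1] at h2
  exact h2.trans (run_card_few_le B x hx A)

theorem late_M (B : Finset (Finset α)) (hB : Lin3 B) (hM : 0 < B.card) (x : ℝ) (hx : 0 ≤ x)
    (A : Finset α) (k k' : ℕ) (hk : k ≤ k') :
    ∑ i ∈ Finset.Ico k k', It B i A (fun A => Mf B A * gx B x A) / (B.card : ℝ) ≤
      x * gx B x A +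
        ∑ i ∈ Finset.Ico k k', |It B i A (cr B (Zf B) (gx B x))| / (B.card : ℝ) := by
  have hMr : (0 : ℝ) < B.card := by exact_mod_cast hM
  have hstep : ∀ i, It B i A (fun A => Mf B A * gx B x A) / (B.card : ℝ) ≤
      It B (i + 1) A (fun A => Zf B A * gx B x A) - It B i A (fun A => Zf B A * gx B x A) +
        |It B i A (cr B (Zf B) (gx B x))| / (B.card : ℝ) := by
    intro i
    have h1 : It B i A (fun A => 1 * (Mf B A * gx B x A) + 1 * cr B (Zf B) (gx B x) A) ≤
        It B i A (gn B (fun A => Zf B A * gx B x A)) := by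
      refine It_mono B i A _ _ fun A' _ => ?_
      rw [gn_prod B (Zf B) (gx B x) A' (gn_gx B hB x A')]
      have h2 := mul_le_mul_of_nonneg_right (M_le_gn_Z B hB A') (gx_nonneg B hB x A')
      linarith
    rw [It_lin] at h1
    rw [It_succ B hM]
    have h3 := neg_abs_le (It B i A (cr B (Zf B) (gx B x)))
    have h4 : (It B i A (fun A => Mf B A * gx B x A) -
        |It B i A (cr B (Zf B) (gx B x))|) / (B.card : ℝ) ≤
        It B i A (gn B (fun A => Zf B A * gx B x A)) / (B.card : ℝ) := by
      refine div_le_div_of_nonneg_right ?_ hMr.le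
      linarith
    rw [sub_div] at h4
    linarith
  have hsum : ∀ j, k ≤ j → ∑ i ∈ Finset.Ico k j,
      It B i A (fun A => Mf B A * gx B x A) / (B.card : ℝ) ≤
      It B j A (fun A => Zf B A * gx B x A) - It B k A (fun A => Zf B A * gx B x A) +
        ∑ i ∈ Finset.Ico k j, |It B i A (cr B (Zf B) (gx B x))| / (B.card : ℝ) := by
    intro j hj
    induction j, hj using Nat.le_induction with
    | base => simp
    | succ j hj ih =>
      rw [Finset.sum_Ico_succ_top hj, Finset.sum_Ico_succ_top hj]
      have := hstep j
      linarith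
  have h5 := hsum k' hk
  have h6 := It_Zg B hB hM x hx k' A
  have h7 : 0 ≤ It B k A (fun A => Zf B A * gx B x A) :=
    It_nonneg B k A _ fun A' _ => mul_nonneg (by unfold Zf; positivity) (gx_nonneg B hB x A')
  linarith

end

end Vale.Agent.P046
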