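import Vale.Agent.P046.Low.LDefs
import Vale.Agent.P046.Drift

/-!
P046, lower bound: row CS (the isolated blocks and the Cauchy-Schwarz inequality).
-/

namespace Vale.Agent.P046

open Finset

noncomputable section

variable {α : Type} [DecidableEq α]

namespace CS

/-- the points of the isolated blocks -/
def U (B : Finset (Finset α)) (A : Finset α) : Finset α := (isos B A).biUnion id

theorem mem_isos {B : Finset (Finset α)} {A T : Finset α} :
    T ∈ isos B A ↔ T ∈ bl B A ∧ ∀ e ∈ T, dg B A e = 1 := mem_filter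

theorem mem_U {B : Finset (Finset α)} {A : Finset α} {e : α} :
    e ∈ U B A ↔ ∃ T ∈ isos B A, e ∈ T := by
  unfold U
  simp

theorem bl_sub {B : Finset (Finset α)} {A T : Finset α} (h : T ∈ bl B A) : T ⊆ A :=
  (mem_filter.mp h).2

theorem U_sub (B : Finset (Finset α)) (A : Finset α) : U B A ⊆ A := by
  intro e he
  obtain ⟨T, hT, heT⟩ := mem_U.mp he
  exact bl_sub (mem_isos.mp hT).1 heT

theorem dg_U {B : Finset (Finset α)} {A : Finset α} {e : α} (he : e ∈ U B A) : dg B A e = 1 := by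
  obtain ⟨T, hT, heT⟩ := mem_U.mp he
  exact (mem_isos.mp hT).2 e heT

theorem card_U (B : Finset (Finset α)) (hB : Lin3 B) (A : Finset α) :
    (U B A).card = 3 * (isos B A).card := by
  unfold U
  rw [card_biUnion]
  · rw [sum_congr rfl (g := fun _ => 3), sum_const, smul_eq_mul, mul_comm]
    intro T hT
    exact hB.card3 T (mem_filter.mp (mem_isos.mp hT).1).1
  · intro T hT T' hT' hne
    rw [Function.onFun, id, id, disjoint_left]
    intro e he he'
    have h1 := (mem_isos.mp hT).2 e he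
    unfold dg at h1
    have h2 : T = T' := by
      refine card_le_one.mp (le_of_eq h1) T ?_ T' ?_
      · exact mem_filter.mpr ⟨(mem_isos.mp hT).1, he⟩
      · exact mem_filter.mpr ⟨(mem_isos.mp hT').1, he'⟩
    exact hne h2

theorem card_U_real (B : Finset (Finset α)) (hB : Lin3 B) (A : Finset α) :
    ((U B A).card : ℝ) = 3 * Yf B A := by
  rw [card_U B hB A]
  unfold Yf
  push_cast
  ring

theorem W_eq (B : Finset (Finset α)) (hB : Lin3 B) (A : Finset α) :
    Wf B A = ((A \ U B A).card : ℝ) := by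
  unfold Wf
  rw [← card_U_real B hB A, card_sdiff_of_subset (U_sub B A),
    Nat.cast_sub (card_le_card (U_sub B A))]

theorem sum_split (B : Finset (Finset α)) (A : Finset α) (g : α → ℝ) :
    ∑ e ∈ A, g e = ∑ e ∈ A \ U B A, g e + ∑ e ∈ U B A, g e :=
  (sum_sdiff (U_sub B A)).symm

theorem S_eq (B : Finset (Finset α)) (hB : Lin3 B) (A : Finset α) :
    Sf B A = ∑ e ∈ A \ U B A, (dg B A e : ℝ) := by
  unfold Sf
  rw [sum_split B A, ← card_U_real B hB A]
  have : ∑ e ∈ U B A, (dg B A e : ℝ) = (U B A).card := by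
    rw [sum_congr rfl (g := fun _ => (1 : ℝ)), sum_const, nsmul_eq_mul, mul_one]
    intro e he
    rw [dg_U he, Nat.cast_one]
  rw [this]
  ring

theorem Q_eq (B : Finset (Finset α)) (hB : Lin3 B) (A : Finset α) :
    Qf B A = ∑ e ∈ A \ U B A, (dg B A e : ℝ) ^ 2 := by
  unfold Qf
  rw [sum_split B A, ← card_U_real B hB A]
  have : ∑ e ∈ U B A, (dg B A e : ℝ) ^ 2 = (U B A).card := by
    rw [sum_congr rfl (g := fun _ => (1 : ℝ)), sum_const, nsmul_eq_mul, mul_one]
    intro e he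
    rw [dg_U he, Nat.cast_one, one_pow]
  rw [this]
  ring

end CS

open CS

theorem cs_nonneg (B : Finset (Finset α)) (hB : Lin3 B) (A : Finset α) (l : ℝ) :
    2 * l * Sf B A - l ^ 2 * Wf B A ≤ Qf B A := by
  rw [Q_eq B hB, S_eq B hB, W_eq B hB]
  have h1 : 0 ≤ ∑ e ∈ A \ U B A, ((dg B A e : ℝ) - l) ^ 2 := sum_nonneg fun e _ => sq_nonneg _
  have h2 : ∑ e ∈ A \ U B A, ((dg B A e : ℝ) - l) ^ 2 =
      ∑ e ∈ A \ U B A, (dg B A e : ℝ) ^ 2 - 2 * l * ∑ e ∈ A \ U B A, (dg B A e : ℝ) +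
        l ^ 2 * ((A \ U B A).card : ℝ) := by
    rw [mul_sum, ← sum_sub_distrib, mul_comm (l ^ 2), ← nsmul_eq_mul, ← sum_const,
      ← sum_add_distrib]
    exact sum_congr rfl fun e _ => by ring
  rw [h2] at h1
  linarith

theorem W_nonneg (B : Finset (Finset α)) (hB : Lin3 B) (A : Finset α) : 0 ≤ Wf B A := by
  rw [W_eq B hB]
  positivity

theorem S_nonneg (B : Finset (Finset α)) (hB : Lin3 B) (A : Finset α) : 0 ≤ Sf B A := by
  rw [S_eq B hB]
  exact sum_nonneg fun e _ => by positivity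

theorem S_lower (B : Finset (Finset α)) (hB : Lin3 B) (A : Finset α) :
    2 * Wf B A - 2 * Zf B A - 2 * Mf B A ≤ Sf B A := by
  have h1 : ((A \ U B A).filter (fun e => dg B A e = 1)).card ≤ (mix B A).card * 2 := by
    have hsub : (A \ U B A).filter (fun e => dg B A e = 1) ⊆
        (mix B A).biUnion (fun T => T.filter (fun e => dg B A e = 1)) := by
      intro e he
      rw [mem_filter, mem_sdiff] at he
      obtain ⟨⟨_, heU⟩, hd⟩ := he
      have hd' := hd
      unfold dg at hd'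
      obtain ⟨T, hT⟩ := card_pos.mp (by omega : 0 < ((bl B A).filter (fun T => e ∈ T)).card)
      rw [mem_filter] at hT
      have h3 : ¬ ∀ f ∈ T, dg B A f = 1 := fun h => heU (mem_U.mpr ⟨T, mem_isos.mpr ⟨hT.1, h⟩, hT.2⟩)
      push Not at h3
      obtain ⟨f, hf, hf1⟩ := h3
      have h4 := Drift.dg_pos hT.1 hf
      refine mem_biUnion.mpr ⟨T, ?_, mem_filter.mpr ⟨hT.2, hd⟩⟩
      exact mem_filter.mpr ⟨hT.1, ⟨e, hT.2, hd⟩, ⟨f, hf, by omega⟩⟩
    refine (card_le_card hsub).trans (card_biUnion_le_card_mul _ _ _ fun T hT => ?_)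
    obtain ⟨hTb, _, f, hf, hf2⟩ := mem_filter.mp hT
    have h5 : T.filter (fun e => dg B A e = 1) ⊆ T.erase f := by
      intro e he
      rw [mem_filter] at he
      refine mem_erase.mpr ⟨?_, he.1⟩
      rintro rfl
      omega
    have h6 := card_le_card h5
    rw [card_erase_of_mem hf, hB.card3 T (mem_filter.mp hTb).1] at h6
    exact h6
  have h2 : ((A \ U B A).filter (fun e => dg B A e = 0)).card ≤
      (A.filter (fun e => dg B A e = 0)).card :=
    card_le_card (filter_subset_filter _ sdiff_subset)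
  have h3 : ∑ e ∈ A \ U B A, (2 - 2 * (if dg B A e = 0 then (1 : ℝ) else 0) -
      (if dg B A e = 1 then (1 : ℝ) else 0)) ≤ ∑ e ∈ A \ U B A, (dg B A e : ℝ) := by
    refine sum_le_sum fun e _ => ?_
    rcases Nat.lt_or_ge (dg B A e) 2 with h | h
    · interval_cases h' : dg B A e
      · norm_num
      · norm_num
    · have h0 : dg B A e ≠ 0 := by omega
      have h1 : dg B A e ≠ 1 := by omega
      rw [if_neg h0, if_neg h1]
      have : (2 : ℝ) ≤ dg B A e := by exact_mod_cast h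
      linarith
  rw [sum_sub_distrib, sum_sub_distrib, ← mul_sum, sum_boole, sum_boole, sum_const,
    nsmul_eq_mul] at h3
  rw [S_eq B hB, W_eq B hB]
  have h4 : (((A \ U B A).filter (fun e => dg B A e = 1)).card : ℝ) ≤ Mf B A * 2 := by
    unfold Mf
    exact_mod_cast h1
  have h5 : (((A \ U B A).filter (fun e => dg B A e = 0)).card : ℝ) ≤ Zf B A := by
    unfold Zf
    exact_mod_cast h2
  linarith

/-- `ρ ≥ 2`: isolated blocks have large potential -/
theorem Y_le_pot (B : Finset (Finset α)) (hB : Lin3 B) (ψ ψ' : ℝ → ℝ) (c K : ℝ)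
    (h : Pot ψ ψ' c K) (ρ : ℝ) (hρ : 2 ≤ ρ) (A : Finset α) :
    3 * (c / 4) * Yf B A ≤ Pt B ψ ρ A := by
  unfold Pt
  have hρ0 : 0 < ρ := by linarith
  have hc := h.cpos
  have h0 : ∀ e, 0 ≤ ψ ((dg B A e : ℝ) / ρ) := fun e =>
    (by positivity : 0 ≤ c * ((dg B A e : ℝ) / ρ - 1) ^ 2).trans (h.lower _ (by positivity))
  rw [sum_split B A]
  have h1 : 0 ≤ ∑ e ∈ A \ U B A, ψ ((dg B A e : ℝ) / ρ) := sum_nonneg fun e _ => h0 e
  have h2 : ((U B A).card : ℝ) * (c / 4) ≤ ∑ e ∈ U B A, ψ ((dg B A e : ℝ) / ρ) := by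
    rw [← nsmul_eq_mul, ← sum_const]
    refine sum_le_sum fun e he => ?_
    rw [dg_U he, Nat.cast_one]
    refine le_trans ?_ (h.lower _ (by positivity))
    have h3 : 1 / ρ ≤ 1 / 2 := one_div_le_one_div_of_le (by norm_num) hρ
    have h4 : 1 / 4 ≤ (1 / ρ - 1) ^ 2 := by nlinarith
    nlinarith
  rw [card_U_real B hB] at h2
  linarith

end

end Vale.Agent.P046
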