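import Vale.Agent.P046.Low.ZM

/-!
P046, lower bound, row FO: the formation rate of isolated blocks.
-/

namespace Vale.Agent.P046

open Finset Drift ZM

noncomputable section

variable {α : Type} [DecidableEq α]

namespace Fo

theorem isos_sub {B : Finset (Finset α)} {A T : Finset α} (h : T ∈ isos B A) : T ∈ bl B A :=
  (mem_filter.1 h).1

/-- a newly isolated block was mixed before -/
theorem mem_mix {B : Finset (Finset α)} (hNP : NP B) {A T0 T : Finset α}
    (hT0 : T0 ∈ bl B A) (hT : T ∈ isos B (A \ T0)) (hn : T ∉ isos B A) : T ∈ mix B A := by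
  have hTb' : T ∈ bl B (A \ T0) := isos_sub hT
  have hTb : T ∈ bl B A := by
    rw [bl_sdiff, mem_filter] at hTb'
    exact hTb'.1
  have hdis : Disjoint T T0 := by
    rw [bl_sdiff, mem_filter] at hTb'
    exact hTb'.2
  have hone : ∀ e ∈ T, dg B (A \ T0) e = 1 := (mem_filter.1 hT).2
  unfold mix
  rw [mem_filter]
  refine ⟨hTb, ?_, ?_⟩
  · obtain ⟨e, heT, he⟩ := hNP T (mem_bl.1 hTb).1 T0 (mem_bl.1 hT0).1 hdis.symm
    refine ⟨e, heT, ?_⟩
    rw [dg_sdiff B A T0 e, hone e heT]
    have h0 : kk B A T0 e = 0 := by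
      unfold kk
      rw [Finset.card_eq_zero, Finset.filter_eq_empty_iff]
      rintro T' hT' ⟨heT', hnd⟩
      by_cases hTT : T' = T
      · subst hTT
        exact hnd hdis
      · exact hnd (he T' (mem_bl.1 hT').1 heT' hTT)
    rw [h0]
  · by_contra hcon
    push Not at hcon
    refine hn (mem_filter.2 ⟨hTb, fun f hf => ?_⟩)
    have h1 := dg_pos hTb hf
    have h2 := hcon f hf
    omega

/-- for a mixed block there are few blocks whose removal isolates it -/
theorem count_iso {B : Finset (Finset α)} (hB : Lin3 B) {A T : Finset α} (R : ℝ)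
    (hR : ∀ e ∈ A, (dg B A e : ℝ) ≤ R) (hT : T ∈ mix B A) :
    (((bl B A).filter (fun T0 => T ∈ isos B (A \ T0))).card : ℝ) ≤ 2 * R := by
  unfold mix at hT
  rw [mem_filter] at hT
  obtain ⟨hTb, -, f, hfT, hf2⟩ := hT
  obtain ⟨T', hT'b, hfT', hne⟩ := exists_other (T := T) hf2
  have hcard : (T'.erase f).card = 2 := by
    rw [Finset.card_erase_of_mem hfT', hB.card3 T' (mem_bl.1 hT'b).1]
  obtain ⟨g, k, -, hgk⟩ := Finset.card_eq_two.1 hcard
  have hgT' : g ∈ T' := by
    have : g ∈ T'.erase f := by rw [hgk]; simp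
    exact (mem_erase.1 this).2
  have hkT' : k ∈ T' := by
    have : k ∈ T'.erase f := by rw [hgk]; simp
    exact (mem_erase.1 this).2
  have hsub : (bl B A).filter (fun T0 => T ∈ isos B (A \ T0)) ⊆
      (bl B A).filter (fun T0 => g ∈ T0) ∪ (bl B A).filter (fun T0 => k ∈ T0) := by
    intro T0 hT0
    rw [mem_filter] at hT0
    obtain ⟨hT0b, hiso⟩ := hT0
    have hTb' : T ∈ bl B (A \ T0) := isos_sub hiso
    rw [bl_sdiff, mem_filter] at hTb'
    have hdis : Disjoint T T0 := hTb'.2
    have hone : dg B (A \ T0) f = 1 := (mem_filter.1 hiso).2 f hfT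
    have hmeet : ¬ Disjoint T' T0 := by
      intro hd
      have hT'b' : T' ∈ bl B (A \ T0) := by
        rw [bl_sdiff, mem_filter]
        exact ⟨hT'b, hd⟩
      have hTb'' : T ∈ bl B (A \ T0) := isos_sub hiso
      exact hne (eq_of_dg_one hone hT'b' hTb'' hfT' hfT)
    obtain ⟨y, hyT', hyT0⟩ := Finset.not_disjoint_iff.1 hmeet
    have hyf : y ≠ f := by
      rintro rfl
      exact Finset.disjoint_left.1 hdis hfT hyT0
    have hy : y ∈ T'.erase f := mem_erase.2 ⟨hyf, hyT'⟩
    rw [hgk, mem_insert, mem_singleton] at hy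
    rw [mem_union, mem_filter, mem_filter]
    rcases hy with rfl | rfl
    · exact Or.inl ⟨hT0b, hyT0⟩
    · exact Or.inr ⟨hT0b, hyT0⟩
  have h1 : ((bl B A).filter (fun T0 => T ∈ isos B (A \ T0))).card ≤ dg B A g + dg B A k :=
    (Finset.card_le_card hsub).trans (Finset.card_union_le _ _)
  have h2 : (((bl B A).filter (fun T0 => T ∈ isos B (A \ T0))).card : ℝ) ≤
      (dg B A g : ℝ) + (dg B A k : ℝ) := by exact_mod_cast h1
  have h3 := hR g ((mem_bl.1 hT'b).2 hgT')
  have h4 := hR k ((mem_bl.1 hT'b).2 hkT')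
  linarith

end Fo

open Fo

theorem Fo_le (B : Finset (Finset α)) (hB : Lin3 B) (hNP : NP B) (R : ℝ) (hR : 0 ≤ R)
    (A : Finset α) :
    Fo B A ≤ 2 * R * Mf B A + (B.card : ℝ) ^ 2 * Hf B R A := by
  have hM0 : 0 ≤ Mf B A := by unfold Mf; positivity
  have hH0 : 0 ≤ Hf B R A := by unfold Hf; positivity
  by_cases hbig : ∃ e ∈ A, R ≤ (dg B A e : ℝ)
  · obtain ⟨e, heA, he⟩ := hbig
    have hH : 1 ≤ Hf B R A := by
      unfold Hf
      have : 0 < (A.filter (fun e => R ≤ (dg B A e : ℝ))).card :=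
        Finset.card_pos.2 ⟨e, mem_filter.2 ⟨heA, he⟩⟩
      exact_mod_cast this
    have hFo : Fo B A ≤ (B.card : ℝ) ^ 2 := by
      unfold Fo
      have h1 : ∀ T0 ∈ bl B A,
          (((isos B (A \ T0)).filter (fun T => T ∉ isos B A)).card : ℝ) ≤ (B.card : ℝ) := by
        intro T0 _
        have : ((isos B (A \ T0)).filter (fun T => T ∉ isos B A)).card ≤ B.card := by
          refine Finset.card_le_card ?_
          intro T hT
          rw [mem_filter] at hT
          exact (mem_bl.1 (isos_sub hT.1)).1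
        exact_mod_cast this
      refine (Finset.sum_le_sum h1).trans ?_
      rw [Finset.sum_const, nsmul_eq_mul, sq]
      refine mul_le_mul_of_nonneg_right ?_ (Nat.cast_nonneg _)
      exact_mod_cast Finset.card_le_card (Finset.filter_subset _ _)
    have h2 : (B.card : ℝ) ^ 2 * 1 ≤ (B.card : ℝ) ^ 2 * Hf B R A :=
      mul_le_mul_of_nonneg_left hH (sq_nonneg _)
    have h3 : 0 ≤ 2 * R * Mf B A := by positivity
    linarith
  · push Not at hbig
    have hkey : Fo B A = ∑ T ∈ mix B A,
        (((bl B A).filter (fun T0 => T ∈ isos B (A \ T0) ∧ T ∉ isos B A)).card : ℝ) := by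
      unfold Fo
      have h1 : ∀ T0 ∈ bl B A,
          (((isos B (A \ T0)).filter (fun T => T ∉ isos B A)).card : ℝ) =
            ∑ T ∈ mix B A, if T ∈ isos B (A \ T0) ∧ T ∉ isos B A then (1 : ℝ) else 0 := by
        intro T0 hT0
        rw [Finset.sum_boole]
        congr 2
        ext T
        rw [mem_filter, mem_filter]
        constructor
        · rintro ⟨h1, h2⟩
          exact ⟨mem_mix hNP hT0 h1 h2, h1, h2⟩
        · rintro ⟨_, h1, h2⟩
          exact ⟨h1, h2⟩
      rw [Finset.sum_congr rfl h1, Finset.sum_comm]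
      refine Finset.sum_congr rfl fun T _ => ?_
      rw [Finset.sum_boole]
    have h2 : Fo B A ≤ ∑ T ∈ mix B A, 2 * R := by
      rw [hkey]
      refine Finset.sum_le_sum fun T hT => ?_
      refine le_trans ?_ (count_iso hB R (fun e he => (hbig e he).le) hT)
      have : ((bl B A).filter (fun T0 => T ∈ isos B (A \ T0) ∧ T ∉ isos B A)).card ≤
          ((bl B A).filter (fun T0 => T ∈ isos B (A \ T0))).card := by
        refine Finset.card_le_card fun T0 hT0 => ?_
        rw [mem_filter] at hT0 ⊢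
        exact ⟨hT0.1, hT0.2.1⟩
      exact_mod_cast this
    rw [Finset.sum_const, nsmul_eq_mul] at h2
    have h3 : 0 ≤ (B.card : ℝ) ^ 2 * Hf B R A := by positivity
    unfold Mf
    linarith

end

end Vale.Agent.P046
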