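import Mathlib

/-!
P046, lower bound, row REAL: the comparison of the two linear recursions (pure real numbers)
-/

namespace Vale.Agent.P046

open Finset

noncomputable section

namespace LowReal

theorem lam_step (u v h : ℝ) (hu : 0 < u) (hv : 1 ≤ v) (huv : u ≤ v) (hh : 0 ≤ h) :
    v / u * (1 + 2 * h - 3 * h * (v / u)) ≤ (v + 2 * h) / (u + 2 * h) * (1 - h * (v / u)) := by
  have hu2 : 0 < u + 2 * h := by linarith
  have key : (v + 2 * h) / (u + 2 * h) * (1 - h * (v / u)) - v / u * (1 + 2 * h - 3 * h * (v / u))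
      = 2 * h * (v - u) * (u * (v - 1) + 3 * h * v) / (u ^ 2 * (u + 2 * h)) := by
    field_simp
    ring
  have h1 : 0 ≤ 2 * h * (v - u) * (u * (v - 1) + 3 * h * v) / (u ^ 2 * (u + 2 * h)) := by
    apply div_nonneg _ (by positivity)
    apply mul_nonneg (mul_nonneg (by linarith) (by linarith))
    have : 0 ≤ u * (v - 1) := mul_nonneg hu.le (by linarith)
    have : 0 ≤ 3 * h * v := by positivity
    linarith
  linarith

theorem lam_anti (u v h : ℝ) (hu : 0 < u) (huv : u ≤ v) (hh : 0 ≤ h) :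
    (v + 2 * h) / (u + 2 * h) ≤ v / u := by
  rw [div_le_div_iff₀ (by linarith) hu]
  nlinarith

/-- step of `q ≤ lam (a + Psi)` -/
theorem q_step (h l l' a q φ ψ q' : ℝ) (hh : 0 ≤ h) (hl0 : 0 ≤ l') (hll : l' ≤ l)
    (h6 : 6 * h * l ≤ 1) (hstep : l * (1 + 2 * h - 3 * h * l) ≤ l' * (1 - h * l))
    (ha : 0 ≤ a) (hφ : 0 ≤ φ) (hψ : 0 ≤ ψ) (hq : q ≤ l * (a + ψ))
    (hq' : q' ≤ q + (-3 * (2 * l * q - l ^ 2 * a) + 2 * q - φ) * h) :
    q' ≤ l' * ((a - (q + φ) * h) + ((1 - 3 * h * l) * ψ + h * φ)) := by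
  have hθ : 0 ≤ 1 - 6 * h * l + 2 * h + h * l' := by
    have : 0 ≤ h * l' := mul_nonneg hh hl0
    linarith
  have h1 := mul_le_mul_of_nonneg_left hq hθ
  have h2 : l * (1 - 6 * h * l + 2 * h + h * l') ≤ l' - 3 * h * l ^ 2 := by nlinarith
  have h3 := mul_le_mul_of_nonneg_right h2 (add_nonneg ha hψ)
  have h4 : 0 ≤ 3 * h * l * (l - l') * ψ := by
    have : 0 ≤ l := le_trans hl0 hll
    have : 0 ≤ l - l' := by linarith
    positivity
  have h5 : 0 ≤ h * φ := mul_nonneg hh hφ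
  nlinarith

/-- step of the main term `c` -/
theorem c_step (u v h : ℝ) (hu : 0 < u) (hv : v ≤ 1 + u) (hh : 0 ≤ h) (h14 : 14 * h ≤ 1)
    (hx : h * (v / u) ≤ 1) (hb : h * (1 / u) * (1 + 1 / u) ≤ 3) :
    (1 - 14 * h) * Real.sqrt u ≤ (1 - h * (v / u)) * Real.sqrt (u + 2 * h) := by
  have hl : v / u ≤ 1 + 1 / u := by
    rw [div_le_iff₀ hu]
    have : (1 + 1 / u) * u = u + 1 := by field_simp
    linarith
  have h1 : 0 ≤ 1 - h * (v / u) := by linarith
  have h2 : 0 ≤ 1 - 14 * h := by linarith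
  apply le_of_sq_le_sq _ (mul_nonneg h1 (Real.sqrt_nonneg _))
  rw [mul_pow, mul_pow, Real.sq_sqrt hu.le, Real.sq_sqrt (by linarith)]
  have h3 : u + 2 * h = u * (1 + 2 * h * (1 / u)) := by field_simp
  rw [h3]
  have h4 : (1 - h * (v / u)) ^ 2 ≥ 1 - 2 * h - 2 * h * (1 / u) := by
    have : h * (v / u) ≤ h * (1 + 1 / u) := mul_le_mul_of_nonneg_left hl hh
    nlinarith [sq_nonneg (h * (v / u))]
  have hr : 0 < 1 / u := by positivity
  have h5 : (1 - 14 * h) ^ 2 ≤ (1 - h * (v / u)) ^ 2 * (1 + 2 * h * (1 / u)) := by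
    have h6 : (1 - 2 * h - 2 * h * (1 / u)) * (1 + 2 * h * (1 / u)) ≤
        (1 - h * (v / u)) ^ 2 * (1 + 2 * h * (1 / u)) :=
      mul_le_mul_of_nonneg_right h4 (by positivity)
    have h7 : 1 - 14 * h ≤ (1 - 2 * h - 2 * h * (1 / u)) * (1 + 2 * h * (1 / u)) := by
      have : (1 - 2 * h - 2 * h * (1 / u)) * (1 + 2 * h * (1 / u)) =
          1 - 2 * h - 4 * h * (h * (1 / u) * (1 + 1 / u)) := by ring
      rw [this]
      have := mul_le_mul_of_nonneg_left hb hh
      linarith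
    have h8 : (1 - 14 * h) ^ 2 ≤ 1 - 14 * h := by nlinarith
    linarith
  nlinarith

/-- step of the weight `p` -/
theorem p_step (u v h : ℝ) (hu : 0 < u) (hv : 1 ≤ v) (hh : 0 ≤ h) (hx : h * (v / u) ≤ 1) :
    (1 - h * (v / u)) * Real.sqrt (u + 2 * h) ≤ Real.sqrt u := by
  have h1 : 0 ≤ 1 - h * (v / u) := by linarith
  apply le_of_sq_le_sq _ (Real.sqrt_nonneg _)
  rw [mul_pow, Real.sq_sqrt hu.le, Real.sq_sqrt (by linarith)]
  have h3 : u + 2 * h ≤ u * (1 + 2 * (h * (v / u))) := by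
    have : u * (1 + 2 * (h * (v / u))) = u + 2 * h * v := by field_simp
    rw [this]
    nlinarith
  set x := h * (v / u) with hxd
  have hx0 : 0 ≤ x := by positivity
  have h4 : (1 - x) ^ 2 * (1 + 2 * x) ≤ 1 := by
    have : 1 - (1 - x) ^ 2 * (1 + 2 * x) = x ^ 2 * (3 - 2 * x) := by ring
    nlinarith [mul_nonneg (sq_nonneg x) (by linarith : (0 : ℝ) ≤ 3 - 2 * x)]
  calc (1 - x) ^ 2 * (u + 2 * h) ≤ (1 - x) ^ 2 * (u * (1 + 2 * x)) :=
        mul_le_mul_of_nonneg_left h3 (sq_nonneg _)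
    _ = u * ((1 - x) ^ 2 * (1 + 2 * x)) := by ring
    _ ≤ u * 1 := mul_le_mul_of_nonneg_left h4 hu.le
    _ = u := mul_one u

/-- the two auxiliary linear recursions -/
def psi (l : ℕ → ℝ) (h k : ℝ) (φ : ℕ → ℝ) : ℕ → ℝ
  | 0 => 0
  | i + 1 => (1 - k * h * l i) * psi l h k φ i + h * φ i

theorem psi_nonneg (l : ℕ → ℝ) (h k : ℝ) (φ : ℕ → ℝ) (hh : 0 ≤ h) (hφ : ∀ i, 0 ≤ φ i)
    (hk : ∀ i, k * h * l i ≤ 1) : ∀ i, 0 ≤ psi l h k φ i
  | 0 => le_refl 0
  | i + 1 => by
      have := psi_nonneg l h k φ hh hφ hk i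
      rw [psi]
      have h1 : 0 ≤ (1 - k * h * l i) * psi l h k φ i :=
        mul_nonneg (by linarith [hk i]) this
      have h2 : 0 ≤ h * φ i := mul_nonneg hh (hφ i)
      linarith

theorem psi_le (l : ℕ → ℝ) (h : ℝ) (φ : ℕ → ℝ) (hh : 0 ≤ h) (hφ : ∀ i, 0 ≤ φ i)
    (hl : ∀ i, 0 ≤ l i) (hk : ∀ i, 3 * h * l i ≤ 1) : ∀ i, psi l h 3 φ i ≤ psi l h 1 φ i
  | 0 => le_refl _
  | i + 1 => by
      have h1 := psi_le l h φ hh hφ hl hk i
      have h2 := psi_nonneg l h 3 φ hh hφ hk i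
      have h3 : 0 ≤ h * l i := mul_nonneg hh (hl i)
      rw [psi, psi]
      have h4 : (1 - 1 * h * l i) * psi l h 3 φ i ≤ (1 - 1 * h * l i) * psi l h 1 φ i :=
        mul_le_mul_of_nonneg_left h1 (by linarith [hk i])
      have h5 : 0 ≤ 2 * (h * l i) * psi l h 3 φ i := by positivity
      nlinarith

theorem exp_le (h : ℝ) (hh : 0 ≤ h) (h14 : 14 * h ≤ 1 / 2) :
    Real.exp (-(28 * h)) ≤ 1 - 14 * h := by
  have h1 : 1 / (1 - 14 * h) ≤ Real.exp (28 * h) := by
    have h2 := Real.add_one_le_exp (28 * h)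
    refine le_trans ?_ h2
    rw [div_le_iff₀ (by linarith)]
    nlinarith
  rw [Real.exp_neg, inv_le_comm₀ (Real.exp_pos _) (by linarith)]
  rwa [one_div] at h1

end LowReal

open LowReal in
theorem low_real : ∃ c0 : ℝ, 0 < c0 ∧ ∀ (M : ℕ) (N D F : ℝ), 2 ≤ D → 2 * D + 1 ≤ N → 100 ≤ N →
    3 * (M : ℝ) = N * D → ∀ (a q φ z τ : ℕ → ℝ), a 0 = N → q 0 = N * D →
    (∀ i, 0 ≤ a i) → (∀ i, 0 ≤ q i) → (∀ i, 0 ≤ φ i) → (∀ i, z i ≤ F) → (∀ i, 0 ≤ τ i) →
    (∀ i, a (i + 1) = a i - (q i + φ i) / M) →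
    (∀ i, ∀ l : ℝ, q (i + 1) ≤ q i + (-3 * (2 * l * q i - l ^ 2 * a i) + 2 * q i - φ i) / M) →
    (∀ i, 2 * a i - 2 * z i - 2 * τ i ≤ q i) →
    ∑ i ∈ range (2 * M), τ i / M ≤ F →
    c0 * (N / Real.sqrt D) ≤
      5 * ∑ i ∈ range (2 * M), φ i / M * Real.sqrt (1 / D + 2 * ((i : ℝ) + 1) / M) + 8 * F := by
  refine ⟨Real.exp (-56) / 3, by positivity, ?_⟩
  intro M N D F hD hND hN hM a q φ z τ ha0 hq0 ha hq hφ hz hτ hastep hqstep hlow hsum
  have hMpos : (0 : ℝ) < M := by nlinarith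
  obtain ⟨h, hh⟩ : ∃ h : ℝ, h = 1 / (M : ℝ) := ⟨_, rfl⟩
  have hh0 : 0 < h := by rw [hh]; positivity
  have hdiv : ∀ x : ℝ, x / (M : ℝ) = x * h := by
    intro x; rw [hh]; ring
  have hMh : (M : ℝ) * h = 1 := by rw [hh]; field_simp
  have hNDh : N * D * h = 3 := by rw [← hM]; linarith [hMh]
  simp only [hdiv] at hastep hqstep hsum ⊢
  set u : ℕ → ℝ := fun i => 1 / D + 2 * (i : ℝ) * h with hu
  set v : ℕ → ℝ := fun i => 1 + 2 * (i : ℝ) * h with hv
  have hDpos : 0 < D := by linarith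
  have hD1 : 1 / D ≤ 1 := by rw [div_le_one hDpos]; linarith
  have hih : ∀ i : ℕ, 0 ≤ 2 * (i : ℝ) * h := fun i => by positivity
  have hupos : ∀ i, 0 < u i := fun i => by
    have := hih i
    have : 0 < 1 / D := by positivity
    simp only [hu]; linarith
  have huge : ∀ i, 1 / D ≤ u i := fun i => by
    have := hih i
    simp only [hu]; linarith
  have hv1 : ∀ i, 1 ≤ v i := fun i => by
    have := hih i
    simp only [hv]; linarith
  have huv : ∀ i, u i ≤ v i := fun i => by simp only [hu, hv]; linarith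
  have hvu : ∀ i, v i ≤ 1 + u i := fun i => by
    have : 0 < 1 / D := by positivity
    simp only [hu, hv]; linarith
  have husucc : ∀ i, u (i + 1) = u i + 2 * h := fun i => by
    simp only [hu]; push_cast; ring
  have hvsucc : ∀ i, v (i + 1) = v i + 2 * h := fun i => by
    simp only [hv]; push_cast; ring
  set l : ℕ → ℝ := fun i => v i / u i with hl
  have hlD : ∀ i, l i ≤ D := fun i => by
    simp only [hl]
    rw [div_le_iff₀ (hupos i)]
    simp only [hu, hv]
    have : D * (1 / D + 2 * (i : ℝ) * h) = 1 + D * (2 * (i : ℝ) * h) := by field_simp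
    rw [this]
    nlinarith [hih i]
  have hl0 : ∀ i, 0 < l i := fun i => div_pos (by linarith [hv1 i]) (hupos i)
  have hhD : 6 * h * D ≤ 1 / 5 := by
    have : N * (6 * h * D) = 18 := by nlinarith
    nlinarith [mul_pos hh0 hDpos]
  have h6 : ∀ i, 6 * h * l i ≤ 1 := fun i => by
    have := mul_le_mul_of_nonneg_left (hlD i) (by positivity : (0 : ℝ) ≤ 6 * h)
    linarith
  have h3 : ∀ i, 3 * h * l i ≤ 1 := fun i => by
    have := h6 i
    have : 0 ≤ 3 * h * l i := by have := hl0 i; positivity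
    linarith
  have h1 : ∀ i, 1 * h * l i ≤ 1 := fun i => by
    have := h6 i
    have : 0 ≤ h * l i := by have := hl0 i; positivity
    linarith
  have hlanti : ∀ i, l (i + 1) ≤ l i := fun i => by
    simp only [hl]; rw [husucc, hvsucc]
    exact lam_anti _ _ _ (hupos i) (huv i) hh0.le
  have hlstep : ∀ i, l i * (1 + 2 * h - 3 * h * l i) ≤ l (i + 1) * (1 - h * l i) := fun i => by
    simp only [hl]; rw [husucc, hvsucc]
    exact lam_step _ _ _ (hupos i) (hv1 i) (huv i) hh0.le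
  set P3 := psi l h 3 φ with hP3
  set P1 := psi l h 1 φ with hP1
  have hP3n : ∀ i, 0 ≤ P3 i := psi_nonneg l h 3 φ hh0.le hφ h3
  have hP1n : ∀ i, 0 ≤ P1 i := psi_nonneg l h 1 φ hh0.le hφ h1
  have hP31 : ∀ i, P3 i ≤ P1 i := psi_le l h φ hh0.le hφ (fun i => (hl0 i).le) h3
  have hP3s : ∀ i, P3 (i + 1) = (1 - 3 * h * l i) * P3 i + h * φ i := fun i => rfl
  have hP1s : ∀ i, P1 (i + 1) = (1 - 1 * h * l i) * P1 i + h * φ i := fun i => rfl
  -- (2)
  have hQ : ∀ i, q i ≤ l i * (a i + P3 i) := by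
    intro i
    induction i with
    | zero =>
      have hu0 : u 0 = 1 / D := by simp [hu]
      have hv0 : v 0 = 1 := by simp [hv]
      have : l 0 = D := by simp only [hl]; rw [hu0, hv0]; simp
      rw [this, hq0, ha0]
      have : P3 0 = 0 := rfl
      rw [this]; linarith
    | succ i ih =>
      have := q_step h (l i) (l (i + 1)) (a i) (q i) (φ i) (P3 i) (q (i + 1)) hh0.le
        (hl0 _).le (hlanti i) (h6 i) (hlstep i) (ha i) (hφ i) (hP3n i) ih (hqstep i (l i))
      rw [hastep i, hP3s i]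
      exact this
  -- (3)
  have h14 : 14 * h ≤ 1 / 2 := by
    have h200 : (200 : ℝ) * h ≤ N * D * h := by
      apply mul_le_mul_of_nonneg_right _ hh0.le
      nlinarith
    linarith
  have hsq : ∀ i, 0 < Real.sqrt (u i) := fun i => Real.sqrt_pos.2 (hupos i)
  have hcs : ∀ i, (1 - 14 * h) * Real.sqrt (u i) ≤ (1 - h * l i) * Real.sqrt (u (i + 1)) := by
    intro i
    rw [husucc i]
    refine c_step (u i) (v i) h (hupos i) (hvu i) hh0.le (by linarith)
      (by have := h1 i; simpa [hl] using this) ?_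
    have hr : 1 / u i ≤ D := by
      rw [div_le_iff₀ (hupos i)]
      have := mul_le_mul_of_nonneg_left (huge i) hDpos.le
      have h2 : D * (1 / D) = 1 := by field_simp
      linarith
    have hr0 : 0 < 1 / u i := by have := hupos i; positivity
    have h2 : h * (1 / u i) * (1 + 1 / u i) ≤ h * D * (1 + D) := by
      apply mul_le_mul (mul_le_mul_of_nonneg_left hr hh0.le) (by linarith) (by positivity)
      positivity
    have h3 : h * D * (1 + D) ≤ h * D * N := by
      apply mul_le_mul_of_nonneg_left _ (by positivity)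
      linarith
    nlinarith
  set c : ℕ → ℝ := fun i => N * (1 - 14 * h) ^ i * (Real.sqrt (u 0) / Real.sqrt (u i)) with hc
  have hcn : ∀ i, 0 ≤ c i := fun i => by
    have h0 : 0 ≤ 1 - 14 * h := by linarith
    simp only [hc]
    have := hsq i
    have := hsq 0
    positivity
  have hcstep : ∀ i, c (i + 1) ≤ (1 - h * l i) * c i := by
    intro i
    have h0 : 0 ≤ 1 - 14 * h := by linarith
    have hx : (1 - 14 * h) * (1 / Real.sqrt (u (i + 1))) ≤
        (1 - h * l i) * (1 / Real.sqrt (u i)) := by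
      rw [mul_one_div, mul_one_div, div_le_div_iff₀ (hsq _) (hsq _)]
      exact hcs i
    have hy : 0 ≤ N * (1 - 14 * h) ^ i * Real.sqrt (u 0) := by positivity
    have := mul_le_mul_of_nonneg_left hx hy
    simp only [hc]
    calc N * (1 - 14 * h) ^ (i + 1) * (Real.sqrt (u 0) / Real.sqrt (u (i + 1)))
        = N * (1 - 14 * h) ^ i * Real.sqrt (u 0) *
            ((1 - 14 * h) * (1 / Real.sqrt (u (i + 1)))) := by rw [pow_succ]; ring
      _ ≤ _ := this
      _ = _ := by ring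
  -- (4)
  have hR : ∀ i, 0 ≤ a i - c i + 3 / 2 * P1 i - 1 / 2 * P3 i := by
    intro i
    induction i with
    | zero =>
      have h0 : c 0 = N := by
        simp only [hc]
        rw [pow_zero, div_self (hsq 0).ne']
        ring
      have h1 : P1 0 = 0 := rfl
      have h3 : P3 0 = 0 := rfl
      rw [h0, h1, h3, ha0]; linarith
    | succ i ih =>
      have hc1 := hcstep i
      have hq1 := mul_le_mul_of_nonneg_left (hQ i) hh0.le
      rw [hastep i, hP1s i, hP3s i]
      have h2 : 0 ≤ 1 - h * l i := by have := h1 i; linarith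
      have h3 := mul_nonneg h2 ih
      nlinarith
  -- (5)
  have hPs : ∀ i, P1 i ≤ (∑ j ∈ range i, φ j * h * Real.sqrt (u (j + 1))) / Real.sqrt (u i) := by
    intro i
    induction i with
    | zero =>
      have h1 : P1 0 = 0 := rfl
      rw [h1]; simp
    | succ i ih =>
      rw [sum_range_succ, add_div, hP1s i]
      have hS : 0 ≤ ∑ j ∈ range i, φ j * h * Real.sqrt (u (j + 1)) :=
        sum_nonneg fun j _ => mul_nonneg (mul_nonneg (hφ j) hh0.le) (Real.sqrt_nonneg _)
      have hps : (1 - h * l i) * Real.sqrt (u (i + 1)) ≤ Real.sqrt (u i) := by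
        rw [husucc i]
        exact p_step (u i) (v i) h (hupos i) (hv1 i) hh0.le
          (by have := h1 i; simpa [hl] using this)
      have h2 : (1 - 1 * h * l i) * (1 / Real.sqrt (u i)) ≤ 1 / Real.sqrt (u (i + 1)) := by
        rw [mul_one_div, div_le_div_iff₀ (hsq _) (hsq _)]
        linarith
      have h4 : (1 - 1 * h * l i) * P1 i ≤
          (∑ j ∈ range i, φ j * h * Real.sqrt (u (j + 1))) / Real.sqrt (u (i + 1)) := by
        calc (1 - 1 * h * l i) * P1 i ≤ (1 - 1 * h * l i) *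
              ((∑ j ∈ range i, φ j * h * Real.sqrt (u (j + 1))) / Real.sqrt (u i)) :=
              mul_le_mul_of_nonneg_left ih (by linarith [h1 i])
          _ = (∑ j ∈ range i, φ j * h * Real.sqrt (u (j + 1))) *
              ((1 - 1 * h * l i) * (1 / Real.sqrt (u i))) := by ring
          _ ≤ (∑ j ∈ range i, φ j * h * Real.sqrt (u (j + 1))) *
              (1 / Real.sqrt (u (i + 1))) := mul_le_mul_of_nonneg_left h2 hS
          _ = _ := by ring
      have h5 : φ i * h * Real.sqrt (u (i + 1)) / Real.sqrt (u (i + 1)) = h * φ i := by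
        rw [mul_div_assoc, div_self (hsq _).ne']; ring
      rw [h5]
      linarith
  -- (6)
  set S := ∑ j ∈ range (2 * M), φ j * h * Real.sqrt (u (j + 1)) with hS
  have hterm : ∀ j, 0 ≤ φ j * h * Real.sqrt (u (j + 1)) := fun j =>
    mul_nonneg (mul_nonneg (hφ j) hh0.le) (Real.sqrt_nonneg _)
  have hlate : ∀ i, M ≤ i → i < 2 * M → c i ≤ 4 * S + 4 * F + 4 * τ i := by
    intro i hi1 hi2
    have hu2 : 2 ≤ u i := by
      have : (M : ℝ) ≤ i := by exact_mod_cast hi1
      have h2 : (M : ℝ) * h ≤ i * h := mul_le_mul_of_nonneg_right this hh0.le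
      have h3 : 0 < 1 / D := by positivity
      simp only [hu]
      linarith
    have hl32 : l i ≤ 3 / 2 := by
      simp only [hl]
      rw [div_le_iff₀ (hupos i)]
      linarith [hvu i]
    have hPS : P1 i ≤ S := by
      refine (hPs i).trans ?_
      rw [div_le_iff₀ (hsq i)]
      have h1 : ∑ j ∈ range i, φ j * h * Real.sqrt (u (j + 1)) ≤ S :=
        sum_le_sum_of_subset_of_nonneg (range_mono hi2.le) fun j _ _ => hterm j
      have h2 : 0 ≤ S := sum_nonneg fun j _ => hterm j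
      have h3 : 1 ≤ Real.sqrt (u i) := by
        rw [Real.one_le_sqrt]; linarith
      nlinarith
    have h1 := hlow i
    have h2 := hQ i
    have h3 := hR i
    have h4 := hz i
    have h5 := mul_le_mul_of_nonneg_right hl32 (add_nonneg (ha i) (hP3n i))
    have h6 := hP31 i
    linarith
  have hclow : ∀ i, i < 2 * M → Real.exp (-56) * (N / Real.sqrt (5 * D)) ≤ c i := by
    intro i hi
    have hi' : (i : ℝ) * h ≤ 2 := by
      have h1 : (i : ℝ) ≤ 2 * M := by exact_mod_cast hi.le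
      have h2 := mul_le_mul_of_nonneg_right h1 hh0.le
      linarith
    have he : Real.exp (-56) ≤ (1 - 14 * h) ^ i := by
      have h1 : Real.exp (-(28 * h)) ≤ 1 - 14 * h := exp_le h hh0.le h14
      have h2 : Real.exp (-(28 * h)) ^ i ≤ (1 - 14 * h) ^ i :=
        pow_le_pow_left₀ (Real.exp_nonneg _) h1 i
      refine le_trans ?_ h2
      rw [← Real.exp_nat_mul]
      apply Real.exp_le_exp.2
      nlinarith
    have hs : 1 / Real.sqrt (5 * D) ≤ Real.sqrt (u 0) / Real.sqrt (u i) := by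
      rw [div_le_div_iff₀ (Real.sqrt_pos.2 (by positivity)) (hsq i), one_mul,
        ← Real.sqrt_mul (hupos 0).le]
      apply Real.sqrt_le_sqrt
      have hu0 : u 0 = 1 / D := by simp [hu]
      rw [hu0]
      have h1 : 1 / D * (5 * D) = 5 := by field_simp
      rw [h1]
      simp only [hu]
      linarith
    simp only [hc]
    calc Real.exp (-56) * (N / Real.sqrt (5 * D))
        = N * Real.exp (-56) * (1 / Real.sqrt (5 * D)) := by ring
      _ ≤ N * (1 - 14 * h) ^ i * (Real.sqrt (u 0) / Real.sqrt (u i)) := by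
          apply mul_le_mul (mul_le_mul_of_nonneg_left he (by linarith)) hs (by positivity)
          have h0 : 0 ≤ 1 - 14 * h := by linarith
          positivity
  have hall : ∀ i ∈ Ico M (2 * M), Real.exp (-56) * (N / Real.sqrt (5 * D)) * h ≤
      (4 * S + 4 * F) * h + 4 * (τ i * h) := by
    intro i hi
    rw [mem_Ico] at hi
    have h1 := (hclow i hi.2).trans (hlate i hi.1 hi.2)
    have h2 := mul_le_mul_of_nonneg_right h1 hh0.le
    linarith
  have hsum2 := sum_le_sum hall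
  rw [sum_add_distrib, sum_const, sum_const, ← mul_sum, Nat.card_Ico, nsmul_eq_mul,
    nsmul_eq_mul] at hsum2
  have hcard : ((2 * M - M : ℕ) : ℝ) = M := by
    congr 1; omega
  rw [hcard] at hsum2
  have hτs : ∑ i ∈ Ico M (2 * M), τ i * h ≤ F := by
    refine le_trans ?_ hsum
    apply sum_le_sum_of_subset_of_nonneg
    · intro i hi
      rw [mem_Ico] at hi
      exact mem_range.2 hi.2
    · intro j _ _
      exact mul_nonneg (hτ j) hh0.le
  have hfin : Real.exp (-56) * (N / Real.sqrt (5 * D)) ≤ 4 * S + 8 * F := by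
    have e1 : (M : ℝ) * (Real.exp (-56) * (N / Real.sqrt (5 * D)) * h) =
        Real.exp (-56) * (N / Real.sqrt (5 * D)) := by
      calc (M : ℝ) * (Real.exp (-56) * (N / Real.sqrt (5 * D)) * h) =
          Real.exp (-56) * (N / Real.sqrt (5 * D)) * (M * h) := by ring
        _ = _ := by rw [hMh, mul_one]
    have e2 : (M : ℝ) * ((4 * S + 4 * F) * h) = 4 * S + 4 * F := by
      calc (M : ℝ) * ((4 * S + 4 * F) * h) = (4 * S + 4 * F) * (M * h) := by ring
        _ = _ := by rw [hMh, mul_one]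
    rw [e1, e2] at hsum2
    linarith
  have hSn : 0 ≤ S := sum_nonneg fun j _ => hterm j
  have hSeq : S = ∑ i ∈ range (2 * M), φ i * h * Real.sqrt (1 / D + 2 * ((i : ℝ) + 1) * h) := by
    rw [hS]
    apply sum_congr rfl
    intro i _
    simp only [hu]
    push_cast
    rfl
  rw [← hSeq]
  have hlast : Real.exp (-56) / 3 * (N / Real.sqrt D) ≤
      Real.exp (-56) * (N / Real.sqrt (5 * D)) := by
    have h5 : Real.sqrt (5 * D) ≤ 3 * Real.sqrt D := by
      rw [Real.sqrt_le_left (by positivity), mul_pow, Real.sq_sqrt hDpos.le]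
      linarith
    have h6 : N / (3 * Real.sqrt D) ≤ N / Real.sqrt (5 * D) :=
      div_le_div_of_nonneg_left (by linarith) (Real.sqrt_pos.2 (by positivity)) h5
    calc Real.exp (-56) / 3 * (N / Real.sqrt D) = Real.exp (-56) * (N / (3 * Real.sqrt D)) := by
          rw [div_mul_div_comm, mul_div_assoc]
      _ ≤ _ := mul_le_mul_of_nonneg_left h6 (Real.exp_nonneg _)
  linarith

end

end Vale.Agent.P046
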