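import Vale.Agent.P046.Low.Early
import Vale.Agent.P046.Low.Gen
import Vale.Agent.P046.Low.CS
import Vale.Agent.P046.Low.ZM
import Vale.Agent.P046.Low.Fo
import Vale.Agent.P046.Low.It
import Vale.Agent.P046.Low.Real
import Vale.Agent.P046.Psi

/-!
P046, lower bound: the theorem for regular linear 3-uniform hypergraphs with the property `NP`.
-/

namespace Vale.Agent.P046

open Finset

noncomputable section

namespace LMain

variable {α : Type} [DecidableEq α]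

theorem It_nonneg (B : Finset (Finset α)) (i : ℕ) (A : Finset α) (f : Finset α → ℝ)
    (h : ∀ A', 0 ≤ f A') : 0 ≤ It B i A f := by
  have h1 := It_mono B i A (fun _ => (0 : ℝ)) f (fun A' _ => h A')
  have h2 := It_lin B i A (fun _ => (0 : ℝ)) (fun _ => (0 : ℝ)) 0 0
  simp only [mul_zero, add_zero, zero_mul] at h2
  linarith

theorem It_lin3 (B : Finset (Finset α)) (i : ℕ) (A : Finset α) (f g k : Finset α → ℝ)
    (a b c : ℝ) :
    It B i A (fun A => a * f A + b * g A + c * k A) =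
      a * It B i A f + b * It B i A g + c * It B i A k := by
  have h1 := It_lin B i A (fun A => a * f A + b * g A) k 1 c
  have h2 := It_lin B i A f g a b
  simp only [one_mul] at h1
  rw [h1, h2]

theorem Fo_nonneg (B : Finset (Finset α)) (A : Finset α) : 0 ≤ Fo B A :=
  Finset.sum_nonneg fun _ _ => by positivity

theorem Mf_nonneg (B : Finset (Finset α)) (A : Finset α) : 0 ≤ Mf B A := by
  unfold Mf; positivity

/-- application of the real lemma -/
theorem apply_real {c0 : ℝ} (hreal : ∀ (M : ℕ) (N D F : ℝ), 2 ≤ D → 2 * D + 1 ≤ N → 100 ≤ N →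
    3 * (M : ℝ) = N * D → ∀ (a q φ z τ : ℕ → ℝ), a 0 = N → q 0 = N * D →
    (∀ i, 0 ≤ a i) → (∀ i, 0 ≤ q i) → (∀ i, 0 ≤ φ i) → (∀ i, z i ≤ F) → (∀ i, 0 ≤ τ i) →
    (∀ i, a (i + 1) = a i - (q i + φ i) / M) →
    (∀ i, ∀ l : ℝ, q (i + 1) ≤ q i + (-3 * (2 * l * q i - l ^ 2 * a i) + 2 * q i - φ i) / M) →
    (∀ i, 2 * a i - 2 * z i - 2 * τ i ≤ q i) →
    ∑ i ∈ range (2 * M), τ i / M ≤ F →
    c0 * (N / Real.sqrt D) ≤
      5 * ∑ i ∈ range (2 * M), φ i / M * Real.sqrt (1 / D + 2 * ((i : ℝ) + 1) / M) + 8 * F)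
    (B : Finset (Finset α)) (A : Finset α) (D : ℕ) (hD : 2 ≤ D) (hB : Lin3 B)
    (hBA : ∀ T ∈ B, T ⊆ A) (hdeg : ∀ e ∈ A, dg B A e = D) (hne : A.Nonempty)
    (hN100 : 100 ≤ A.card) :
    c0 * ((A.card : ℝ) / Real.sqrt D) ≤
      5 * ∑ i ∈ range (2 * B.card), 3 * It B i A (Fo B) / (B.card : ℝ) *
        Real.sqrt (1 / (D : ℝ) + 2 * ((i : ℝ) + 1) / (B.card : ℝ)) +
      8 * run B (fun A => (A.card : ℝ)) A.card A := by
  obtain ⟨hbl, h3, hN⟩ := card_facts B hB A D hBA hdeg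
  have hN' := hN hne
  have hD2 : (2 : ℝ) ≤ D := by exact_mod_cast hD
  have hNr : 2 * (D : ℝ) + 1 ≤ (A.card : ℝ) := by exact_mod_cast hN'
  have hMpos : (0 : ℝ) < (B.card : ℝ) := by nlinarith
  have hM0 : 0 < B.card := by exact_mod_cast hMpos
  have hY0 : Yf B A = 0 := by
    unfold Yf
    have : isos B A = ∅ := by
      unfold isos
      rw [Finset.filter_eq_empty_iff]
      intro T hT hall
      have hTB := (mem_bl.1 hT).1
      have hTA := (mem_bl.1 hT).2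
      have hc := hB.card3 T hTB
      obtain ⟨e, he⟩ : T.Nonempty := by
        rw [← Finset.card_pos, hc]; norm_num
      have h1 := hall e he
      rw [hdeg e (hTA he)] at h1
      omega
    rw [this]; simp
  refine hreal B.card (A.card : ℝ) (D : ℝ) (run B (fun A => (A.card : ℝ)) A.card A) hD2 hNr
    (by exact_mod_cast hN100) h3 (fun i => It B i A (Wf B)) (fun i => It B i A (Sf B))
    (fun i => 3 * It B i A (Fo B)) (fun i => It B i A (Zf B)) (fun i => It B i A (Mf B))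
    ?_ ?_ ?_ ?_ ?_ ?_ ?_ ?_ ?_ ?_ ?_
  · show It B 0 A (Wf B) = (A.card : ℝ)
    unfold It Wf
    simp [hY0]
  · show It B 0 A (Sf B) = (A.card : ℝ) * D
    have e1 : ∑ e ∈ A, (dg B A e : ℝ) = (A.card : ℝ) * D := by
      rw [Finset.sum_congr rfl (fun e he => by rw [hdeg e he]), Finset.sum_const, nsmul_eq_mul]
    unfold It Sf
    simp [hY0, e1]
  · exact fun i => It_nonneg B i A _ fun A' => W_nonneg B hB A'
  · exact fun i => It_nonneg B i A _ fun A' => S_nonneg B hB A'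
  · exact fun i => mul_nonneg (by norm_num) (It_nonneg B i A _ fun A' => Fo_nonneg B A')
  · exact fun i => It_Z B hB i A
  · exact fun i => It_nonneg B i A _ fun A' => Mf_nonneg B A'
  · intro i
    show It B (i + 1) A (Wf B) = It B i A (Wf B) - (It B i A (Sf B) + 3 * It B i A (Fo B)) / B.card
    rw [It_succ B hM0 i A (Wf B)]
    have e1 : gn B (Wf B) = fun A => (-1) * Sf B A + (-3) * Fo B A := by
      funext A'
      rw [gn_W B hB A']; ring
    rw [e1, It_lin]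
    ring
  · intro i l
    show It B (i + 1) A (Sf B) ≤ It B i A (Sf B) + (-3 * (2 * l * It B i A (Sf B) -
      l ^ 2 * It B i A (Wf B)) + 2 * It B i A (Sf B) - 3 * It B i A (Fo B)) / B.card
    rw [It_succ B hM0 i A (Sf B)]
    have e1 : gn B (Sf B) = fun A => (-3) * Qf B A + 2 * Sf B A + (-3) * Fo B A := by
      funext A'
      rw [gn_S B hB A']; ring
    have e2 : 2 * l * It B i A (Sf B) - l ^ 2 * It B i A (Wf B) ≤ It B i A (Qf B) := by
      have h1 := It_mono B i A (fun A => (2 * l) * Sf B A + (-l ^ 2) * Wf B A) (Qf B)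
        (fun A' _ => by have := cs_nonneg B hB A' l; linarith)
      rw [It_lin] at h1
      linarith
    rw [e1, It_lin3]
    have e3 : (-3 * It B i A (Qf B) + 2 * It B i A (Sf B) + -3 * It B i A (Fo B)) / (B.card : ℝ) ≤
        (-3 * (2 * l * It B i A (Sf B) - l ^ 2 * It B i A (Wf B)) + 2 * It B i A (Sf B) -
          3 * It B i A (Fo B)) / B.card := by
      apply div_le_div_of_nonneg_right _ hMpos.le
      linarith
    linarith
  · intro i
    show 2 * It B i A (Wf B) - 2 * It B i A (Zf B) - 2 * It B i A (Mf B) ≤ It B i A (Sf B)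
    have h1 := It_mono B i A (fun A => 2 * Wf B A + (-2) * Zf B A + (-2) * Mf B A) (Sf B)
      (fun A' _ => by have := S_lower B hB A'; linarith)
    rw [It_lin3] at h1
    linarith
  · exact It_M B hB hM0 (2 * B.card) A

/-- the sum over the early times -/
theorem early_sum (B : Finset (Finset α)) (hB : Lin3 B) (A : Finset α) (D : ℕ) (hD : 2 ≤ D)
    (hM : 0 < B.card) (ψ ψ' : ℝ → ℝ) (c K : ℝ) (h : Pot ψ ψ' c K) (CE : ℝ) (k : ℕ)
    (hk : 2 * k ≤ B.card)
    (hp2 : 1 / (D : ℝ) + 2 * (k : ℝ) / (B.card : ℝ) ≤ 1 / 2)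
    (hE : It B k A (Pt B ψ (1 / (1 / (D : ℝ) + 2 * (k : ℝ) / (B.card : ℝ)))) ≤
      CE * ((A.card : ℝ) / Real.sqrt D) * (1 + Real.log D) *
        Real.sqrt (1 / (D : ℝ) + 2 * (k : ℝ) / (B.card : ℝ))) :
    ∑ i ∈ range k, 3 * It B i A (Fo B) / (B.card : ℝ) *
        Real.sqrt (1 / (D : ℝ) + 2 * ((i : ℝ) + 1) / (B.card : ℝ)) ≤
      8 * CE / c * ((A.card : ℝ) / Real.sqrt D) * (1 + Real.log D) *
        (1 / (D : ℝ) + 2 * (k : ℝ) / (B.card : ℝ)) := by
  have hMp : (0 : ℝ) < (B.card : ℝ) := by exact_mod_cast hM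
  have hDp : (0 : ℝ) < (D : ℝ) := by
    have : (2 : ℝ) ≤ D := by exact_mod_cast hD
    linarith
  obtain ⟨w, hw⟩ : ∃ w : ℕ → ℝ, ∀ i, w i = Real.sqrt (1 / (D : ℝ) + 2 * (i : ℝ) / (B.card : ℝ)) :=
    ⟨_, fun _ => rfl⟩
  have hq0 : 0 < 1 / (D : ℝ) + 2 * (k : ℝ) / (B.card : ℝ) := by positivity
  have hwm : ∀ i j, i ≤ j → w i ≤ w j := by
    intro i j hij
    rw [hw, hw]
    apply Real.sqrt_le_sqrt
    have : (i : ℝ) ≤ j := by exact_mod_cast hij
    gcongr
  have h1 := It_early B hB hM A w (fun i => by rw [hw]; exact Real.sqrt_nonneg _) hwm k hk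
  have h2 : 3 * (c / 4) * It B k A (Yf B) ≤ It B k A (Pt B ψ
      (1 / (1 / (D : ℝ) + 2 * (k : ℝ) / (B.card : ℝ)))) := by
    have h3 := It_mono B k A (fun A => (3 * (c / 4)) * Yf B A + 0 * Yf B A) (Pt B ψ
      (1 / (1 / (D : ℝ) + 2 * (k : ℝ) / (B.card : ℝ)))) (fun A' _ => by
        have h4 := Y_le_pot B hB ψ ψ' c K h (1 / (1 / (D : ℝ) + 2 * (k : ℝ) / (B.card : ℝ))) (by
          rw [le_div_iff₀ hq0]; linarith) A'
        linarith)
    rw [It_lin] at h3
    linarith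
  have hc := h.cpos
  have h5 : It B k A (Yf B) ≤ 4 / (3 * c) * (CE * ((A.card : ℝ) / Real.sqrt D) *
      (1 + Real.log D) * w k) := by
    rw [← hw] at hE
    have h6 : It B k A (Yf B) = 4 / (3 * c) * (3 * (c / 4) * It B k A (Yf B)) := by
      field_simp
    rw [h6]
    exact mul_le_mul_of_nonneg_left (h2.trans hE) (by positivity)
  have hw0 : 0 ≤ w k := by rw [hw]; exact Real.sqrt_nonneg _
  have hwsq : w k * w k = 1 / (D : ℝ) + 2 * (k : ℝ) / (B.card : ℝ) := by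
    rw [hw]; exact Real.mul_self_sqrt hq0.le
  calc ∑ i ∈ range k, 3 * It B i A (Fo B) / (B.card : ℝ) *
        Real.sqrt (1 / (D : ℝ) + 2 * ((i : ℝ) + 1) / (B.card : ℝ))
      = 3 * ∑ i ∈ range k, It B i A (Fo B) / (B.card : ℝ) * w (i + 1) := by
        rw [Finset.mul_sum]
        refine Finset.sum_congr rfl fun i _ => ?_
        rw [hw]
        push_cast
        ring
    _ ≤ 3 * (2 * w k * It B k A (Yf B)) := by linarith
    _ ≤ 3 * (2 * w k * (4 / (3 * c) * (CE * ((A.card : ℝ) / Real.sqrt D) *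
      (1 + Real.log D) * w k))) := by gcongr
    _ = 8 * CE / c * ((A.card : ℝ) / Real.sqrt D) * (1 + Real.log D) * (w k * w k) := by
        field_simp
        ring
    _ = _ := by rw [hwsq]

/-- one term of the sum over the late times -/
theorem late_term (B : Finset (Finset α)) (hB : Lin3 B) (hNP : NP B) (A : Finset α)
    (hM : 0 < B.card) (hMN : (B.card : ℝ) ≤ (A.card : ℝ) ^ 2) (hN : 2 ≤ A.card) (i : ℕ)
    (hi : 1 ≤ i) :
    It B i A (Fo B) ≤ 2 * (6 * Real.log A.card * (B.card : ℝ) / i) * It B i A (Mf B) +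
      1 / (A.card : ℝ) := by
  have hMp : (0 : ℝ) < (B.card : ℝ) := by exact_mod_cast hM
  have hip : (0 : ℝ) < (i : ℝ) := by exact_mod_cast hi
  have hNp : (2 : ℝ) ≤ (A.card : ℝ) := by exact_mod_cast hN
  have hlog : 0 ≤ Real.log A.card := Real.log_nonneg (by linarith)
  obtain ⟨R, hR⟩ : ∃ R : ℝ, R = 6 * Real.log A.card * (B.card : ℝ) / i := ⟨_, rfl⟩
  have hR0 : 0 ≤ R := by rw [hR]; positivity
  rw [← hR]
  have h1 := It_mono B i A (Fo B) (fun A => (2 * R) * Mf B A + ((B.card : ℝ) ^ 2) * Hf B R A)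
    (fun A' _ => Fo_le B hB hNP R hR0 A')
  rw [It_lin] at h1
  have h2 := It_H B hB hM R hR0 i A
  have h3 : R * (i : ℝ) / (B.card : ℝ) = 6 * Real.log A.card := by
    rw [hR]; field_simp
  rw [h3] at h2
  have h4 : Real.exp (-(6 * Real.log A.card)) = 1 / (A.card : ℝ) ^ 6 := by
    rw [Real.exp_neg, mul_comm, Real.exp_mul, Real.exp_log (by linarith)]
    norm_num
  rw [h4] at h2
  have h5 : (B.card : ℝ) ^ 2 * It B i A (Hf B R) ≤ 1 / (A.card : ℝ) := by
    have hNpos : (0 : ℝ) < (A.card : ℝ) := by linarith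
    have hH0 : 0 ≤ It B i A (Hf B R) := It_nonneg B i A _ fun A' => by unfold Hf; positivity
    calc (B.card : ℝ) ^ 2 * It B i A (Hf B R) ≤
        ((A.card : ℝ) ^ 2) ^ 2 * ((A.card : ℝ) * (1 / (A.card : ℝ) ^ 6)) := by gcongr
      _ = 1 / (A.card : ℝ) := by field_simp
  linarith

/-- the weight times the truncation level at late times; `a = k0`, the first late time -/
theorem weight_le {M D KL lg : ℝ} {k i : ℕ} (hM : 0 < M) (hKL : 0 < KL)
    (hlg : 0 ≤ lg) (hk : 1 ≤ k) (hik : k ≤ i) (hkM : M / (2 * KL) ≤ k) (hDKL : 2 * KL ≤ D) :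
    6 * lg * M / i * Real.sqrt (1 / D + 2 * ((i : ℝ) + 1) / M) ≤
      18 * lg * Real.sqrt (2 * KL) := by
  have hkr : (1 : ℝ) ≤ k := by exact_mod_cast hk
  have hir : (k : ℝ) ≤ i := by exact_mod_cast hik
  have hi1 : (1 : ℝ) ≤ i := hkr.trans hir
  have hip : (0 : ℝ) < i := by linarith
  have h1 : 1 / D ≤ (i : ℝ) / M := by
    have h2 : 1 / D ≤ 1 / (2 * KL) := one_div_le_one_div_of_le (by positivity) hDKL
    have h3 : 1 / (2 * KL) ≤ (i : ℝ) / M := by
      rw [le_div_iff₀ hM]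
      have h4 : 1 / (2 * KL) * M = M / (2 * KL) := by ring
      rw [h4]; linarith
    linarith
  have h2 : 1 / D + 2 * ((i : ℝ) + 1) / M ≤ 9 * ((i : ℝ) / M) := by
    have h3 : 2 * ((i : ℝ) + 1) / M ≤ 4 * ((i : ℝ) / M) := by
      rw [← mul_div_assoc]
      apply div_le_div_of_nonneg_right _ hM.le
      linarith
    have h4 : 0 ≤ (i : ℝ) / M := by positivity
    linarith
  have h3 : Real.sqrt (1 / D + 2 * ((i : ℝ) + 1) / M) ≤ 3 * Real.sqrt ((i : ℝ) / M) := by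
    calc Real.sqrt (1 / D + 2 * ((i : ℝ) + 1) / M) ≤ Real.sqrt (9 * ((i : ℝ) / M)) :=
          Real.sqrt_le_sqrt h2
      _ = Real.sqrt (3 ^ 2 * ((i : ℝ) / M)) := by norm_num
      _ = 3 * Real.sqrt ((i : ℝ) / M) := by
          rw [Real.sqrt_mul (by positivity), Real.sqrt_sq (by norm_num)]
  obtain ⟨s, hs⟩ : ∃ s : ℝ, s = Real.sqrt ((i : ℝ) / M) := ⟨_, rfl⟩
  have hs0 : 0 < s := by rw [hs]; exact Real.sqrt_pos.2 (by positivity)
  have hss : s * s = (i : ℝ) / M := by rw [hs]; exact Real.mul_self_sqrt (by positivity)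
  have h4 : M / i * s = 1 / s := by
    rw [eq_div_iff hs0.ne', mul_assoc, hss]; field_simp
  have h5 : 1 / s ≤ Real.sqrt (2 * KL) := by
    rw [div_le_iff₀ hs0]
    have h6 : 1 / (2 * KL) ≤ (i : ℝ) / M := by
      rw [le_div_iff₀ hM]
      have h4 : 1 / (2 * KL) * M = M / (2 * KL) := by ring
      rw [h4]; linarith
    have h7 : 1 ≤ 2 * KL * ((i : ℝ) / M) := by
      calc (1 : ℝ) = 2 * KL * (1 / (2 * KL)) := by field_simp
        _ ≤ _ := by gcongr
    rw [hs, ← Real.sqrt_mul (by positivity)]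
    rw [show (1 : ℝ) = Real.sqrt 1 by simp]
    exact Real.sqrt_le_sqrt h7
  calc 6 * lg * M / i * Real.sqrt (1 / D + 2 * ((i : ℝ) + 1) / M) ≤
        6 * lg * M / i * (3 * s) := by rw [hs]; gcongr
    _ = 18 * lg * (M / i * s) := by ring
    _ = 18 * lg * (1 / s) := by rw [h4]
    _ ≤ _ := by gcongr

/-- the sum over the late times -/
theorem late_sum (B : Finset (Finset α)) (hB : Lin3 B) (hNP : NP B) (A : Finset α) (D : ℕ)
    (hD : 2 ≤ D) (hM : 0 < B.card) (hMN : (B.card : ℝ) ≤ (A.card : ℝ) ^ 2) (hN : 2 ≤ A.card)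
    (k : ℕ) (hk : 1 ≤ k) (KL : ℝ) (hKL : 0 < KL) (hkM : (B.card : ℝ) / (2 * KL) ≤ k)
    (hDKL : 2 * KL ≤ (D : ℝ)) :
    ∑ i ∈ Finset.Ico k (2 * B.card), 3 * It B i A (Fo B) / (B.card : ℝ) *
        Real.sqrt (1 / (D : ℝ) + 2 * ((i : ℝ) + 1) / (B.card : ℝ)) ≤
      108 * Real.log A.card * Real.sqrt (2 * KL) * run B (fun A => (A.card : ℝ)) A.card A +
        18 / (A.card : ℝ) := by
  have hMp : (0 : ℝ) < (B.card : ℝ) := by exact_mod_cast hM
  have hM1 : (1 : ℝ) ≤ (B.card : ℝ) := by exact_mod_cast hM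
  have hD2 : (2 : ℝ) ≤ D := by exact_mod_cast hD
  have hDp : (0 : ℝ) < (D : ℝ) := by linarith
  have hNp : (2 : ℝ) ≤ (A.card : ℝ) := by exact_mod_cast hN
  have hNpos : (0 : ℝ) < (A.card : ℝ) := by linarith
  have hlog : 0 ≤ Real.log A.card := Real.log_nonneg (by linarith)
  have hterm : ∀ i ∈ Finset.Ico k (2 * B.card), 3 * It B i A (Fo B) / (B.card : ℝ) *
        Real.sqrt (1 / (D : ℝ) + 2 * ((i : ℝ) + 1) / (B.card : ℝ)) ≤
      108 * Real.log A.card * Real.sqrt (2 * KL) * (It B i A (Mf B) / (B.card : ℝ)) +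
        9 / (A.card : ℝ) / (B.card : ℝ) := by
    intro i hi
    rw [Finset.mem_Ico] at hi
    have h1 := late_term B hB hNP A hM hMN hN i (hk.trans hi.1)
    have h2 := weight_le (M := (B.card : ℝ)) (D := (D : ℝ)) (KL := KL)
      (lg := Real.log A.card) hMp hKL hlog hk hi.1 hkM hDKL
    have hMf := It_nonneg B i A (Mf B) (fun A' => Mf_nonneg B A')
    obtain ⟨s, hs⟩ : ∃ s : ℝ, s = Real.sqrt (1 / (D : ℝ) + 2 * ((i : ℝ) + 1) / (B.card : ℝ)) :=
      ⟨_, rfl⟩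
    rw [← hs] at h2 ⊢
    have hs0 : 0 ≤ s := by rw [hs]; exact Real.sqrt_nonneg _
    have hs3 : s ≤ 3 := by
      rw [hs]
      apply Real.sqrt_le_iff.2
      refine ⟨by norm_num, ?_⟩
      have h3 : (i : ℝ) + 1 ≤ 2 * (B.card : ℝ) := by exact_mod_cast hi.2
      have h4 : 2 * ((i : ℝ) + 1) / (B.card : ℝ) ≤ 4 := by
        rw [div_le_iff₀ hMp]; linarith
      have h5 : 1 / (D : ℝ) ≤ 1 / 2 := one_div_le_one_div_of_le (by norm_num) hD2
      norm_num
      norm_num at h5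
      linarith
    calc 3 * It B i A (Fo B) / (B.card : ℝ) * s ≤
        3 * (2 * (6 * Real.log A.card * (B.card : ℝ) / i) * It B i A (Mf B) +
          1 / (A.card : ℝ)) / (B.card : ℝ) * s := by gcongr
      _ = 6 * (6 * Real.log A.card * (B.card : ℝ) / i * s) * (It B i A (Mf B) / (B.card : ℝ)) +
          3 * s / (A.card : ℝ) / (B.card : ℝ) := by
          ring
      _ ≤ 6 * (18 * Real.log A.card * Real.sqrt (2 * KL)) *
          (It B i A (Mf B) / (B.card : ℝ)) + 3 * 3 / (A.card : ℝ) / (B.card : ℝ) := by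
          have h6 : 0 ≤ It B i A (Mf B) / (B.card : ℝ) := by positivity
          have h7 : 6 * (6 * Real.log A.card * (B.card : ℝ) / i * s) *
              (It B i A (Mf B) / (B.card : ℝ)) ≤ 6 * (18 * Real.log A.card * Real.sqrt (2 * KL)) *
              (It B i A (Mf B) / (B.card : ℝ)) :=
            mul_le_mul_of_nonneg_right (by linarith) h6
          have h8 : 3 * s / (A.card : ℝ) / (B.card : ℝ) ≤
              3 * 3 / (A.card : ℝ) / (B.card : ℝ) := by gcongr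
          linarith
      _ = _ := by ring
  refine (Finset.sum_le_sum hterm).trans ?_
  rw [Finset.sum_add_distrib, ← Finset.mul_sum, Finset.sum_const, nsmul_eq_mul, Nat.card_Ico]
  have h1 : ∑ i ∈ Finset.Ico k (2 * B.card), It B i A (Mf B) / (B.card : ℝ) ≤
      run B (fun A => (A.card : ℝ)) A.card A := by
    refine le_trans ?_ (It_M B hB hM (2 * B.card) A)
    refine Finset.sum_le_sum_of_subset_of_nonneg ?_ ?_
    · intro i hi
      rw [Finset.mem_Ico] at hi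
      exact Finset.mem_range.2 hi.2
    · intro i _ _
      have := It_nonneg B i A (Mf B) (fun A' => Mf_nonneg B A')
      positivity
  have h2 : (((2 * B.card - k : ℕ)) : ℝ) * (9 / (A.card : ℝ) / (B.card : ℝ)) ≤
      18 / (A.card : ℝ) := by
    have h3 : (((2 * B.card - k : ℕ)) : ℝ) ≤ 2 * (B.card : ℝ) := by
      have : 2 * B.card - k ≤ 2 * B.card := Nat.sub_le _ _
      exact_mod_cast this
    calc (((2 * B.card - k : ℕ)) : ℝ) * (9 / (A.card : ℝ) / (B.card : ℝ)) ≤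
        2 * (B.card : ℝ) * (9 / (A.card : ℝ) / (B.card : ℝ)) := by gcongr
      _ = _ := by field_simp; norm_num
  have h4 : 0 ≤ 108 * Real.log A.card * Real.sqrt (2 * KL) := by positivity
  have h5 := mul_le_mul_of_nonneg_left h1 h4
  linarith

/-- `D` large compared with `log D` -/
theorem log_small (κ : ℝ) (hκ : 0 < κ) (D : ℝ) (hD : 1 ≤ D) (h : 9 * κ ^ 2 ≤ D) :
    κ * (1 + Real.log D) ≤ D := by
  obtain ⟨s, hs⟩ : ∃ s : ℝ, s = Real.sqrt D := ⟨_, rfl⟩
  have hD0 : (0 : ℝ) < D := by linarith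
  have hs0 : 0 < s := by rw [hs]; exact Real.sqrt_pos.2 hD0
  have hss : s * s = D := by rw [hs]; exact Real.mul_self_sqrt hD0.le
  have hs1 : 1 ≤ s := by nlinarith
  have h1 : Real.log D ≤ 2 * s := by
    have h2 : Real.log D = 2 * Real.log s := by
      rw [← hss, Real.log_mul hs0.ne' hs0.ne']; ring
    have h3 := Real.log_le_sub_one_of_pos hs0
    linarith
  have h3 : 3 * κ ≤ s := by
    by_contra hcon
    push Not at hcon
    nlinarith
  nlinarith

/-- the final arithmetic -/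
theorem fin_arith {c0 c1 CE K L D N M S F lg k E Lt : ℝ} (hc0 : 0 < c0) (hc1 : 0 < c1)
    (hCE : 0 < CE) (hK8 : 8 ≤ K) (hKc : 640 * CE / (c1 * c0) ≤ K) (hL1 : 1 ≤ L)
    (hD : 100 ≤ D) (hDc : 360 / c0 ≤ D) (hN : 2 * D + 1 ≤ N) (hMp : 0 < M)
    (hLD : 320 * CE / (c1 * c0) * L ≤ D) (hkKL : k * (K * L) ≤ M)
    (hS : S = N / Real.sqrt D) (hF0 : 0 ≤ F) (hlogN : 1 ≤ lg)
    (hap : c0 * S ≤ 5 * (E + Lt) + 8 * F)
    (hes : E ≤ 8 * CE / c1 * S * L * (1 / D + 2 * k / M))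
    (hls : Lt ≤ 108 * lg * Real.sqrt (2 * (K * L)) * F + 18 / N) :
    c0 / (1104 * Real.sqrt (2 * K)) * S / (lg * Real.sqrt L) ≤ F := by
  have hDp : 0 < D := by linarith
  have hKp : 0 < K := by linarith
  have hsD : 0 < Real.sqrt D := Real.sqrt_pos.2 hDp
  have hNp : 0 < N := by linarith
  have hS0 : 0 < S := by rw [hS]; positivity
  have hKL8 : 8 ≤ K * L := by nlinarith
  obtain ⟨G, hG⟩ : ∃ G : ℝ, G = lg * Real.sqrt (2 * (K * L)) := ⟨_, rfl⟩
  have hsq1 : 1 ≤ Real.sqrt (2 * (K * L)) := by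
    rw [show (1 : ℝ) = Real.sqrt 1 by simp]
    apply Real.sqrt_le_sqrt
    linarith
  have hG1 : 1 ≤ G := by rw [hG]; nlinarith
  -- early part
  have hE5 : 5 * (8 * CE / c1 * S * L * (1 / D + 2 * k / M)) ≤ c0 / 4 * S := by
    have h1 : L * (1 / D) ≤ c1 * c0 / (320 * CE) := by
      rw [mul_one_div, div_le_div_iff₀ hDp (by positivity)]
      have h2 : 320 * CE / (c1 * c0) * L = 320 * CE * L / (c1 * c0) := by ring
      rw [h2, div_le_iff₀ (by positivity)] at hLD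
      linarith
    have h2 : L * (2 * k / M) ≤ 2 / K := by
      rw [mul_div_assoc', div_le_div_iff₀ hMp hKp]
      linarith
    have h3 : 2 / K ≤ c1 * c0 / (320 * CE) := by
      rw [div_le_div_iff₀ hKp (by positivity)]
      rw [div_le_iff₀ (by positivity)] at hKc
      linarith
    have h5 : L * (1 / D + 2 * k / M) ≤ 2 * (c1 * c0 / (320 * CE)) := by
      rw [mul_add]; linarith
    calc 5 * (8 * CE / c1 * S * L * (1 / D + 2 * k / M)) =
        40 * CE / c1 * S * (L * (1 / D + 2 * k / M)) := by ring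
      _ ≤ 40 * CE / c1 * S * (2 * (c1 * c0 / (320 * CE))) := by gcongr
      _ = c0 / 4 * S := by field_simp; norm_num
  have hN90 : 5 * (18 / N) ≤ c0 / 4 * S := by
    have h1 : 90 / D ≤ c0 / 4 := by
      rw [div_le_iff₀ hc0] at hDc
      rw [div_le_iff₀ hDp]; linarith
    have h2 : (1 : ℝ) ≤ S := by
      rw [hS, le_div_iff₀ hsD, one_mul]
      have h4 : Real.sqrt D ≤ D := by
        rw [Real.sqrt_le_iff]
        exact ⟨hDp.le, by nlinarith⟩
      linarith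
    have h3 : 90 / N ≤ 90 / D :=
      div_le_div_of_nonneg_left (by norm_num) hDp (by linarith)
    have h5 : 5 * (18 / N) = 90 / N := by ring
    rw [h5]
    nlinarith
  have hfin : c0 * S ≤ c0 / 2 * S + 540 * (G * F) + 8 * F := by
    have h1 : 540 * lg * Real.sqrt (2 * (K * L)) * F = 540 * (G * F) := by
      rw [hG]; ring
    linarith
  have hfin2 : c0 * S ≤ 1104 * (G * F) := by
    have h2 : F ≤ G * F := by nlinarith
    linarith
  have hG2 : G = lg * Real.sqrt L * Real.sqrt (2 * K) := by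
    rw [hG, show 2 * (K * L) = L * (2 * K) by ring, Real.sqrt_mul (by linarith)]
    ring
  have hs2K : 0 < Real.sqrt (2 * K) := Real.sqrt_pos.2 (by positivity)
  have hsL : 0 < Real.sqrt L := Real.sqrt_pos.2 (by linarith)
  rw [div_le_iff₀ (by positivity), div_mul_eq_mul_div, div_le_iff₀ (by positivity)]
  rw [hG2] at hfin2
  linarith

/-- the first late time -/
theorem time_facts {K L D M : ℝ} (hK8 : 8 ≤ K) (hL1 : 1 ≤ L) (hD : 100 ≤ D)
    (hMD : 2 / 3 * D ^ 2 ≤ M) (hKL2 : 2 * (K * L) ≤ D) :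
    ∃ k : ℕ, 1 ≤ k ∧ M / (2 * (K * L)) ≤ k ∧ (k : ℝ) * (K * L) ≤ M ∧ 8 * (k : ℝ) ≤ M ∧
      1 / D + 2 * (k : ℝ) / M ≤ 1 / 2 := by
  have hMp : 0 < M := by nlinarith
  have hKL8 : 8 ≤ K * L := by nlinarith
  have hKLp : 0 < K * L := by linarith
  have hx1 : 1 ≤ M / (K * L) := by
    rw [le_div_iff₀ hKLp]; nlinarith
  have hkle : ((⌊M / (K * L)⌋₊ : ℕ) : ℝ) ≤ M / (K * L) := Nat.floor_le (by positivity)
  have hklt := Nat.lt_floor_add_one (M / (K * L))
  have hk1 : 1 ≤ ⌊M / (K * L)⌋₊ := Nat.le_floor (by simpa using hx1)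
  obtain ⟨k, hk⟩ : ∃ k : ℕ, k = ⌊M / (K * L)⌋₊ := ⟨_, rfl⟩
  rw [← hk] at hkle hklt hk1
  have hkr : (1 : ℝ) ≤ k := by exact_mod_cast hk1
  have hkKL : (k : ℝ) * (K * L) ≤ M := by rwa [le_div_iff₀ hKLp] at hkle
  have hk8 : 8 * (k : ℝ) ≤ M := by nlinarith
  refine ⟨k, hk1, ?_, hkKL, hk8, ?_⟩
  · have h1 : M / (2 * (K * L)) = M / (K * L) / 2 := by
      field_simp
    rw [h1]; linarith
  · have h1 : 1 / D ≤ 1 / 100 := one_div_le_one_div_of_le (by norm_num) hD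
    have h2 : 2 * (k : ℝ) / M ≤ 1 / 4 := by
      rw [div_le_iff₀ hMp]; linarith
    norm_num at h1 ⊢
    linarith

/-- the theorem for fixed data -/
theorem low_fixed {c0 c1 CE K0 K L : ℝ} {ψ ψ' : ℝ → ℝ} {K1 : ℝ} (h : Pot ψ ψ' c1 K1)
    (hc0 : 0 < c0) (hCE : 0 < CE)
    (B : Finset (Finset α)) (A : Finset α) (D : ℕ) (hB : Lin3 B) (hNP : NP B)
    (hBA : ∀ T ∈ B, T ⊆ A) (hdeg : ∀ e ∈ A, dg B A e = D) (hne : A.Nonempty)
    (hD100 : 100 ≤ D)
    (hearly : ∀ i : ℕ, (i : ℝ) * (K0 * (1 + Real.log D)) ≤ (B.card : ℝ) →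
      It B i A (Pt B ψ (1 / (1 / (D : ℝ) + 2 * (i : ℝ) / (B.card : ℝ)))) ≤
      CE * ((A.card : ℝ) / Real.sqrt D) * (1 + Real.log D) *
        Real.sqrt (1 / (D : ℝ) + 2 * (i : ℝ) / (B.card : ℝ)))
    (hap : c0 * ((A.card : ℝ) / Real.sqrt D) ≤
      5 * ∑ i ∈ range (2 * B.card), 3 * It B i A (Fo B) / (B.card : ℝ) *
        Real.sqrt (1 / (D : ℝ) + 2 * ((i : ℝ) + 1) / (B.card : ℝ)) +
      8 * run B (fun A => (A.card : ℝ)) A.card A)
    (hL : L = 1 + Real.log D) (hK8 : 8 ≤ K) (hKK0 : K0 ≤ K)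
    (hKc : 640 * CE / (c1 * c0) ≤ K)
    (hDc : 360 / c0 ≤ (D : ℝ)) (hLD : 320 * CE / (c1 * c0) * L ≤ D)
    (hKL2 : 2 * (K * L) ≤ D) :
    c0 / (1104 * Real.sqrt (2 * K)) * ((A.card : ℝ) / Real.sqrt D) /
      (Real.log A.card * Real.sqrt L) ≤
      run B (fun A => (A.card : ℝ)) A.card A := by
  obtain ⟨hbl, h3, hN⟩ := card_facts B hB A D hBA hdeg
  have hN' := hN hne
  have hDr : (100 : ℝ) ≤ D := by exact_mod_cast hD100
  have hNr : 2 * (D : ℝ) + 1 ≤ (A.card : ℝ) := by exact_mod_cast hN'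
  have hNp : (0 : ℝ) < (A.card : ℝ) := by linarith
  have hMp : (0 : ℝ) < (B.card : ℝ) := by nlinarith
  have hM0 : 0 < B.card := by exact_mod_cast hMp
  have hlogD : 0 ≤ Real.log (D : ℝ) := Real.log_nonneg (by linarith)
  have hL1 : 1 ≤ L := by linarith
  have hMD : 2 / 3 * (D : ℝ) ^ 2 ≤ (B.card : ℝ) := by nlinarith
  have hMN : (B.card : ℝ) ≤ (A.card : ℝ) ^ 2 := by nlinarith
  have hKLp : 0 < K * L := by nlinarith
  obtain ⟨k, hk1, hkM, hkKL, hk8, hp2⟩ := time_facts hK8 hL1 hDr hMD hKL2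
  have h2k : 2 * k ≤ B.card := by
    have h1 : (2 : ℝ) * k ≤ (B.card : ℝ) := by
      have : (0 : ℝ) ≤ k := by positivity
      linarith
    exact_mod_cast h1
  have hEk := hearly k (by
    rw [← hL]
    have h1 : K0 * L ≤ K * L := mul_le_mul_of_nonneg_right hKK0 (by linarith)
    calc (k : ℝ) * (K0 * L) ≤ k * (K * L) := by gcongr
      _ ≤ _ := hkKL)
  have hes := early_sum B hB A D (by omega) hM0 ψ ψ' c1 K1 h CE k h2k hp2 hEk
  have hls := late_sum B hB hNP A D (by omega) hM0 hMN (by omega) k hk1 (K * L) hKLp hkM hKL2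
  have hsplit := Finset.sum_range_add_sum_Ico (fun i : ℕ => 3 * It B i A (Fo B) / (B.card : ℝ) *
        Real.sqrt (1 / (D : ℝ) + 2 * ((i : ℝ) + 1) / (B.card : ℝ)))
    (show k ≤ 2 * B.card by omega)
  rw [← hsplit] at hap
  have hF0 : 0 ≤ run B (fun A => (A.card : ℝ)) A.card A := by
    have h1 := It_Z B hB 0 A
    refine le_trans ?_ h1
    unfold It Zf
    simp
  have hlogN : 1 ≤ Real.log A.card := by
    rw [Real.le_log_iff_exp_le hNp]
    have := Real.exp_one_lt_d9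
    linarith
  rw [← hL] at hes
  exact fin_arith hc0 h.cpos hCE hK8 hKc hL1 hDr hDc hNr hMp hLD hkKL rfl hF0 hlogN hap hes hls

end LMain

open LMain

/-- [LMAIN] lower bound for regular linear 3-uniform hypergraphs with the property `NP` -/
theorem low_regular : ∃ c : ℝ, 0 < c ∧ ∃ D0 : ℕ, ∀ (α : Type) [DecidableEq α]
    (B : Finset (Finset α)) (A : Finset α) (D : ℕ), D0 ≤ D → Lin3 B → NP B →
    (∀ T ∈ B, T ⊆ A) → (∀ e ∈ A, dg B A e = D) → A.Nonempty →
    c * ((A.card : ℝ) / Real.sqrt D) / (Real.log A.card * Real.sqrt (1 + Real.log D)) ≤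
      run B (fun A => (A.card : ℝ)) A.card A := by
  obtain ⟨ψ, ψ', c1, K1, h⟩ := exists_pot
  obtain ⟨CE, K0, hCE, hK0, hearly⟩ := early_pot ψ ψ' c1 K1 h
  obtain ⟨c0, hc0, hreal⟩ := low_real
  have hc1 := h.cpos
  obtain ⟨K, hK⟩ : ∃ K : ℝ, K = K0 + 8 + 640 * CE / (c1 * c0) := ⟨_, rfl⟩
  have hKq : 0 < 640 * CE / (c1 * c0) := by positivity
  have hK8 : 8 ≤ K := by linarith
  have hKp : 0 < K := by linarith
  obtain ⟨κ, hκ⟩ : ∃ κ : ℝ, κ = 2 * K + 320 * CE / (c1 * c0) := ⟨_, rfl⟩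
  have hκp : 0 < κ := by rw [hκ]; positivity
  refine ⟨c0 / (1104 * Real.sqrt (2 * K)), by positivity,
    ⌈9 * κ ^ 2⌉₊ + ⌈360 / c0⌉₊ + 100, ?_⟩
  intro α _ B A D hDD hB hNP hBA hdeg hne
  have hD100 : 100 ≤ D := by omega
  have hDκ : 9 * κ ^ 2 ≤ (D : ℝ) := by
    have h1 : ⌈9 * κ ^ 2⌉₊ ≤ D := by omega
    exact Nat.ceil_le.1 h1
  have hDc : 360 / c0 ≤ (D : ℝ) := by
    have h1 : ⌈360 / c0⌉₊ ≤ D := by omega
    exact Nat.ceil_le.1 h1
  have hDr : (100 : ℝ) ≤ D := by exact_mod_cast hD100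
  obtain ⟨L, hL⟩ : ∃ L : ℝ, L = 1 + Real.log D := ⟨_, rfl⟩
  have hlogD : 0 ≤ Real.log (D : ℝ) := Real.log_nonneg (by linarith)
  have hL1 : 1 ≤ L := by linarith
  have hκL : κ * L ≤ D := by rw [hL]; exact log_small κ hκp D (by linarith) hDκ
  have hKL2 : 2 * (K * L) ≤ D := by
    have : 0 ≤ 320 * CE / (c1 * c0) * L := by positivity
    rw [hκ] at hκL
    linarith
  have hLD : 320 * CE / (c1 * c0) * L ≤ D := by
    have : 0 ≤ 2 * K * L := by positivity
    rw [hκ] at hκL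
    linarith
  have hap := apply_real hreal B A D (by omega) hB hBA hdeg hne (by
    have h4 := (card_facts B hB A D hBA hdeg).2.2 hne
    omega)
  rw [← hL]
  exact low_fixed h hc0 hCE B A D hB hNP hBA hdeg hne hD100
    (hearly α B A D (by omega) hB hBA hdeg hne) hap hL hK8 (by linarith) (by linarith) hDc hLD
    hKL2

end

end Vale.Agent.P046
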