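import Vale.Agent.P046.Low.TDefs
import Vale.Agent.P046.Low.Real

/-!
P046, lower bound in probability, row REAL2: the comparison of the two linear recursions with
errors (pure real numbers)
-/

namespace Vale.Agent.P046

open Finset

noncomputable section

namespace LowReal2

/-- step of `q ≤ lam (a + Psi)` with errors -/
theorem q_step2 (h l l' a q φ ψ a' q' eW eS : ℝ) (hh : 0 ≤ h) (hl0 : 0 < l') (hll : l' ≤ l)
    (h6 : 6 * h * l ≤ 1) (hstep : l * (1 + 2 * h - 3 * h * l) ≤ l' * (1 - h * l))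
    (ha : 0 ≤ a) (hψ : 0 ≤ ψ) (hq : q ≤ l * (a + ψ))
    (hq' : q' ≤ q + (-3 * (2 * l * q - l ^ 2 * a) + 2 * q) * h + eS)
    (ha' : a - (q + φ) * h - eW ≤ a') :
    q' ≤ l' * (a' + ((1 - 3 * h * l) * ψ + (h * φ + eW + eS / l'))) := by
  have hθ : 0 ≤ 1 - 6 * h * l + 2 * h + h * l' := by
    have : 0 ≤ h * l' := mul_nonneg hh hl0.le
    linarith
  have h1 := mul_le_mul_of_nonneg_left hq hθ
  have h2 : l * (1 - 6 * h * l + 2 * h + h * l') ≤ l' - 3 * h * l ^ 2 := by nlinarith
  have h3 := mul_le_mul_of_nonneg_right h2 (add_nonneg ha hψ)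
  have h4 : 0 ≤ 3 * h * l * (l - l') * ψ := by
    have : 0 ≤ l := le_trans hl0.le hll
    have : 0 ≤ l - l' := by linarith
    positivity
  have h5 := mul_le_mul_of_nonneg_left ha' hl0.le
  have h6 : l' * (eS / l') = eS := by field_simp
  have h7 : l' * (a' + ((1 - 3 * h * l) * ψ + (h * φ + eW + eS / l')))
      = l' * a' + l' * (1 - 3 * h * l) * ψ + l' * (h * φ) + l' * eW + eS := by
    calc _ = l' * a' + l' * (1 - 3 * h * l) * ψ + l' * (h * φ) + l' * eW + l' * (eS / l') := by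
          ring
      _ = _ := by rw [h6]
  rw [h7]
  nlinarith

/-- the recursion `psi` with weight `1` -/
theorem psi1_le (h : ℝ) (hh0 : 0 < h) (u v l φ : ℕ → ℝ) (hupos : ∀ i, 0 < u i)
    (hv1 : ∀ i, 1 ≤ v i) (husucc : ∀ i, u (i + 1) = u i + 2 * h) (hl : ∀ i, l i = v i / u i)
    (h1 : ∀ i, 1 * h * l i ≤ 1) (hφ : ∀ i, 0 ≤ φ i) (i : ℕ) :
    LowReal.psi l h 1 φ i ≤
      (∑ j ∈ range i, φ j * h * Real.sqrt (u (j + 1))) / Real.sqrt (u i) := by
  have hsq : ∀ i, 0 < Real.sqrt (u i) := fun i => Real.sqrt_pos.2 (hupos i)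
  induction i with
  | zero =>
    have h1 : LowReal.psi l h 1 φ 0 = 0 := rfl
    rw [h1]; simp
  | succ i ih =>
    have hP1s : LowReal.psi l h 1 φ (i + 1)
      = (1 - 1 * h * l i) * LowReal.psi l h 1 φ i + h * φ i := rfl
    rw [sum_range_succ, add_div, hP1s]
    have hS : 0 ≤ ∑ j ∈ range i, φ j * h * Real.sqrt (u (j + 1)) :=
      sum_nonneg fun j _ => mul_nonneg (mul_nonneg (hφ j) hh0.le) (Real.sqrt_nonneg _)
    have hps : (1 - h * l i) * Real.sqrt (u (i + 1)) ≤ Real.sqrt (u i) := by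
      rw [husucc i, hl i]
      exact LowReal.p_step (u i) (v i) h (hupos i) (hv1 i) hh0.le
        (by have := h1 i; rw [hl i] at this; linarith)
    have h2 : (1 - 1 * h * l i) * (1 / Real.sqrt (u i)) ≤ 1 / Real.sqrt (u (i + 1)) := by
      rw [mul_one_div, div_le_div_iff₀ (hsq _) (hsq _)]
      linarith
    have h4 : (1 - 1 * h * l i) * LowReal.psi l h 1 φ i ≤
        (∑ j ∈ range i, φ j * h * Real.sqrt (u (j + 1))) / Real.sqrt (u (i + 1)) := by
      calc (1 - 1 * h * l i) * LowReal.psi l h 1 φ i ≤ (1 - 1 * h * l i) *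
            ((∑ j ∈ range i, φ j * h * Real.sqrt (u (j + 1))) / Real.sqrt (u i)) :=
            mul_le_mul_of_nonneg_left ih (by linarith [h1 i])
        _ = (∑ j ∈ range i, φ j * h * Real.sqrt (u (j + 1))) *
            ((1 - 1 * h * l i) * (1 / Real.sqrt (u i))) := by ring
        _ ≤ (∑ j ∈ range i, φ j * h * Real.sqrt (u (j + 1))) *
            (1 / Real.sqrt (u (i + 1))) := mul_le_mul_of_nonneg_left h2 hS
        _ = _ := by ring
    have h5 : φ i * h * Real.sqrt (u (i + 1)) / Real.sqrt (u (i + 1)) = h * φ i := by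
      rw [mul_div_assoc, div_self (hsq _).ne']; ring
    rw [h5]
    linarith

/-- lower bound of the main term -/
theorem c_low (h M N D G ui : ℝ) (i : ℕ) (hD : 0 < D) (hh0 : 0 < h) (h14 : 14 * h ≤ 1 / 2)
    (hMh : M * h = 1) (hN : 0 ≤ N) (hG : 0 ≤ G) (hi : (i : ℝ) ≤ 2 * M)
    (hui : ui = 1 / D + 2 * (i : ℝ) * h) (hD1 : 1 / D ≤ 1) :
    Real.exp (-56) * (N / Real.sqrt (5 * D)) * G ≤
      N * G * (1 - 14 * h) ^ i * (Real.sqrt (1 / D) / Real.sqrt ui) := by
  have hi' : (i : ℝ) * h ≤ 2 := by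
    have h2 := mul_le_mul_of_nonneg_right hi hh0.le
    linarith
  have hupos : 0 < ui := by rw [hui]; positivity
  have he : Real.exp (-56) ≤ (1 - 14 * h) ^ i := by
    have h1 : Real.exp (-(28 * h)) ≤ 1 - 14 * h := LowReal.exp_le h hh0.le h14
    have h2 : Real.exp (-(28 * h)) ^ i ≤ (1 - 14 * h) ^ i :=
      pow_le_pow_left₀ (Real.exp_nonneg _) h1 i
    refine le_trans ?_ h2
    rw [← Real.exp_nat_mul]
    apply Real.exp_le_exp.2
    nlinarith
  have hs : 1 / Real.sqrt (5 * D) ≤ Real.sqrt (1 / D) / Real.sqrt ui := by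
    rw [div_le_div_iff₀ (Real.sqrt_pos.2 (by positivity)) (Real.sqrt_pos.2 hupos), one_mul,
      ← Real.sqrt_mul (by positivity)]
    apply Real.sqrt_le_sqrt
    have h1 : 1 / D * (5 * D) = 5 := by field_simp
    rw [h1, hui]
    linarith
  have hNG : 0 ≤ N * G := mul_nonneg hN hG
  calc Real.exp (-56) * (N / Real.sqrt (5 * D)) * G
      = N * G * Real.exp (-56) * (1 / Real.sqrt (5 * D)) := by ring
    _ ≤ N * G * (1 - 14 * h) ^ i * (Real.sqrt (1 / D) / Real.sqrt ui) := by
        apply mul_le_mul (mul_le_mul_of_nonneg_left he hNG) hs (by positivity)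
        have h0 : 0 ≤ 1 - 14 * h := by linarith
        positivity

/-- one summand of the error term -/
theorem term_le (f eW eS l u v x : ℝ) (hl : l = v / u) (hu : 0 < u) (hv1 : 1 ≤ v)
    (hu2 : x = u) (heS : 0 ≤ eS) :
    (f + eW + eS / l) * Real.sqrt u ≤
      f * Real.sqrt x + eW * Real.sqrt x + eS * Real.sqrt x ^ 3 := by
  subst hu2
  have hl0 : 0 < l := by rw [hl]; exact div_pos (by linarith) hu
  have e3 : eS / l ≤ eS * x := by
    rw [div_le_iff₀ hl0]
    have e4 : x * l = v := by rw [hl, mul_div_cancel₀ _ hu.ne']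
    rw [mul_assoc, e4]
    have := mul_le_mul_of_nonneg_left hv1 heS
    linarith
  have e5 : Real.sqrt x ^ 3 = x * Real.sqrt x := by
    rw [pow_succ, Real.sq_sqrt hu.le]
  rw [e5]
  have e6 := mul_le_mul_of_nonneg_right e3 (Real.sqrt_nonneg x)
  nlinarith

end LowReal2

open LowReal LowReal2 in
theorem low_real2 : ∃ c0 : ℝ, 0 < c0 ∧ ∀ (M : ℕ) (N D G F1 F2 : ℝ), 2 ≤ D → 2 * D + 1 ≤ N →
    100 ≤ N → 3 * (M : ℝ) = N * D → 0 ≤ G → ∀ (a q φ z τ eW eS : ℕ → ℝ), a 0 = N * G →
    q 0 = N * D * G → (∀ i, 0 ≤ a i) → (∀ i, 0 ≤ q i) → (∀ i, 0 ≤ φ i) → (∀ i, 0 ≤ eW i) →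
    (∀ i, 0 ≤ eS i) → (∀ i, z i ≤ F1) → (∀ i, 0 ≤ τ i) →
    (∀ i, a i - (q i + φ i) / M - eW i ≤ a (i + 1)) →
    (∀ i, ∀ l : ℝ, q (i + 1) ≤
      q i + (-3 * (2 * l * q i - l ^ 2 * a i) + 2 * q i) / M + eS i) →
    (∀ i, 2 * a i - 2 * z i - 2 * τ i ≤ q i) →
    ∑ i ∈ Finset.Ico M (2 * M), τ i / M ≤ F2 →
    c0 * (N / Real.sqrt D) * G ≤
      5 * ∑ i ∈ range (2 * M),
        (φ i / M * pp D M i + eW i * pp D M i + eS i * pp D M i ^ 3) + 4 * F1 + 4 * F2 := by
  refine ⟨Real.exp (-56) / 3, by positivity, ?_⟩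
  intro M N D G F1 F2 hD hND hN hM hG a q φ z τ eW eS ha0 hq0 ha hq hφ heW heS hz hτ hastep
    hqstep hlow hsum
  have hMpos : (0 : ℝ) < M := by nlinarith
  obtain ⟨h, hh⟩ : ∃ h : ℝ, h = 1 / (M : ℝ) := ⟨_, rfl⟩
  have hh0 : 0 < h := by rw [hh]; positivity
  have hdiv : ∀ x : ℝ, x / (M : ℝ) = x * h := by
    intro x; rw [hh]; ring
  have hMh : (M : ℝ) * h = 1 := by rw [hh]; field_simp
  have hNDh : N * D * h = 3 := by rw [← hM]; linarith [hMh]
  simp only [pp, hdiv] at hastep hqstep hsum ⊢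
  set u : ℕ → ℝ := fun i => 1 / D + 2 * (i : ℝ) * h with hu
  set v : ℕ → ℝ := fun i => 1 + 2 * (i : ℝ) * h with hv
  have hDpos : 0 < D := by linarith
  have hD1 : 1 / D ≤ 1 := by rw [div_le_one hDpos]; linarith
  have hih : ∀ i : ℕ, 0 ≤ 2 * (i : ℝ) * h := fun i => by positivity
  have hupos : ∀ i, 0 < u i := fun i => by
    have := hih i
    have : 0 < 1 / D := by positivity
    simp only [hu]; linarith
  have huge : ∀ i, 1 / D ≤ u i := fun i => by
    have := hih i
    simp only [hu]; linarith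
  have hv1 : ∀ i, 1 ≤ v i := fun i => by
    have := hih i
    simp only [hv]; linarith
  have huv : ∀ i, u i ≤ v i := fun i => by simp only [hu, hv]; linarith
  have hvu : ∀ i, v i ≤ 1 + u i := fun i => by
    have : 0 < 1 / D := by positivity
    simp only [hu, hv]; linarith
  have husucc : ∀ i, u (i + 1) = u i + 2 * h := fun i => by
    simp only [hu]; push_cast; ring
  have hvsucc : ∀ i, v (i + 1) = v i + 2 * h := fun i => by
    simp only [hv]; push_cast; ring
  set l : ℕ → ℝ := fun i => v i / u i with hl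
  have hlD : ∀ i, l i ≤ D := fun i => by
    simp only [hl]
    rw [div_le_iff₀ (hupos i)]
    simp only [hu, hv]
    have : D * (1 / D + 2 * (i : ℝ) * h) = 1 + D * (2 * (i : ℝ) * h) := by field_simp
    rw [this]
    nlinarith [hih i]
  have hl0 : ∀ i, 0 < l i := fun i => div_pos (by linarith [hv1 i]) (hupos i)
  have hhD : 6 * h * D ≤ 1 / 5 := by
    have : N * (6 * h * D) = 18 := by nlinarith
    nlinarith [mul_pos hh0 hDpos]
  have h6 : ∀ i, 6 * h * l i ≤ 1 := fun i => by
    have := mul_le_mul_of_nonneg_left (hlD i) (by positivity : (0 : ℝ) ≤ 6 * h)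
    linarith
  have h3 : ∀ i, 3 * h * l i ≤ 1 := fun i => by
    have := h6 i
    have : 0 ≤ 3 * h * l i := by have := hl0 i; positivity
    linarith
  have h1 : ∀ i, 1 * h * l i ≤ 1 := fun i => by
    have := h6 i
    have : 0 ≤ h * l i := by have := hl0 i; positivity
    linarith
  have hlanti : ∀ i, l (i + 1) ≤ l i := fun i => by
    simp only [hl]; rw [husucc, hvsucc]
    exact lam_anti _ _ _ (hupos i) (huv i) hh0.le
  have hlstep : ∀ i, l i * (1 + 2 * h - 3 * h * l i) ≤ l (i + 1) * (1 - h * l i) := fun i => by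
    simp only [hl]; rw [husucc, hvsucc]
    exact lam_step _ _ _ (hupos i) (hv1 i) (huv i) hh0.le
  set φ' : ℕ → ℝ := fun i => φ i + (eW i + eS i / l (i + 1)) * M with hφ'
  have hδ : ∀ i, h * φ' i = h * φ i + eW i + eS i / l (i + 1) := fun i => by
    simp only [hφ']
    calc h * (φ i + (eW i + eS i / l (i + 1)) * M)
        = h * φ i + (eW i + eS i / l (i + 1)) * (M * h) := by ring
      _ = _ := by rw [hMh]; ring
  have hφ'n : ∀ i, 0 ≤ φ' i := fun i => by
    have h1 := hφ i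
    have h2 := heW i
    have h3 : 0 ≤ eS i / l (i + 1) := div_nonneg (heS i) (hl0 _).le
    simp only [hφ']
    positivity
  set P3 := psi l h 3 φ' with hP3
  set P1 := psi l h 1 φ' with hP1
  have hP3n : ∀ i, 0 ≤ P3 i := psi_nonneg l h 3 φ' hh0.le hφ'n h3
  have hP1n : ∀ i, 0 ≤ P1 i := psi_nonneg l h 1 φ' hh0.le hφ'n h1
  have hP31 : ∀ i, P3 i ≤ P1 i := psi_le l h φ' hh0.le hφ'n (fun i => (hl0 i).le) h3
  have hP3s : ∀ i, P3 (i + 1) = (1 - 3 * h * l i) * P3 i + h * φ' i := fun i => rfl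
  have hP1s : ∀ i, P1 (i + 1) = (1 - 1 * h * l i) * P1 i + h * φ' i := fun i => rfl
  -- (2)
  have hQ : ∀ i, q i ≤ l i * (a i + P3 i) := by
    intro i
    induction i with
    | zero =>
      have hu0 : u 0 = 1 / D := by simp [hu]
      have hv0 : v 0 = 1 := by simp [hv]
      have : l 0 = D := by simp only [hl]; rw [hu0, hv0]; simp
      rw [this, hq0, ha0]
      have : P3 0 = 0 := rfl
      rw [this]; linarith
    | succ i ih =>
      have := q_step2 h (l i) (l (i + 1)) (a i) (q i) (φ i) (P3 i) (a (i + 1)) (q (i + 1))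
        (eW i) (eS i) hh0.le (hl0 _) (hlanti i) (h6 i) (hlstep i) (ha i) (hP3n i) ih
        (hqstep i (l i)) (hastep i)
      rw [hP3s i, hδ i]
      exact this
  -- (3)
  have h14 : 14 * h ≤ 1 / 2 := by
    have h200 : (200 : ℝ) * h ≤ N * D * h := by
      apply mul_le_mul_of_nonneg_right _ hh0.le
      nlinarith
    linarith
  have hsq : ∀ i, 0 < Real.sqrt (u i) := fun i => Real.sqrt_pos.2 (hupos i)
  have hcs : ∀ i, (1 - 14 * h) * Real.sqrt (u i) ≤ (1 - h * l i) * Real.sqrt (u (i + 1)) := by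
    intro i
    rw [husucc i]
    refine c_step (u i) (v i) h (hupos i) (hvu i) hh0.le (by linarith)
      (by have := h1 i; simpa [hl] using this) ?_
    have hr : 1 / u i ≤ D := by
      rw [div_le_iff₀ (hupos i)]
      have := mul_le_mul_of_nonneg_left (huge i) hDpos.le
      have h2 : D * (1 / D) = 1 := by field_simp
      linarith
    have hr0 : 0 < 1 / u i := by have := hupos i; positivity
    have h2 : h * (1 / u i) * (1 + 1 / u i) ≤ h * D * (1 + D) := by
      apply mul_le_mul (mul_le_mul_of_nonneg_left hr hh0.le) (by linarith) (by positivity)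
      positivity
    have h3 : h * D * (1 + D) ≤ h * D * N := by
      apply mul_le_mul_of_nonneg_left _ (by positivity)
      linarith
    nlinarith
  set c : ℕ → ℝ := fun i => N * G * (1 - 14 * h) ^ i *
    (Real.sqrt (u 0) / Real.sqrt (u i)) with hc
  have hcn : ∀ i, 0 ≤ c i := fun i => by
    have h0 : 0 ≤ 1 - 14 * h := by linarith
    simp only [hc]
    have := hsq i
    have := hsq 0
    positivity
  have hcstep : ∀ i, c (i + 1) ≤ (1 - h * l i) * c i := by
    intro i
    have h0 : 0 ≤ 1 - 14 * h := by linarith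
    have hx : (1 - 14 * h) * (1 / Real.sqrt (u (i + 1))) ≤
        (1 - h * l i) * (1 / Real.sqrt (u i)) := by
      rw [mul_one_div, mul_one_div, div_le_div_iff₀ (hsq _) (hsq _)]
      exact hcs i
    have hy : 0 ≤ N * G * (1 - 14 * h) ^ i * Real.sqrt (u 0) := by positivity
    have := mul_le_mul_of_nonneg_left hx hy
    simp only [hc]
    calc N * G * (1 - 14 * h) ^ (i + 1) * (Real.sqrt (u 0) / Real.sqrt (u (i + 1)))
        = N * G * (1 - 14 * h) ^ i * Real.sqrt (u 0) *
            ((1 - 14 * h) * (1 / Real.sqrt (u (i + 1)))) := by rw [pow_succ]; ring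
      _ ≤ _ := this
      _ = _ := by ring
  -- (4)
  have hR : ∀ i, 0 ≤ a i - c i + 3 / 2 * P1 i - 1 / 2 * P3 i := by
    intro i
    induction i with
    | zero =>
      have h0 : c 0 = N * G := by
        simp only [hc]
        rw [pow_zero, div_self (hsq 0).ne']
        ring
      have h1 : P1 0 = 0 := rfl
      have h3 : P3 0 = 0 := rfl
      rw [h0, h1, h3, ha0]; linarith
    | succ i ih =>
      have hc1 := hcstep i
      have hq1 := mul_le_mul_of_nonneg_left (hQ i) hh0.le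
      rw [hP1s i, hP3s i, hδ i]
      have ha1 := hastep i
      have h2 : 0 ≤ 1 - h * l i := by have := h1 i; linarith
      have h3 := mul_nonneg h2 ih
      have h4 : 0 ≤ eS i / l (i + 1) := div_nonneg (heS i) (hl0 _).le
      nlinarith
  -- (5)
  have hPs : ∀ i, P1 i ≤ (∑ j ∈ range i, φ' j * h * Real.sqrt (u (j + 1))) / Real.sqrt (u i) :=
    fun i => psi1_le h hh0 u v l φ' hupos hv1 husucc (fun _ => rfl) h1 hφ'n i
  -- (6)
  set S := ∑ j ∈ range (2 * M), φ' j * h * Real.sqrt (u (j + 1)) with hS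
  have hterm : ∀ j, 0 ≤ φ' j * h * Real.sqrt (u (j + 1)) := fun j =>
    mul_nonneg (mul_nonneg (hφ'n j) hh0.le) (Real.sqrt_nonneg _)
  have hlate : ∀ i, M ≤ i → i < 2 * M → c i ≤ 4 * S + 4 * F1 + 4 * τ i := by
    intro i hi1 hi2
    have hu2 : 2 ≤ u i := by
      have : (M : ℝ) ≤ i := by exact_mod_cast hi1
      have h2 : (M : ℝ) * h ≤ i * h := mul_le_mul_of_nonneg_right this hh0.le
      have h3 : 0 < 1 / D := by positivity
      simp only [hu]
      linarith
    have hl32 : l i ≤ 3 / 2 := by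
      simp only [hl]
      rw [div_le_iff₀ (hupos i)]
      linarith [hvu i]
    have hPS : P1 i ≤ S := by
      refine (hPs i).trans ?_
      rw [div_le_iff₀ (hsq i)]
      have h1 : ∑ j ∈ range i, φ' j * h * Real.sqrt (u (j + 1)) ≤ S :=
        sum_le_sum_of_subset_of_nonneg (range_mono hi2.le) fun j _ _ => hterm j
      have h2 : 0 ≤ S := sum_nonneg fun j _ => hterm j
      have h3 : 1 ≤ Real.sqrt (u i) := by
        rw [Real.one_le_sqrt]; linarith
      nlinarith
    have h1 := hlow i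
    have h2 := hQ i
    have h3 := hR i
    have h4 := hz i
    have h5 := mul_le_mul_of_nonneg_right hl32 (add_nonneg (ha i) (hP3n i))
    have h6 := hP31 i
    linarith
  have hclow : ∀ i, i < 2 * M → Real.exp (-56) * (N / Real.sqrt (5 * D)) * G ≤ c i := by
    intro i hi
    have hu0 : u 0 = 1 / D := by simp [hu]
    have hN0 : 0 ≤ N := by linarith
    simp only [hc]
    rw [hu0]
    exact c_low h M N D G (u i) i hDpos hh0 h14 hMh hN0 hG (by exact_mod_cast hi.le) rfl hD1
  have hall : ∀ i ∈ Ico M (2 * M), Real.exp (-56) * (N / Real.sqrt (5 * D)) * G * h ≤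
      (4 * S + 4 * F1) * h + 4 * (τ i * h) := by
    intro i hi
    rw [mem_Ico] at hi
    have h1 := (hclow i hi.2).trans (hlate i hi.1 hi.2)
    have h2 := mul_le_mul_of_nonneg_right h1 hh0.le
    linarith
  have hsum2 := sum_le_sum hall
  rw [sum_add_distrib, sum_const, sum_const, ← mul_sum, Nat.card_Ico, nsmul_eq_mul,
    nsmul_eq_mul] at hsum2
  have hcard : ((2 * M - M : ℕ) : ℝ) = M := by
    congr 1; omega
  rw [hcard] at hsum2
  have hfin : Real.exp (-56) * (N / Real.sqrt (5 * D)) * G ≤ 4 * S + 4 * F1 + 4 * F2 := by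
    have e1 : (M : ℝ) * (Real.exp (-56) * (N / Real.sqrt (5 * D)) * G * h) =
        Real.exp (-56) * (N / Real.sqrt (5 * D)) * G := by
      calc (M : ℝ) * (Real.exp (-56) * (N / Real.sqrt (5 * D)) * G * h) =
          Real.exp (-56) * (N / Real.sqrt (5 * D)) * G * (M * h) := by ring
        _ = _ := by rw [hMh, mul_one]
    have e2 : (M : ℝ) * ((4 * S + 4 * F1) * h) = 4 * S + 4 * F1 := by
      calc (M : ℝ) * ((4 * S + 4 * F1) * h) = (4 * S + 4 * F1) * (M * h) := by ring
        _ = _ := by rw [hMh, mul_one]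
    rw [e1, e2] at hsum2
    linarith
  have hSn : 0 ≤ S := sum_nonneg fun j _ => hterm j
  have hSle : S ≤ ∑ i ∈ range (2 * M), (φ i * h * Real.sqrt (1 / D + 2 * ((i : ℝ) + 1) * h)
      + eW i * Real.sqrt (1 / D + 2 * ((i : ℝ) + 1) * h)
      + eS i * Real.sqrt (1 / D + 2 * ((i : ℝ) + 1) * h) ^ 3) := by
    rw [hS]
    apply sum_le_sum
    intro i _
    have e2 : φ' i * h = φ i * h + eW i + eS i / l (i + 1) := by
      have := hδ i
      linarith
    rw [e2]
    exact term_le _ _ _ _ (u (i + 1)) (v (i + 1)) _ rfl (hupos _) (hv1 _)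
      (by simp only [hu]; push_cast; ring) (heS i)
  have hlast : Real.exp (-56) / 3 * (N / Real.sqrt D) * G ≤
      Real.exp (-56) * (N / Real.sqrt (5 * D)) * G := by
    refine mul_le_mul_of_nonneg_right ?_ hG
    have h5 : Real.sqrt (5 * D) ≤ 3 * Real.sqrt D := by
      rw [Real.sqrt_le_left (by positivity), mul_pow, Real.sq_sqrt hDpos.le]
      linarith
    have h6 : N / (3 * Real.sqrt D) ≤ N / Real.sqrt (5 * D) :=
      div_le_div_of_nonneg_left (by linarith) (Real.sqrt_pos.2 (by positivity)) h5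
    calc Real.exp (-56) / 3 * (N / Real.sqrt D) = Real.exp (-56) * (N / (3 * Real.sqrt D)) := by
          rw [div_mul_div_comm, mul_div_assoc]
      _ ≤ _ := mul_le_mul_of_nonneg_left h6 (Real.exp_nonneg _)
  linarith

end

end Vale.Agent.P046
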