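import Vale.Agent.P046.Low.TDefs
import Vale.Agent.P046.Kn
import Vale.Agent.P046.Low.LKn

/-!
P046, lower bound in probability: the complete graph (row TKN)
-/

namespace Vale.Agent.P046

open Finset

noncomputable section

namespace TKn

theorem Ex_one {β : Type} [Fintype β] (p : PMF β) : Ex p (fun _ => (1 : ℝ)) = 1 := by
  unfold Ex
  simp only [mul_one]
  have h1 : ∑ x, p x = 1 := by
    have h2 := p.tsum_coe
    rwa [tsum_fintype] at h2
  rw [← ENNReal.toReal_sum fun x _ => p.apply_ne_top x, h1, ENNReal.toReal_one]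

theorem probF_eq (n : ℕ) (x : ℝ) :
    probF n x = 1 - gx (BK n) x (EE (⊤ : SimpleGraph (Fin n))) := by
  classical
  have h1 : gx (BK n) x (EE (⊤ : SimpleGraph (Fin n))) =
      Ex (leave n) fun G => few x (EE G) := by
    unfold gx leave
    rw [Ex_triLaw (few x)]
    refine (run_stable (BK n) (lin3_BK n) _ _ _ le_rfl _ ?_).symm
    rw [card_EE_top]
    exact choose_two_le n
  have h2 : probF n x + (Ex (leave n) fun G => few x (EE G)) = Ex (leave n) (fun _ => (1 : ℝ)) := by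
    unfold probF Ex
    rw [← sum_add_distrib]
    refine sum_congr rfl fun G _ => ?_
    have h3 : G.edgeFinset.card = (EE G).card := by
      congr 1
      ext e
      rw [SimpleGraph.mem_edgeFinset, mem_EE]
    rw [h3]
    show _ + (leave n G).toReal * few x (EE G) = (leave n G).toReal * 1
    unfold few
    by_cases h4 : x ≤ ((EE G).card : ℝ)
    · rw [if_pos h4, if_neg (not_lt.mpr h4)]
      ring
    · rw [if_neg h4, if_pos (not_le.mp h4)]
      ring
  rw [Ex_one] at h2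
  rw [h1]
  linarith

theorem probF_anti (n : ℕ) {x y : ℝ} (h : x ≤ y) : probF n y ≤ probF n x := by
  classical
  unfold probF
  refine sum_le_sum fun G _ => ?_
  split_ifs with h1 h2 h2
  · exact le_rfl
  · exact absurd (h.trans h1) h2
  · exact ENNReal.toReal_nonneg
  · exact le_rfl

theorem rate_le {c : ℝ} (hc : 0 < c) {n : ℕ} (hn : 4 ≤ n) :
    c / 16 * ((n : ℝ) ^ (3 / 2 : ℝ) / (Real.log n) ^ (3 / 2 : ℝ)) ≤
      c * ((n : ℝ) * (n - 1) / 2 / Real.sqrt ((n : ℝ) - 2)) /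
        (Real.log ((n : ℝ) * (n - 1) / 2) * Real.sqrt (1 + Real.log ((n : ℝ) - 2))) := by
  have hn4 : (4 : ℝ) ≤ n := by exact_mod_cast hn
  have hn0 : (0 : ℝ) < n := by linarith
  have hlog1 : (1 : ℝ) ≤ Real.log n := by
    rw [Real.le_log_iff_exp_le hn0]
    have := Real.exp_one_lt_d9
    linarith
  have hD0 : (0 : ℝ) < n - 2 := by linarith
  have hN1 : (n : ℝ) ^ 2 / 4 ≤ n * (n - 1) / 2 := by nlinarith
  have hN2 : (n : ℝ) * (n - 1) / 2 ≤ n ^ 2 := by nlinarith
  have hN0 : (1 : ℝ) < n * (n - 1) / 2 := by nlinarith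
  have hlogN : Real.log (n * (n - 1) / 2) ≤ 2 * Real.log n := by
    calc Real.log (n * (n - 1) / 2) ≤ Real.log ((n : ℝ) ^ 2) :=
          Real.log_le_log (by linarith) hN2
      _ = 2 * Real.log n := by rw [Real.log_pow]; norm_num
  have hlogN0 : 0 < Real.log (n * (n - 1) / 2) := Real.log_pos hN0
  have hlogD0 : 0 ≤ Real.log ((n : ℝ) - 2) := Real.log_nonneg (by linarith)
  have hlogD : Real.log ((n : ℝ) - 2) ≤ Real.log n := Real.log_le_log hD0 (by linarith)
  set L := Real.log n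
  have hL0 : 0 < L := by linarith
  have e32 : (n : ℝ) ^ (3 / 2 : ℝ) = n * Real.sqrt n := by
    rw [Real.sqrt_eq_rpow, ← Real.rpow_one_add' hn0.le (by norm_num)]
    norm_num
  have e32' : L ^ (3 / 2 : ℝ) = L * Real.sqrt L := by
    rw [Real.sqrt_eq_rpow, ← Real.rpow_one_add' hL0.le (by norm_num)]
    norm_num
  rw [e32, e32']
  have hsL : 0 < Real.sqrt L := Real.sqrt_pos.mpr hL0
  have hsn : 0 < Real.sqrt n := Real.sqrt_pos.mpr hn0
  have hsD : 0 < Real.sqrt ((n : ℝ) - 2) := Real.sqrt_pos.mpr hD0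
  have hs1 : Real.sqrt (1 + Real.log ((n : ℝ) - 2)) ≤ 2 * Real.sqrt L := by
    calc Real.sqrt (1 + Real.log ((n : ℝ) - 2)) ≤ Real.sqrt (2 ^ 2 * L) :=
          Real.sqrt_le_sqrt (by linarith)
      _ = 2 * Real.sqrt L := by
          rw [Real.sqrt_mul (by norm_num), Real.sqrt_sq (by norm_num)]
  have hs1' : 0 < Real.sqrt (1 + Real.log ((n : ℝ) - 2)) := Real.sqrt_pos.mpr (by linarith)
  -- denominator
  have hden : Real.log (n * (n - 1) / 2) * Real.sqrt (1 + Real.log ((n : ℝ) - 2)) ≤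
      4 * (L * Real.sqrt L) := by
    calc Real.log (n * (n - 1) / 2) * Real.sqrt (1 + Real.log ((n : ℝ) - 2)) ≤
          (2 * L) * (2 * Real.sqrt L) :=
          mul_le_mul hlogN hs1 hs1'.le (by positivity)
      _ = 4 * (L * Real.sqrt L) := by ring
  -- numerator
  have hss : Real.sqrt n * Real.sqrt n = n := Real.mul_self_sqrt hn0.le
  have hnum : n * Real.sqrt n / 4 ≤ (n : ℝ) * (n - 1) / 2 / Real.sqrt ((n : ℝ) - 2) := by
    rw [le_div_iff₀ hsD]
    have h3 : Real.sqrt ((n : ℝ) - 2) ≤ Real.sqrt n := Real.sqrt_le_sqrt (by linarith)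
    calc n * Real.sqrt n / 4 * Real.sqrt ((n : ℝ) - 2) ≤ n * Real.sqrt n / 4 * Real.sqrt n :=
          mul_le_mul_of_nonneg_left h3 (by positivity)
      _ = (n : ℝ) ^ 2 / 4 := by rw [mul_div_right_comm, mul_assoc (n / 4 : ℝ), hss]; ring
      _ ≤ _ := hN1
  calc c / 16 * (n * Real.sqrt n / (L * Real.sqrt L))
      = c * (n * Real.sqrt n / 4) / (4 * (L * Real.sqrt L)) := by
        field_simp
        ring
    _ ≤ c * (n * Real.sqrt n / 4) /
        (Real.log (n * (n - 1) / 2) * Real.sqrt (1 + Real.log ((n : ℝ) - 2))) :=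
        div_le_div_of_nonneg_left (by positivity) (by positivity) hden
    _ ≤ _ := by
        apply div_le_div_of_nonneg_right _ (by positivity)
        exact mul_le_mul_of_nonneg_left hnum hc.le

end TKn

open TKn in
theorem probF_ge (htyp : ∀ ε : ℝ, 0 < ε → ∃ c : ℝ, 0 < c ∧ ∃ D0 : ℕ, ∀ (α : Type)
    [DecidableEq α] (B : Finset (Finset α)) (A : Finset α) (D : ℕ), D0 ≤ D →
    (D : ℝ) ^ 2 ≤ 4 * A.card → Lin3 B → NP B →
    (∀ T ∈ B, T ⊆ A) → (∀ e ∈ A, dg B A e = D) → A.Nonempty →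
    gx B (c * ((A.card : ℝ) / Real.sqrt D) /
      (Real.log A.card * Real.sqrt (1 + Real.log D))) A ≤ ε) :
    ∀ ε : ℝ, 0 < ε → ∃ c : ℝ, 0 < c ∧ ∃ n0 : ℕ, ∀ n : ℕ, n0 ≤ n →
      1 - ε ≤ probF n (c * ((n : ℝ) ^ (3 / 2 : ℝ) / Real.log n ^ (3 / 2 : ℝ))) := by
  intro ε hε
  obtain ⟨c, hc, D0, h⟩ := htyp ε hε
  refine ⟨c / 16, by positivity, D0 + 4, fun n hn => ?_⟩
  have hn4 : (4 : ℝ) ≤ n := by exact_mod_cast (by omega : 4 ≤ n)
  have hDc : ((n - 2 : ℕ) : ℝ) = n - 2 := by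
    rw [Nat.cast_sub (by omega)]
    norm_num
  have hne : (EE (⊤ : SimpleGraph (Fin n))).Nonempty := by
    rw [← card_pos, card_EE_top]
    exact Nat.choose_pos (by omega)
  have h1 := h (Sym2 (Fin n)) (BK n) (EE (⊤ : SimpleGraph (Fin n))) (n - 2) (by omega)
    (by
      rw [card_EE_top, hDc, Nat.cast_choose_two]
      nlinarith) (lin3_BK n) (np_BK n) (sub_EE_top n) (dg_top n) hne
  rw [card_EE_top, hDc, Nat.cast_choose_two] at h1
  refine le_trans ?_ (probF_anti n (rate_le hc (by omega : 4 ≤ n)))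
  rw [probF_eq]
  linarith

end

end Vale.Agent.P046
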