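import Vale.Agent.P046.Low.LDefs
import Vale.Agent.P046.MainAux
import Vale.Agent.P046.Step
import Vale.Agent.P046.Rec

/-!
P046, lower bound: the bound for the potential at early times.
-/

namespace Vale.Agent.P046

open Finset

noncomputable section

namespace Early

open Rec

/-- the facts about `p` -/
structure PF (b0 κ ℓ h D M : ℝ) (k : ℕ) (p : ℕ → ℝ) : Prop where
  pp : ∀ i, 0 < p i
  psq : ∀ i, p i ^ 2 = 1 / D + 2 * (i : ℝ) * h
  step : ∀ i, p (i + 1) ^ 2 = p i ^ 2 + 2 * h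
  h1 : ∀ i, h ≤ 3 / 5 * p i ^ 2
  h2 : ∀ i, h ≤ 3 / 2 * p i ^ 4
  mono : ∀ i, p 0 ≤ p i
  ih : ∀ i : ℕ, i ≤ k → (i : ℝ) * h ≤ 1
  Λle : ∀ i, i ≤ k → 2 * Real.log (p i) - 2 * Real.log (p 0) ≤ ℓ
  eple : ∀ i, i ≤ k → κ * Real.sqrt (b0 * ℓ) * (p i - p 0) ≤ 1
  p0 : p 0 = Real.sqrt (1 / D)

theorem pfacts {b0 κ C2 : ℝ} (hb0p : 0 < b0) (hκp : 0 < κ) (hC2 : C2 = 4 + 2 * b0 * κ ^ 2)
    {M N D ℓ h : ℝ} (hD : 2 ≤ D) (hN : 2 * D + 1 ≤ N) (h3 : 3 * M = N * D)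
    (hℓ : ℓ = 1 + Real.log D) (hh : h = 1 / M) (k : ℕ) (hk : (k : ℝ) * (C2 * ℓ) ≤ M)
    (p : ℕ → ℝ) (hp : ∀ i, p i = Real.sqrt (1 / D + 2 * (i : ℝ) * h)) :
    PF b0 κ ℓ h D M k p := by
  have hC2p : 4 ≤ C2 := by
    have : 0 ≤ 2 * b0 * κ ^ 2 := by positivity
    linarith
  have hNpos : 0 < N := by linarith
  have hDpos : 0 < D := by linarith
  have hM : 0 < M := by nlinarith
  have hlogD : 0 < Real.log D := Real.log_pos (by linarith)
  have hℓ1 : 1 ≤ ℓ := by linarith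
  have hhp : 0 < h := by rw [hh]; positivity
  have hC2ℓ : 0 < C2 * ℓ := by positivity
  have hkle : (k : ℝ) * h ≤ 1 / (C2 * ℓ) := by
    rw [hh, le_div_iff₀ hC2ℓ]
    have e1 : (k : ℝ) * (1 / M) * (C2 * ℓ) = (k : ℝ) * (C2 * ℓ) / M := by ring
    rw [e1, div_le_one hM]
    exact hk
  have harg : ∀ i : ℕ, 0 < 1 / D + 2 * (i : ℝ) * h := fun i => by positivity
  have hpp : ∀ i, 0 < p i := fun i => by rw [hp]; exact Real.sqrt_pos.2 (harg i)
  have hpsq : ∀ i, p i ^ 2 = 1 / D + 2 * (i : ℝ) * h := fun i => by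
    rw [hp]; exact Real.sq_sqrt (harg i).le
  have hpD : ∀ i, 1 / D ≤ p i ^ 2 := fun i => by
    rw [hpsq]
    have : 0 ≤ 2 * (i : ℝ) * h := by positivity
    linarith
  have hhD : h ≤ 3 / 5 * (1 / D) := by
    rw [hh, div_le_iff₀ hM]
    have : 3 / 5 * (1 / D) * M = (3 * M) / (5 * D) := by field_simp
    rw [this, h3, le_div_iff₀ (by positivity)]
    nlinarith
  have hhD2 : h ≤ 3 / 2 * (1 / D) ^ 2 := by
    rw [hh, div_le_iff₀ hM]
    have : 3 / 2 * (1 / D) ^ 2 * M = (3 * M) / (2 * D ^ 2) := by field_simp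
    rw [this, h3, le_div_iff₀ (by positivity)]
    nlinarith
  have hp0 : p 0 = Real.sqrt (1 / D) := by rw [hp]; simp
  have hp0sq : p 0 ^ 2 = 1 / D := by rw [hpsq]; simp
  have hinv : 1 / (C2 * ℓ) ≤ 1 / 4 := by
    apply one_div_le_one_div_of_le (by norm_num)
    nlinarith
  have hih : ∀ i, i ≤ k → (i : ℝ) * h ≤ 1 / (C2 * ℓ) := fun i hi => by
    have : (i : ℝ) ≤ k := by exact_mod_cast hi
    calc (i : ℝ) * h ≤ k * h := by gcongr
      _ ≤ _ := hkle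
  refine ⟨hpp, hpsq, ?_, ?_, ?_, ?_, ?_, ?_, ?_, hp0⟩
  · intro i
    rw [hpsq, hpsq]; push_cast; ring
  · intro i
    have := hpD i; linarith
  · intro i
    have h6 := hpD i
    have h7 : (1 / D) ^ 2 ≤ (p i ^ 2) ^ 2 := by gcongr
    have h8 : p i ^ 4 = (p i ^ 2) ^ 2 := by ring
    rw [h8]; linarith
  · intro i
    rw [hp0, hp]
    apply Real.sqrt_le_sqrt
    have : 0 ≤ 2 * (i : ℝ) * h := by positivity
    linarith
  · intro i hi
    exact (hih i hi).trans (hinv.trans (by norm_num))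
  · intro i hi
    have h9 := hih i hi
    have h10 : p i ^ 2 ≤ 1 := by
      rw [hpsq]
      have : 1 / D ≤ 1 / 2 := one_div_le_one_div_of_le (by norm_num) hD
      linarith
    have h11 : p i ≤ 1 := by nlinarith [hpp i]
    have h12 : Real.log (p i) ≤ 0 := Real.log_nonpos (hpp i).le h11
    have h13 : 2 * Real.log (p 0) = - Real.log D := by
      have : Real.log (p 0 ^ 2) = 2 * Real.log (p 0) := by
        rw [Real.log_pow]; norm_num
      rw [← this, hp0sq, one_div, Real.log_inv]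
    rw [h13]
    linarith
  · intro i hi
    have hbp : 0 < b0 * ℓ := by positivity
    have h9 := hih i hi
    have h10 : p i - p 0 ≤ Real.sqrt (2 * (i : ℝ) * h) := by
      rw [hp0, hp]
      exact sqrt_sub_le (by positivity) (by positivity)
    have h16 : Real.sqrt (b0 * ℓ) * Real.sqrt (2 * (i : ℝ) * h) ≤ Real.sqrt (2 * b0 / C2) := by
      rw [← Real.sqrt_mul hbp.le]
      apply Real.sqrt_le_sqrt
      have : b0 * ℓ * (2 * (i : ℝ) * h) = 2 * b0 * ℓ * ((i : ℝ) * h) := by ring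
      rw [this]
      calc 2 * b0 * ℓ * ((i : ℝ) * h) ≤ 2 * b0 * ℓ * (1 / (C2 * ℓ)) := by gcongr
        _ = 2 * b0 / C2 := by field_simp
    have h17 : κ * Real.sqrt (2 * b0 / C2) ≤ 1 := by
      have h18 : κ = Real.sqrt (κ ^ 2) := (Real.sqrt_sq hκp.le).symm
      rw [h18, ← Real.sqrt_mul (by positivity)]
      rw [show (1 : ℝ) = Real.sqrt 1 by simp]
      apply Real.sqrt_le_sqrt
      rw [mul_div_assoc', div_le_one (by linarith)]
      rw [hC2]; nlinarith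
    calc κ * Real.sqrt (b0 * ℓ) * (p i - p 0) ≤
        κ * Real.sqrt (b0 * ℓ) * Real.sqrt (2 * (i : ℝ) * h) := by gcongr
      _ = κ * (Real.sqrt (b0 * ℓ) * Real.sqrt (2 * (i : ℝ) * h)) := by ring
      _ ≤ κ * Real.sqrt (2 * b0 / C2) := by gcongr
      _ ≤ 1 := h17

/-- application of `core` -/
theorem core_u {c C b0 κ ℓ h D M N : ℝ} {k : ℕ} {p : ℕ → ℝ} (hc : 0 < c) (hC : 0 < C)
    (hb0 : b0 = Real.exp (C + 2) * (2 * C)) (hκ : κ = 3 / 2 * (1 + 1 / (2 * c)) * (5 / 4))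
    (hℓ : 1 ≤ ℓ) (hM : 0 < M) (hN : 0 < N) (hh : h = 1 / M) (H : PF b0 κ ℓ h D M k p)
    (ρ x u : ℕ → ℝ) (hρp : ∀ i, ρ i = 1 / p i ^ 2) (hx0 : x 0 = N) (hu0 : u 0 = 0)
    (hrx : ∀ i, ∀ η : ℝ, 0 < η → x (i + 1) ≤ (1 - ρ i / M + η / (2 * M)) * x i +
          ρ i ^ 2 / (2 * c * η * M) * u i)
    (hru : ∀ i, u (i + 1) ≤ (1 + (ρ i + C) / M) * u i + C / M * x i) :
    u k ≤ b0 * ℓ * p k * (N * p 0) := by
  have hhp : 0 < h := by rw [hh]; positivity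
  have hb0p : 0 < b0 := by rw [hb0]; positivity
  have hbp : 0 < b0 * ℓ := by positivity
  have hZp : 0 < N * p 0 := mul_pos hN (H.pp 0)
  obtain ⟨Z, hZ⟩ : ∃ Z : ℝ, Z = N * p 0 := ⟨_, rfl⟩
  rw [← hZ] at hZp ⊢
  have key := core (c := c) (C := C) (h := h) (b := b0 * ℓ) (ℓ := ℓ) k hc hC hhp hbp
    (by rw [hb0]) p (fun i => x i / Z) (fun i => u i / Z) H.pp H.step H.h1 H.h2 H.mono
    H.ih H.Λle (by rw [← hκ]; exact H.eple) ?_ ?_ ?_ ?_ k le_rfl
  · have h60 := key.2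
    have h61 := H.Λle k le_rfl
    have h62 : (k : ℝ) * h ≤ 1 := H.ih k le_rfl
    have h63 : Real.exp ((C + 2) * (k * h)) ≤ Real.exp (C + 2) := by
      apply Real.exp_le_exp.2
      nlinarith
    have h64 : 0 ≤ 2 * Real.log (p k) - 2 * Real.log (p 0) := by
      have := Real.log_le_log (H.pp 0) (H.mono k)
      linarith
    have h65 : u k / Z ≤ b0 * ℓ * p k := by
      refine h60.trans ?_
      have hpk := (H.pp k).le
      calc Real.exp ((C + 2) * (k * h)) * (2 * C) *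
          (2 * Real.log (p k) - 2 * Real.log (p 0)) * p k ≤
          Real.exp (C + 2) * (2 * C) * ℓ * p k := by gcongr
        _ = _ := by rw [hb0]
    rwa [div_le_iff₀ hZp] at h65
  · show x 0 / Z * p 0 ≤ 1
    rw [hx0, hZ]
    have := H.pp 0
    apply le_of_eq
    field_simp
  · show u 0 / Z ≤ 0
    rw [hu0]; simp
  · intro i η hη
    show x (i + 1) / Z ≤ (1 - h / p i ^ 2 + h * η / 2) * (x i / Z) +
      h / p i ^ 4 / (2 * c * η) * (u i / Z)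
    have h22 := hrx i η hη
    rw [hρp i] at h22
    have hpi := H.pp i
    have h23 : (1 - 1 / p i ^ 2 / M + η / (2 * M)) * x i +
        (1 / p i ^ 2) ^ 2 / (2 * c * η * M) * u i =
        ((1 - h / p i ^ 2 + h * η / 2) * (x i / Z) +
          h / p i ^ 4 / (2 * c * η) * (u i / Z)) * Z := by
      rw [hh]
      field_simp
    rw [h23] at h22
    rw [div_le_iff₀ hZp]
    exact h22
  · intro i
    show u (i + 1) / Z ≤ (1 + (h / p i ^ 2 + h * C)) * (u i / Z) + h * C * (x i / Z)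
    have h22 := hru i
    rw [hρp i] at h22
    have hpi := H.pp i
    have h23 : (1 + (1 / p i ^ 2 + C) / M) * u i + C / M * x i =
        ((1 + (h / p i ^ 2 + h * C)) * (u i / Z) + h * C * (x i / Z)) * Z := by
      rw [hh]
      field_simp
    rw [h23] at h22
    rw [div_le_iff₀ hZp]
    exact h22

/-- the pure real recursion, bound for `u` -/
theorem rec_u (c C : ℝ) (hc : 0 < c) (hC : 0 < C) :
    ∃ C' K0 : ℝ, 0 < C' ∧ 1 ≤ K0 ∧ ∀ (M N D : ℝ), 2 ≤ D → 2 * D + 1 ≤ N → 3 * M = N * D →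
      ∀ (ρ x u : ℕ → ℝ), (∀ i, ρ i = 1 / (1 / D + 2 * (i : ℝ) / M)) →
        x 0 = N → u 0 = 0 →
        (∀ i, ∀ η : ℝ, 0 < η → x (i + 1) ≤ (1 - ρ i / M + η / (2 * M)) * x i +
          ρ i ^ 2 / (2 * c * η * M) * u i) →
        (∀ i, u (i + 1) ≤ (1 + (ρ i + C) / M) * u i + C / M * x i) →
        ∀ k : ℕ, (k : ℝ) * (K0 * (1 + Real.log D)) ≤ M →
        u k ≤ C' * (N / Real.sqrt D) * (1 + Real.log D) * Real.sqrt (1 / D + 2 * (k : ℝ) / M) := by
  obtain ⟨b0, hb0⟩ : ∃ b0 : ℝ, b0 = Real.exp (C + 2) * (2 * C) := ⟨_, rfl⟩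
  have hb0p : 0 < b0 := by rw [hb0]; positivity
  obtain ⟨κ, hκ⟩ : ∃ κ : ℝ, κ = 3 / 2 * (1 + 1 / (2 * c)) * (5 / 4) := ⟨_, rfl⟩
  have hκp : 0 < κ := by rw [hκ]; positivity
  obtain ⟨C2, hC2⟩ : ∃ C2 : ℝ, C2 = 4 + 2 * b0 * κ ^ 2 := ⟨_, rfl⟩
  have hC2p : 4 ≤ C2 := by
    have : 0 ≤ 2 * b0 * κ ^ 2 := by positivity
    linarith
  refine ⟨b0, C2, hb0p, by linarith, ?_⟩
  intro M N D hD hN h3 ρ x u hρ hx0 hu0 hrx hru k hk
  have hNpos : 0 < N := by linarith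
  have hDpos : 0 < D := by linarith
  have hM : 0 < M := by nlinarith
  obtain ⟨ℓ, hℓ⟩ : ∃ ℓ : ℝ, ℓ = 1 + Real.log D := ⟨_, rfl⟩
  rw [← hℓ] at hk ⊢
  have hlogD : 0 < Real.log D := Real.log_pos (by linarith)
  have hℓ1 : 1 ≤ ℓ := by linarith
  obtain ⟨h, hh⟩ : ∃ h : ℝ, h = 1 / M := ⟨_, rfl⟩
  obtain ⟨p, hp⟩ : ∃ p : ℕ → ℝ, ∀ i, p i = Real.sqrt (1 / D + 2 * (i : ℝ) * h) :=
    ⟨_, fun _ => rfl⟩
  have H := pfacts hb0p hκp hC2 hD hN h3 hℓ hh k hk p hp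
  have hρp : ∀ i, ρ i = 1 / p i ^ 2 := fun i => by
    rw [hρ i, H.psq, hh]; congr 2; field_simp
  have h65 := core_u hc hC hb0 hκ hℓ1 hM hNpos hh H ρ x u hρp hx0 hu0 hrx hru
  have h66 : N * p 0 = N / Real.sqrt D := by
    rw [H.p0, Real.sqrt_div (by norm_num), Real.sqrt_one]; ring
  have h67 : p k = Real.sqrt (1 / D + 2 * (k : ℝ) / M) := by
    rw [hp, hh]; congr 2; ring
  rw [h66, h67] at h65
  calc u k ≤ _ := h65
    _ = _ := by ring

end Early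

/-- [EARLY] the potential at early times -/
theorem early_pot (ψ ψ' : ℝ → ℝ) (c K : ℝ) (h : Pot ψ ψ' c K) :
    ∃ C K0 : ℝ, 0 < C ∧ 1 ≤ K0 ∧ ∀ (α : Type) [DecidableEq α] (B : Finset (Finset α))
    (A : Finset α) (D : ℕ), 2 ≤ D → Lin3 B → (∀ T ∈ B, T ⊆ A) → (∀ e ∈ A, dg B A e = D) →
    A.Nonempty → ∀ i : ℕ, (i : ℝ) * (K0 * (1 + Real.log D)) ≤ (B.card : ℝ) →
    It B i A (Pt B ψ (1 / (1 / (D : ℝ) + 2 * (i : ℝ) / (B.card : ℝ)))) ≤
      C * ((A.card : ℝ) / Real.sqrt D) * (1 + Real.log D) *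
        Real.sqrt (1 / (D : ℝ) + 2 * (i : ℝ) / (B.card : ℝ)) := by
  obtain ⟨C, hC, hst⟩ := Step.step_pot_of ψ ψ' c K h
    (fun α _ B hB ρ hρ A => drift_pot B hB ψ ψ' c K h ρ hρ A)
  obtain ⟨C', K0, hC', hK0, hr⟩ := Early.rec_u c C h.cpos hC
  refine ⟨C', K0, hC', hK0, ?_⟩
  intro α _ B A D hD hB hBA hdeg hne k hk
  obtain ⟨hbl, h3, hN⟩ := card_facts B hB A D hBA hdeg
  have hN' := hN hne
  have hD2 : (2 : ℝ) ≤ D := by exact_mod_cast hD
  have hNr : 2 * (D : ℝ) + 1 ≤ (A.card : ℝ) := by exact_mod_cast hN'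
  have hMpos : (0 : ℝ) < (B.card : ℝ) := by nlinarith
  have hM0 : 0 < B.card := by exact_mod_cast hMpos
  have hr1 := hr (B.card : ℝ) (A.card : ℝ) (D : ℝ) hD2 hNr h3
  set M : ℝ := (B.card : ℝ) with hM
  set ρ : ℕ → ℝ := fun i => 1 / (1 / (D : ℝ) + 2 * (i : ℝ) / M) with hρ
  have hden : ∀ i : ℕ, 0 < 1 / (D : ℝ) + 2 * (i : ℝ) / M := fun i => by positivity
  have hρpos : ∀ i, 0 < ρ i := fun i => by
    simp only [hρ]; exact one_div_pos.2 (hden i)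
  refine hr1 ρ (fun i => ((lz B)^[i]) (fun A' => (A'.card : ℝ)) A)
    (fun i => ((lz B)^[i]) (Pt B ψ (ρ i)) A) (fun i => rfl) (by simp) ?_ ?_ ?_ k hk
  · have hρ0 : ρ 0 = D := by
      simp only [hρ]; simp
    simp only [Function.iterate_zero, id_eq]
    unfold Pt
    refine Finset.sum_eq_zero fun e he => ?_
    rw [hdeg e he, hρ0, div_self (by positivity), h.one]
  · intro i η hη
    have h1 := lz_iter_mono B (lz B (fun A' => (A'.card : ℝ)))
      (fun A' => (1 - ρ i / M + η / (2 * M)) * (A'.card : ℝ) +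
        ρ i ^ 2 / (2 * c * η * M) * Pt B ψ (ρ i) A') A
      (fun A' _ => Step.step_card_of ψ ψ' c K h B (ρ i) η (hρpos i) hη hM0 A'
        (drift_card B hB A')) i
    rw [lz_iter_lin] at h1
    simp only [Function.iterate_succ_apply]
    exact h1
  · intro i
    have e1 : 1 / ρ (i + 1) = 1 / ρ i + 2 / M := by
      simp only [hρ, one_div_one_div]
      push_cast
      field_simp
      ring
    have e2 : ρ (i + 1) ≤ ρ i := by
      have h5 : 1 / ρ i ≤ 1 / ρ (i + 1) := by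
        rw [e1]
        have : 0 < 2 / M := by positivity
        linarith
      exact (one_div_le_one_div (hρpos i) (hρpos (i + 1))).1 h5
    have e3 : ρ i ≤ D := by
      simp only [hρ]
      rw [div_le_iff₀ (hden i)]
      have h6 : 0 ≤ 2 * (i : ℝ) / M := by positivity
      have h7 : (D : ℝ) * (1 / D) = 1 := by field_simp
      nlinarith
    have e4 : ρ i ^ 2 ≤ 3 * M := by
      have := hρpos i
      rw [h3]
      nlinarith
    have h1 := lz_iter_mono B (lz B (Pt B ψ (ρ (i + 1))))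
      (fun A' => (1 + (ρ i + C) / M) * Pt B ψ (ρ i) A' + C / M * (A'.card : ℝ)) A
      (fun A' _ => hst α B hB (ρ i) (ρ (i + 1)) (hρpos (i + 1)) e2 hM0 e1 e4 A') i
    rw [lz_iter_lin] at h1
    simp only [Function.iterate_succ_apply]
    exact h1

end

end Vale.Agent.P046
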