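import Vale.Agent.P046.Low.LDefs
import Vale.Agent.P046.Chain

/-!
P046, lower bound: row IT (iterates of the lazy chain).
-/

namespace Vale.Agent.P046

open Finset

noncomputable section

variable {α : Type} [DecidableEq α]

theorem lz_eq_gn (B : Finset (Finset α)) (f : Finset α → ℝ) :
    lz B f = fun A => 1 * f A + 1 / (B.card : ℝ) * gn B f A := by
  ext A
  unfold lz gn
  ring

theorem It_succ (B : Finset (Finset α)) (hM : 0 < B.card) (i : ℕ) (A : Finset α)
    (f : Finset α → ℝ) :
    It B (i + 1) A f = It B i A f + It B i A (gn B f) / (B.card : ℝ) := by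
  unfold It
  rw [Function.iterate_succ_apply, lz_eq_gn, lz_iter_lin]
  ring

theorem It_lin (B : Finset (Finset α)) (i : ℕ) (A : Finset α) (f g : Finset α → ℝ) (a b : ℝ) :
    It B i A (fun A => a * f A + b * g A) = a * It B i A f + b * It B i A g :=
  lz_iter_lin B f g a b A i

theorem It_mono (B : Finset (Finset α)) (i : ℕ) (A : Finset α) (f g : Finset α → ℝ)
    (h : ∀ A', A' ⊆ A → f A' ≤ g A') : It B i A f ≤ It B i A g :=
  lz_iter_mono B f g A h i

theorem It_nonneg (B : Finset (Finset α)) (i : ℕ) (A : Finset α) (f : Finset α → ℝ)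
    (h : ∀ A', A' ⊆ A → 0 ≤ f A') : 0 ≤ It B i A f := by
  have h1 := It_mono B i A (fun A => 0 * f A + 0 * f A) f (fun A' hA' => by
    simp only [zero_mul, add_zero]
    exact h A' hA')
  rw [It_lin] at h1
  simpa using h1

theorem Zf_le_run_of (B : Finset (Finset α)) (hB : Lin3 B)
    (hZ : ∀ A T : Finset α, T ∈ bl B A → Zf B A ≤ Zf B (A \ T)) :
    ∀ (m : ℕ) (A : Finset α), A.card ≤ m →
      Zf B A ≤ run B (fun A => (A.card : ℝ)) A.card A := by
  have hcard : ∀ A : Finset α, Zf B A ≤ (A.card : ℝ) := fun A => by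
    unfold Zf
    exact_mod_cast card_filter_le _ _
  intro m
  induction m with
  | zero =>
    intro A hA
    have h0 : A.card = 0 := by omega
    rw [h0]
    exact hcard A
  | succ m ih =>
    intro A hA
    rw [run_card B hB]
    split_ifs with h1
    · have h2 : (0 : ℝ) < ((bl B A).card : ℝ) := by
        exact_mod_cast card_pos.mpr h1
      rw [le_div_iff₀ h2, mul_comm, ← nsmul_eq_mul, ← sum_const]
      refine sum_le_sum fun T hT => ?_
      have hc : (A \ T).card + 3 = A.card := by
        have hT' := mem_bl.mp hT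
        have h3 := hB.card3 T hT'.1
        have h4 := card_sdiff_add_card_eq_card hT'.2
        omega
      exact (hZ A T hT).trans (ih (A \ T) (by omega))
    · exact hcard A

theorem It_Z_of (B : Finset (Finset α)) (hB : Lin3 B)
    (hZ : ∀ A T : Finset α, T ∈ bl B A → Zf B A ≤ Zf B (A \ T)) (i : ℕ) (A : Finset α) :
    It B i A (Zf B) ≤ run B (fun A => (A.card : ℝ)) A.card A := by
  have h1 : ((lz B)^[i]) (fun A => run B (fun A => (A.card : ℝ)) A.card A) =
      fun A => run B (fun A => (A.card : ℝ)) A.card A :=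
    Function.iterate_fixed (lz_run B hB _) i
  have h2 := It_mono B i A (Zf B) (fun A => run B (fun A => (A.card : ℝ)) A.card A)
    (fun A' _ => Zf_le_run_of B hB hZ _ A' le_rfl)
  unfold It at h2 ⊢
  rw [h1] at h2
  exact h2

theorem It_M_of (B : Finset (Finset α)) (hB : Lin3 B) (hM : 0 < B.card)
    (hZ : ∀ A T : Finset α, T ∈ bl B A → Zf B A ≤ Zf B (A \ T))
    (hMZ : ∀ A : Finset α, Mf B A ≤ gn B (Zf B) A) (k : ℕ) (A : Finset α) :
    ∑ i ∈ range k, It B i A (Mf B) / (B.card : ℝ) ≤
      run B (fun A => (A.card : ℝ)) A.card A := by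
  have hMr : (0 : ℝ) < B.card := by exact_mod_cast hM
  have h1 : ∀ k : ℕ, ∑ i ∈ range k, It B i A (Mf B) / (B.card : ℝ) ≤
      It B k A (Zf B) - It B 0 A (Zf B) := by
    intro k
    induction k with
    | zero => simp
    | succ k ih =>
      rw [sum_range_succ, It_succ B hM k A (Zf B)]
      have h2 : It B k A (Mf B) / (B.card : ℝ) ≤ It B k A (gn B (Zf B)) / (B.card : ℝ) :=
        div_le_div_of_nonneg_right (It_mono B k A _ _ fun A' _ => hMZ A') hMr.le
      linarith
  have h3 := h1 k
  have h4 := It_Z_of B hB hZ k A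
  have h5 : 0 ≤ It B 0 A (Zf B) := It_nonneg B 0 A _ fun A' _ => by unfold Zf; positivity
  linarith

theorem It_H_of (B : Finset (Finset α)) (hM : 0 < B.card) (k : ℝ) (hk : 0 ≤ k)
    (hH : ∀ A : Finset α, gn B (Hf B k) A ≤ -k * Hf B k A) (i : ℕ) (A : Finset α) :
    It B i A (Hf B k) ≤ (A.card : ℝ) * Real.exp (-(k * i / (B.card : ℝ))) := by
  have hMr : (0 : ℝ) < B.card := by exact_mod_cast hM
  induction i with
  | zero =>
    simp only [Nat.cast_zero, mul_zero, zero_div, neg_zero, Real.exp_zero, mul_one]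
    change Hf B k A ≤ _
    unfold Hf
    exact_mod_cast card_filter_le _ _
  | succ i ih =>
    rw [It_succ B hM]
    have h0 : 0 ≤ It B i A (Hf B k) := It_nonneg B i A _ fun A' _ => by unfold Hf; positivity
    have h1 : It B i A (gn B (Hf B k)) ≤ -k * It B i A (Hf B k) := by
      have h2 := It_mono B i A (gn B (Hf B k)) (fun A => -k * Hf B k A + 0 * Hf B k A)
        (fun A' _ => by
          rw [zero_mul, add_zero]
          exact hH A')
      rw [It_lin, zero_mul, add_zero] at h2
      exact h2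
    have h3 : It B i A (gn B (Hf B k)) / (B.card : ℝ) ≤ -k * It B i A (Hf B k) / (B.card : ℝ) :=
      div_le_div_of_nonneg_right h1 hMr.le
    have h4 : It B i A (Hf B k) + -k * It B i A (Hf B k) / (B.card : ℝ) =
        (1 - k / (B.card : ℝ)) * It B i A (Hf B k) := by ring
    have h5 : 1 - k / (B.card : ℝ) ≤ Real.exp (-(k / (B.card : ℝ))) := by
      have := Real.add_one_le_exp (-(k / (B.card : ℝ)))
      linarith
    have h6 : (1 - k / (B.card : ℝ)) * It B i A (Hf B k) ≤
        Real.exp (-(k / (B.card : ℝ))) * ((A.card : ℝ) * Real.exp (-(k * i / (B.card : ℝ)))) :=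
      (mul_le_mul_of_nonneg_right h5 h0).trans (mul_le_mul_of_nonneg_left ih (Real.exp_pos _).le)
    have h7 : Real.exp (-(k / (B.card : ℝ))) * ((A.card : ℝ) * Real.exp (-(k * i / (B.card : ℝ)))) =
        (A.card : ℝ) * Real.exp (-(k * ((i + 1 : ℕ) : ℝ) / (B.card : ℝ))) := by
      have : -(k * ((i + 1 : ℕ) : ℝ) / (B.card : ℝ)) =
          -(k / (B.card : ℝ)) + -(k * i / (B.card : ℝ)) := by
        push_cast
        ring
      rw [this, Real.exp_add]
      ring
    linarith

theorem It_early_of (B : Finset (Finset α)) (hM : 0 < B.card) (A : Finset α)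
    (hY : ∀ A : Finset α, gn B (Yf B) A = -Yf B A + Fo B A)
    (w : ℕ → ℝ) (hw : ∀ i, 0 ≤ w i) (hwm : ∀ i j, i ≤ j → w i ≤ w j) (k : ℕ)
    (hk : 2 * k ≤ B.card) :
    ∑ i ∈ range k, It B i A (Fo B) / (B.card : ℝ) * w (i + 1) ≤ 2 * w k * It B k A (Yf B) := by
  have hMr : (0 : ℝ) < B.card := by exact_mod_cast hM
  have hM1 : (1 : ℝ) ≤ B.card := by exact_mod_cast hM
  set M : ℝ := (B.card : ℝ) with hMdef
  have hy0 : ∀ i, 0 ≤ It B i A (Yf B) := fun i =>
    It_nonneg B i A _ fun A' _ => by unfold Yf; positivity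
  have hφ0 : ∀ i, 0 ≤ It B i A (Fo B) := fun i =>
    It_nonneg B i A _ fun A' _ => by unfold Fo; exact sum_nonneg fun T _ => by positivity
  have hg : gn B (Yf B) = fun A => -1 * Yf B A + 1 * Fo B A := by
    ext A
    rw [hY A]
    ring
  have hrec : ∀ i, It B (i + 1) A (Yf B) =
      It B i A (Yf B) - It B i A (Yf B) / M + It B i A (Fo B) / M := by
    intro i
    rw [It_succ B hM, hg, It_lin]
    ring
  have hstep : ∀ i, (1 - 1 / M) * It B i A (Yf B) ≤ It B (i + 1) A (Yf B) := by
    intro i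
    rw [hrec i]
    have : 0 ≤ It B i A (Fo B) / M := div_nonneg (hφ0 i) hMr.le
    have h2 : (1 - 1 / M) * It B i A (Yf B) = It B i A (Yf B) - It B i A (Yf B) / M := by ring
    linarith
  have h1M : 0 ≤ 1 - 1 / M := by
    have : 1 / M ≤ 1 := by rw [div_le_one hMr]; exact hM1
    linarith
  have hpow : ∀ j i, (1 - 1 / M) ^ j * It B i A (Yf B) ≤ It B (i + j) A (Yf B) := by
    intro j
    induction j with
    | zero => intro i; simp
    | succ j ih =>
      intro i
      have h2 := ih i
      have h3 := hstep (i + j)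
      calc (1 - 1 / M) ^ (j + 1) * It B i A (Yf B)
          = (1 - 1 / M) * ((1 - 1 / M) ^ j * It B i A (Yf B)) := by ring
        _ ≤ (1 - 1 / M) * It B (i + j) A (Yf B) := mul_le_mul_of_nonneg_left h2 h1M
        _ ≤ _ := h3
  have hhalf : ∀ i, i ≤ k → It B i A (Yf B) ≤ 2 * It B k A (Yf B) := by
    intro i hi
    have h2 := hpow (k - i) i
    rw [Nat.add_sub_cancel' hi] at h2
    have h3 : 1 / 2 ≤ (1 - 1 / M) ^ (k - i) := by
      have h4 := one_add_mul_le_pow (a := -(1 / M)) (by linarith) (k - i)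
      have h5 : ((k - i : ℕ) : ℝ) * (1 / M) ≤ 1 / 2 := by
        rw [mul_one_div, div_le_iff₀ hMr]
        have h6 : (2 * (k - i : ℕ) : ℝ) ≤ M := by
          have : 2 * (k - i) ≤ B.card := by omega
          rw [hMdef]
          exact_mod_cast this
        linarith
      have h7 : (1 : ℝ) + -(1 / M) = 1 - 1 / M := by ring
      rw [h7] at h4
      linarith
    have h8 := mul_le_mul_of_nonneg_right h3 (hy0 i)
    linarith
  have hsum : ∀ j, j ≤ k → ∑ i ∈ range j, It B i A (Fo B) / M ≤
      It B j A (Yf B) + ∑ i ∈ range j, It B i A (Yf B) / M := by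
    intro j
    induction j with
    | zero =>
      intro _
      simpa using hy0 0
    | succ j ih =>
      intro hj
      have h2 := ih (by omega)
      rw [sum_range_succ, sum_range_succ, hrec j]
      linarith
  have h9 : ∑ i ∈ range k, It B i A (Yf B) / M ≤ It B k A (Yf B) := by
    have h10 : ∑ i ∈ range k, It B i A (Yf B) / M ≤ ∑ _i ∈ range k, 2 * It B k A (Yf B) / M :=
      sum_le_sum fun i hi =>
        div_le_div_of_nonneg_right (hhalf i (mem_range.mp hi).le) hMr.le
    rw [sum_const, card_range, nsmul_eq_mul] at h10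
    refine h10.trans ?_
    have h11 : (2 * (k : ℝ)) ≤ M := by
      rw [hMdef]
      exact_mod_cast hk
    rw [mul_div_assoc', div_le_iff₀ hMr]
    have := mul_le_mul_of_nonneg_left h11 (hy0 k)
    linarith
  have h12 := hsum k le_rfl
  calc ∑ i ∈ range k, It B i A (Fo B) / M * w (i + 1)
      ≤ ∑ i ∈ range k, It B i A (Fo B) / M * w k := by
        refine sum_le_sum fun i hi => ?_
        have h13 := hwm (i + 1) k (mem_range.mp hi)
        exact mul_le_mul_of_nonneg_left h13 (div_nonneg (hφ0 i) hMr.le)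
    _ = w k * ∑ i ∈ range k, It B i A (Fo B) / M := by rw [← sum_mul, mul_comm]
    _ ≤ w k * (2 * It B k A (Yf B)) := mul_le_mul_of_nonneg_left (by linarith) (hw k)
    _ = _ := by ring

end

end Vale.Agent.P046
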