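import Vale.Agent.P046.Defs

/-!
P046, lower bound: the functionals of the state and the property of `K_n` that is used.
-/

namespace Vale.Agent.P046

open Finset

noncomputable section

variable {α : Type} [DecidableEq α]

/-- the generator: sum over the alive blocks of the change of `f` -/
def gn (B : Finset (Finset α)) (f : Finset α → ℝ) (A : Finset α) : ℝ :=
  ∑ T ∈ bl B A, (f (A \ T) - f A)

/-- expectation of `f` after `i` steps of the lazy chain started at `A` -/
def It (B : Finset (Finset α)) (i : ℕ) (A : Finset α) (f : Finset α → ℝ) : ℝ := ((lz B)^[i]) f A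

/-- the isolated alive blocks -/
def isos (B : Finset (Finset α)) (A : Finset α) : Finset (Finset α) :=
  (bl B A).filter (fun T => ∀ e ∈ T, dg B A e = 1)

/-- alive blocks with a point of degree 1 and a point of degree at least 2 -/
def mix (B : Finset (Finset α)) (A : Finset α) : Finset (Finset α) :=
  (bl B A).filter (fun T => (∃ e ∈ T, dg B A e = 1) ∧ ∃ f ∈ T, 2 ≤ dg B A f)

/-- number of isolated blocks -/
def Yf (B : Finset (Finset α)) (A : Finset α) : ℝ := ((isos B A).card : ℝ)

/-- number of mixed blocks -/
def Mf (B : Finset (Finset α)) (A : Finset α) : ℝ := ((mix B A).card : ℝ)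

/-- number of alive points outside the isolated blocks -/
def Wf (B : Finset (Finset α)) (A : Finset α) : ℝ := (A.card : ℝ) - 3 * Yf B A

/-- sum of their degrees -/
def Sf (B : Finset (Finset α)) (A : Finset α) : ℝ := ∑ e ∈ A, (dg B A e : ℝ) - 3 * Yf B A

/-- sum of the squares of their degrees -/
def Qf (B : Finset (Finset α)) (A : Finset α) : ℝ := ∑ e ∈ A, (dg B A e : ℝ) ^ 2 - 3 * Yf B A

/-- number of alive points of degree 0 -/
def Zf (B : Finset (Finset α)) (A : Finset α) : ℝ := ((A.filter (fun e => dg B A e = 0)).card : ℝ)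

/-- number of alive points of degree at least `k` -/
def Hf (B : Finset (Finset α)) (k : ℝ) (A : Finset α) : ℝ :=
  ((A.filter (fun e => k ≤ (dg B A e : ℝ))).card : ℝ)

/-- formation rate of isolated blocks -/
def Fo (B : Finset (Finset α)) (A : Finset α) : ℝ :=
  ∑ T0 ∈ bl B A, (((isos B (A \ T0)).filter (fun T => T ∉ isos B A)).card : ℝ)

/-- for disjoint blocks `T0`, `T` there is a point of `T` such that no further block through it
meets `T0` (true for the triangles of `K_n`) -/
def NP (B : Finset (Finset α)) : Prop :=
  ∀ T ∈ B, ∀ T0 ∈ B, Disjoint T0 T →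
    ∃ e ∈ T, ∀ T' ∈ B, e ∈ T' → T' ≠ T → Disjoint T' T0

end

end Vale.Agent.P046
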