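import Vale.Agent.P046.Low.LDefs

/-!
P046, lower bound in probability: definitions.
-/

namespace Vale.Agent.P046

open Finset

noncomputable section

variable {α : Type} [DecidableEq α]

/-- cross term of the product rule -/
def cr (B : Finset (Finset α)) (f g : Finset α → ℝ) (A : Finset α) : ℝ :=
  ∑ T ∈ bl B A, (f (A \ T) - f A) * (g (A \ T) - g A)

/-- quadratic variation -/
def qv (B : Finset (Finset α)) (f : Finset α → ℝ) (A : Finset α) : ℝ :=
  ∑ T ∈ bl B A, (f (A \ T) - f A) ^ 2

/-- the indicator of few points -/
def few (x : ℝ) (A : Finset α) : ℝ := if (A.card : ℝ) < x then 1 else 0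

/-- probability that the final state has fewer than `x` points -/
def gx (B : Finset (Finset α)) (x : ℝ) (A : Finset α) : ℝ := run B (few x) A.card A

/-- the weights `sqrt (1 / D + 2 (i + 1) / M)` -/
def pp (D M : ℝ) (i : ℕ) : ℝ := Real.sqrt (1 / D + 2 * ((i : ℝ) + 1) / M)

end

end Vale.Agent.P046
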