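import Vale.Agent.P046.Low.TDefs
import Vale.Agent.P046.Low.Gen
import Vale.Agent.P046.Low.ZM

/-!
P046, lower bound in probability, row T2: quadratic variations
-/

namespace Vale.Agent.P046

open Finset Drift

noncomputable section

variable {α : Type} [DecidableEq α]

namespace TQv

/-- the points of the alive blocks which meet `T0` (with one point of `T0` removed) -/
def nb (B : Finset (Finset α)) (A T0 : Finset α) : Finset α :=
  T0.biUnion fun g => ((bl B A).filter (fun T' => g ∈ T')).biUnion fun T' => T'.erase g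

theorem mem_nb {B : Finset (Finset α)} {A T0 : Finset α} {e : α} :
    e ∈ nb B A T0 ↔ ∃ g ∈ T0, ∃ T' ∈ bl B A, g ∈ T' ∧ e ≠ g ∧ e ∈ T' := by
  unfold nb
  simp only [mem_biUnion, mem_filter, mem_erase]
  constructor
  · rintro ⟨g, hg, T', ⟨h1, h2⟩, h3, h4⟩
    exact ⟨g, hg, T', h1, h2, h3, h4⟩
  · rintro ⟨g, hg, T', h1, h2, h3, h4⟩
    exact ⟨g, hg, T', ⟨h1, h2⟩, h3, h4⟩

theorem card_nb_le (B : Finset (Finset α)) (hB : Lin3 B) (A T0 : Finset α) (hT0 : T0 ∈ bl B A)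
    (R : ℝ) (hR : ∀ e ∈ A, (dg B A e : ℝ) ≤ R) : ((nb B A T0).card : ℝ) ≤ 6 * R := by
  have h3 := hB.card3 T0 (mem_bl.1 hT0).1
  have h1 : (nb B A T0).card ≤ ∑ g ∈ T0, dg B A g * 2 := by
    refine Finset.card_biUnion_le.trans ?_
    refine Finset.sum_le_sum fun g _ => ?_
    refine Finset.card_biUnion_le.trans ?_
    have : ∀ T' ∈ (bl B A).filter (fun T' => g ∈ T'), (T'.erase g).card ≤ 2 := by
      intro T' hT'
      rw [mem_filter] at hT'
      rw [Finset.card_erase_of_mem hT'.2, hB.card3 T' (mem_bl.1 hT'.1).1]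
    refine (Finset.sum_le_sum this).trans ?_
    rw [Finset.sum_const, smul_eq_mul]
    rfl
  have h2 : ((nb B A T0).card : ℝ) ≤ ∑ g ∈ T0, (dg B A g : ℝ) * 2 := by exact_mod_cast h1
  refine h2.trans ?_
  have h4 : ∑ g ∈ T0, (dg B A g : ℝ) * 2 ≤ ∑ _g ∈ T0, R * 2 := by
    refine Finset.sum_le_sum fun g hg => ?_
    have := hR g ((mem_bl.1 hT0).2 hg)
    linarith
  refine h4.trans (le_of_eq ?_)
  rw [Finset.sum_const, h3, nsmul_eq_mul]
  push_cast
  ring

/-- a point of `A \ T0` whose degree drops is in `nb` -/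
theorem mem_nb_of_drop {B : Finset (Finset α)} {A T0 : Finset α} {e : α} (he : e ∉ T0)
    (h : dg B (A \ T0) e < dg B A e) : e ∈ nb B A T0 := by
  have h1 := dg_sdiff B A T0 e
  have h2 : 0 < kk B A T0 e := by omega
  unfold kk at h2
  obtain ⟨T', hT'⟩ := Finset.card_pos.1 h2
  rw [mem_filter] at hT'
  obtain ⟨g, hg1, hg2⟩ := Finset.not_disjoint_iff.1 hT'.2.2
  exact mem_nb.2 ⟨g, hg2, T', hT'.1, hg1, fun h => he (h ▸ hg2), hT'.2.1⟩

/-- the newly isolated blocks -/
def nw (B : Finset (Finset α)) (A T0 : Finset α) : ℝ :=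
  (((isos B (A \ T0)).filter (fun T => T ∉ isos B A)).card : ℝ)

theorem nw_nonneg (B : Finset (Finset α)) (A T0 : Finset α) : 0 ≤ nw B A T0 := Nat.cast_nonneg _

theorem nw_le_bl (B : Finset (Finset α)) (A T0 : Finset α) : nw B A T0 ≤ (B.card : ℝ) := by
  unfold nw
  have : (isos B (A \ T0)).filter (fun T => T ∉ isos B A) ⊆ B := by
    intro T hT
    rw [mem_filter] at hT
    exact (mem_bl.1 (mem_isos.1 hT.1).1).1
  exact_mod_cast Finset.card_le_card this

theorem Y_change (B : Finset (Finset α)) (hB : Lin3 B) (A T₀ : Finset α) (hT₀ : T₀ ∈ bl B A) :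
    ∃ i0 : ℝ, 0 ≤ i0 ∧ i0 ≤ 1 ∧ Yf B (A \ T₀) - Yf B A = -i0 + nw B A T₀ := by
  refine ⟨if T₀ ∈ isos B A then (1 : ℝ) else 0, by split_ifs <;> norm_num,
    by split_ifs <;> norm_num, ?_⟩
  have hc := hB.card3 T₀ (mem_bl.1 hT₀).1
  have hne : T₀.Nonempty := Finset.card_pos.1 (by omega)
  have h2 := Finset.card_filter_add_card_filter_not (s := isos B (A \ T₀))
    (fun T => T ∈ isos B A)
  rw [isos_sdiff B A T₀ hT₀ hne] at h2
  have h4 : (((isos B A).erase T₀).card : ℝ) +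
      (((isos B (A \ T₀)).filter (fun T => T ∉ isos B A)).card : ℝ) = Yf B (A \ T₀) := by
    unfold Yf
    exact_mod_cast h2
  have h5 : (((isos B A).erase T₀).card : ℝ) = Yf B A - (if T₀ ∈ isos B A then (1 : ℝ) else 0) := by
    unfold Yf
    by_cases h : T₀ ∈ isos B A
    · rw [if_pos h, ← Finset.card_erase_add_one h]
      push_cast
      ring
    · rw [if_neg h, Finset.erase_eq_of_notMem h]
      ring
  unfold nw
  linarith

theorem card_change (B : Finset (Finset α)) (hB : Lin3 B) (A T₀ : Finset α) (hT₀ : T₀ ∈ bl B A) :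
    ((A \ T₀).card : ℝ) - (A.card : ℝ) = -3 := by
  have hc := hB.card3 T₀ (mem_bl.1 hT₀).1
  have h1 := Finset.card_sdiff_add_card_eq_card (mem_bl.1 hT₀).2
  rw [hc] at h1
  have h2 : ((A \ T₀).card : ℝ) + 3 = (A.card : ℝ) := by exact_mod_cast h1
  linarith

theorem sum_dg_change (B : Finset (Finset α)) (hB : Lin3 B) (A T : Finset α) (hT : T ∈ bl B A) :
    ∑ e ∈ A \ T, (dg B (A \ T) e : ℝ) - ∑ e ∈ A, (dg B A e : ℝ) =
      -3 * ∑ e ∈ T, (dg B A e : ℝ) + 6 := by
  rw [sum_dg B hB, sum_dg B hB, bl_sdiff]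
  have h2 := Finset.card_filter_add_card_filter_not (s := bl B A) (fun T' => Disjoint T' T)
  have h3 := card_meet B hB A T hT
  have h4 : (((bl B A).filter (fun T' => Disjoint T' T)).card : ℝ) +
      (((bl B A).filter (fun T' => ¬ Disjoint T' T)).card : ℝ) = ((bl B A).card : ℝ) := by
    exact_mod_cast h2
  linarith

theorem three_le_sum (B : Finset (Finset α)) (hB : Lin3 B) (A T : Finset α) (hT : T ∈ bl B A) :
    3 ≤ ∑ e ∈ T, (dg B A e : ℝ) := by
  have hc := hB.card3 T (mem_bl.1 hT).1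
  have h1 : ∑ _e ∈ T, (1 : ℝ) ≤ ∑ e ∈ T, (dg B A e : ℝ) :=
    Finset.sum_le_sum fun e he => by exact_mod_cast dg_pos hT he
  rw [Finset.sum_const, hc] at h1
  norm_num at h1
  exact h1

theorem dg_le (B : Finset (Finset α)) (A : Finset α) (e : α) : (dg B A e : ℝ) ≤ (B.card : ℝ) := by
  unfold dg
  exact_mod_cast Finset.card_le_card ((Finset.filter_subset _ _).trans (Finset.filter_subset _ _))

theorem bl_card_le (B : Finset (Finset α)) (A : Finset α) :
    ((bl B A).card : ℝ) ≤ (B.card : ℝ) := by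
  exact_mod_cast Finset.card_le_card (Finset.filter_subset _ _)

/-- dichotomy -/
theorem good_or_bad (B : Finset (Finset α)) (R : ℝ) (A : Finset α) :
    (∀ e ∈ A, (dg B A e : ℝ) ≤ R) ∨ 1 ≤ Hf B R A := by
  by_cases h : ∃ e ∈ A, R ≤ (dg B A e : ℝ)
  · right
    obtain ⟨e, he, h1⟩ := h
    unfold Hf
    have : 0 < (A.filter (fun e => R ≤ (dg B A e : ℝ))).card :=
      Finset.card_pos.2 ⟨e, mem_filter.2 ⟨he, h1⟩⟩
    exact_mod_cast this
  · left
    push Not at h
    exact fun e he => (h e he).le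

theorem Hf_nonneg (B : Finset (Finset α)) (R : ℝ) (A : Finset α) : 0 ≤ Hf B R A :=
  Nat.cast_nonneg _

theorem Fo_eq (B : Finset (Finset α)) (A : Finset α) : Fo B A = ∑ T0 ∈ bl B A, nw B A T0 := rfl

theorem Fo_nonneg (B : Finset (Finset α)) (A : Finset α) : 0 ≤ Fo B A := by
  rw [Fo_eq]
  exact Finset.sum_nonneg fun T _ => nw_nonneg B A T

/-- a sum over the alive blocks with a uniform bound -/
theorem sum_le_card (B : Finset (Finset α)) (A : Finset α) (f : Finset α → ℝ) (c : ℝ)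
    (hc : 0 ≤ c) (h : ∀ T ∈ bl B A, f T ≤ c) : ∑ T ∈ bl B A, f T ≤ (B.card : ℝ) * c := by
  refine (Finset.sum_le_sum h).trans ?_
  rw [Finset.sum_const, nsmul_eq_mul]
  exact mul_le_mul_of_nonneg_right (bl_card_le B A) hc

end TQv

open TQv

theorem new_le (B : Finset (Finset α)) (hB : Lin3 B) (A T0 : Finset α) (hT0 : T0 ∈ bl B A)
    (R : ℝ) (hR : ∀ e ∈ A, (dg B A e : ℝ) ≤ R) :
    (((isos B (A \ T0)).filter (fun T => T ∉ isos B A)).card : ℝ) ≤ 6 * R := by
  refine le_trans ?_ (card_nb_le B hB A T0 hT0 R hR)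
  have hch : ∀ T ∈ (isos B (A \ T0)).filter (fun T => T ∉ isos B A),
      ∃ f, f ∈ nb B A T0 ∧ f ∈ T ∧ dg B (A \ T0) f = 1 := by
    intro T hT
    rw [mem_filter, mem_isos] at hT
    obtain ⟨⟨hTb, hT1⟩, hTn⟩ := hT
    have hTb' := hTb
    rw [bl_sdiff, mem_filter] at hTb'
    have hex : ∃ f ∈ T, dg B A f ≠ 1 := by
      by_contra hcon
      push Not at hcon
      exact hTn (mem_isos.2 ⟨hTb'.1, hcon⟩)
    obtain ⟨f, hf, hf1⟩ := hex
    have h2 := dg_pos hTb'.1 hf
    have h3 := hT1 f hf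
    refine ⟨f, mem_nb_of_drop (fun h => Finset.disjoint_left.1 hTb'.2 hf h) (by omega), hf, h3⟩
  rcases ((isos B (A \ T0)).filter (fun T => T ∉ isos B A)).eq_empty_or_nonempty with h0 | ⟨S, hS⟩
  · rw [h0]
    simp
  obtain ⟨f₀, -⟩ := hch S hS
  have : Nonempty α := ⟨f₀⟩
  choose! F hF using hch
  have := Finset.card_le_card_of_injOn F (fun T hT => (hF T hT).1) (by
    intro T₁ h1 T₂ h2 h12
    have a1 := hF T₁ h1
    have a2 := hF T₂ h2
    have b1 : T₁ ∈ bl B (A \ T0) := (mem_isos.1 (mem_filter.1 h1).1).1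
    have b2 : T₂ ∈ bl B (A \ T0) := (mem_isos.1 (mem_filter.1 h2).1).1
    exact ZM.eq_of_dg_one a1.2.2 b1 b2 a1.2.1 (h12 ▸ a2.2.1))
  exact_mod_cast this

namespace TQv

/-- the sum of the squares of the numbers of newly isolated blocks -/
theorem sum_nw_sq_le (B : Finset (Finset α)) (hB : Lin3 B) (A : Finset α) (R : ℝ)
    (hR : ∀ e ∈ A, (dg B A e : ℝ) ≤ R) :
    ∑ T ∈ bl B A, nw B A T ^ 2 ≤ 6 * R * Fo B A := by
  rw [Fo_eq, Finset.mul_sum]
  refine Finset.sum_le_sum fun T hT => ?_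
  have h1 : nw B A T ≤ 6 * R := new_le B hB A T hT R hR
  have h2 := nw_nonneg B A T
  rw [pow_two]
  exact mul_le_mul_of_nonneg_right h1 h2

end TQv

theorem qvW_le (B : Finset (Finset α)) (hB : Lin3 B) (R : ℝ) (hR : 1 ≤ R) (A : Finset α) :
    qv B (Wf B) A ≤ 72 * ((bl B A).card : ℝ) + 108 * R * Fo B A +
      100 * (B.card : ℝ) ^ 3 * Hf B R A := by
  have hterm : ∀ T ∈ bl B A, (Wf B (A \ T) - Wf B A) ^ 2 ≤ 72 + 18 * nw B A T ^ 2 := by
    intro T hT
    obtain ⟨i0, h0, h1, hY⟩ := Y_change B hB A T hT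
    have hc := card_change B hB A T hT
    have hn := nw_nonneg B A T
    have e : Wf B (A \ T) - Wf B A = -(3 + 3 * nw B A T - 3 * i0) := by
      unfold Wf
      linarith
    rw [e, neg_sq]
    have b1 : 3 + 3 * nw B A T - 3 * i0 ≤ 3 + 3 * nw B A T := by linarith
    have b2 : 0 ≤ 3 + 3 * nw B A T - 3 * i0 := by linarith
    nlinarith [sq_nonneg (nw B A T - 1)]
  have hF := Fo_nonneg B A
  have hM : (0 : ℝ) ≤ (B.card : ℝ) := Nat.cast_nonneg _
  have hH := Hf_nonneg B R A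
  unfold qv
  rcases good_or_bad B R A with hg | hb
  · have h1 := Finset.sum_le_sum hterm
    rw [Finset.sum_add_distrib, Finset.sum_const, nsmul_eq_mul, ← Finset.mul_sum] at h1
    have h2 := sum_nw_sq_le B hB A R hg
    have h3 : 0 ≤ 100 * (B.card : ℝ) ^ 3 * Hf B R A := by positivity
    linarith
  · by_cases hM0 : B.card = 0
    · have hB0 : B = ∅ := Finset.card_eq_zero.1 hM0
      have : bl B A = ∅ := by rw [hB0]; rfl
      rw [this, Finset.sum_empty]
      simp only [Finset.card_empty, Nat.cast_zero, mul_zero, zero_add]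
      positivity
    have hM1 : (1 : ℝ) ≤ (B.card : ℝ) := by exact_mod_cast Nat.one_le_iff_ne_zero.2 hM0
    have h1 : ∑ T ∈ bl B A, (Wf B (A \ T) - Wf B A) ^ 2 ≤
        (B.card : ℝ) * (72 + 18 * (B.card : ℝ) ^ 2) := by
      refine sum_le_card B A _ _ (by positivity) fun T hT => (hterm T hT).trans ?_
      have h2 := nw_le_bl B A T
      have h3 := nw_nonneg B A T
      have : nw B A T ^ 2 ≤ (B.card : ℝ) ^ 2 := pow_le_pow_left₀ h3 h2 2
      linarith
    have h2 : (B.card : ℝ) * (72 + 18 * (B.card : ℝ) ^ 2) ≤ 90 * (B.card : ℝ) ^ 3 := by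
      nlinarith [mul_nonneg hM (mul_nonneg hM hM), mul_le_mul hM1 hM1 zero_le_one hM]
    have h3 : 90 * (B.card : ℝ) ^ 3 ≤ 100 * (B.card : ℝ) ^ 3 * Hf B R A := by
      have : 0 ≤ (B.card : ℝ) ^ 3 := by positivity
      nlinarith
    have h4 : 0 ≤ 72 * ((bl B A).card : ℝ) + 108 * R * Fo B A := by positivity
    linarith

theorem qvS_le (B : Finset (Finset α)) (hB : Lin3 B) (R : ℝ) (hR : 1 ≤ R) (A : Finset α) :
    qv B (Sf B) A ≤ 100 * R ^ 2 * ∑ e ∈ A, (dg B A e : ℝ) + 108 * R * Fo B A +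
      300 * (B.card : ℝ) ^ 3 * Hf B R A := by
  have hterm : ∀ T ∈ bl B A, (Sf B (A \ T) - Sf B A) ^ 2 ≤
      18 * (∑ e ∈ T, (dg B A e : ℝ)) ^ 2 + 18 * nw B A T ^ 2 := by
    intro T hT
    obtain ⟨i0, h0, h1, hY⟩ := Y_change B hB A T hT
    have hs := sum_dg_change B hB A T hT
    have h3 := three_le_sum B hB A T hT
    have hn := nw_nonneg B A T
    set s := ∑ e ∈ T, (dg B A e : ℝ)
    have e : Sf B (A \ T) - Sf B A = -(3 * s - 6 + 3 * nw B A T - 3 * i0) := by
      unfold Sf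
      linarith
    rw [e, neg_sq]
    have b1 : 3 * s - 6 + 3 * nw B A T - 3 * i0 ≤ 3 * s + 3 * nw B A T := by linarith
    have b2 : 0 ≤ 3 * s - 6 + 3 * nw B A T - 3 * i0 := by linarith
    have b3 := pow_le_pow_left₀ b2 b1 2
    refine b3.trans ?_
    nlinarith [sq_nonneg (s - nw B A T)]
  have hF := Fo_nonneg B A
  have hM : (0 : ℝ) ≤ (B.card : ℝ) := Nat.cast_nonneg _
  have hH := Hf_nonneg B R A
  have hD : 0 ≤ ∑ e ∈ A, (dg B A e : ℝ) := Finset.sum_nonneg fun e _ => Nat.cast_nonneg _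
  unfold qv
  rcases good_or_bad B R A with hg | hb
  · have h1 := Finset.sum_le_sum hterm
    rw [Finset.sum_add_distrib, ← Finset.mul_sum, ← Finset.mul_sum] at h1
    have h2 := sum_nw_sq_le B hB A R hg
    have h3 : 0 ≤ 300 * (B.card : ℝ) ^ 3 * Hf B R A := by positivity
    have h4 : ∑ T ∈ bl B A, (∑ e ∈ T, (dg B A e : ℝ)) ^ 2 ≤
        3 * R ^ 2 * ∑ e ∈ A, (dg B A e : ℝ) := by
      have h5 : ∀ T ∈ bl B A, (∑ e ∈ T, (dg B A e : ℝ)) ^ 2 ≤
          ∑ e ∈ T, 3 * R * (dg B A e : ℝ) := by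
        intro T hT
        have hc := hB.card3 T (mem_bl.1 hT).1
        have h6 : ∑ e ∈ T, (dg B A e : ℝ) ≤ 3 * R := by
          have : ∑ e ∈ T, (dg B A e : ℝ) ≤ ∑ _e ∈ T, R :=
            Finset.sum_le_sum fun e he => hg e ((mem_bl.1 hT).2 he)
          rw [Finset.sum_const, hc, nsmul_eq_mul] at this
          exact_mod_cast this
        rw [← Finset.mul_sum, pow_two]
        exact mul_le_mul_of_nonneg_right h6 (Finset.sum_nonneg fun e _ => Nat.cast_nonneg _)
      refine (Finset.sum_le_sum h5).trans ?_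
      rw [sum_blocks, Finset.mul_sum]
      refine Finset.sum_le_sum fun e he => ?_
      have h7 := hg e he
      have h8 : (0 : ℝ) ≤ (dg B A e : ℝ) := Nat.cast_nonneg _
      have h9 : (dg B A e : ℝ) * (3 * R * (dg B A e : ℝ)) =
          3 * R * (dg B A e : ℝ) * (dg B A e : ℝ) := by ring
      rw [h9]
      calc 3 * R * (dg B A e : ℝ) * (dg B A e : ℝ) ≤ 3 * R * R * (dg B A e : ℝ) := by
            refine mul_le_mul_of_nonneg_right ?_ h8
            exact mul_le_mul_of_nonneg_left h7 (by linarith)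
        _ = 3 * R ^ 2 * (dg B A e : ℝ) := by ring
    have h5 : 0 ≤ R ^ 2 * ∑ e ∈ A, (dg B A e : ℝ) := by positivity
    linarith
  · by_cases hM0 : B.card = 0
    · have hB0 : B = ∅ := Finset.card_eq_zero.1 hM0
      have : bl B A = ∅ := by rw [hB0]; rfl
      rw [this, Finset.sum_empty]
      positivity
    have hM1 : (1 : ℝ) ≤ (B.card : ℝ) := by exact_mod_cast Nat.one_le_iff_ne_zero.2 hM0
    have h1 : ∑ T ∈ bl B A, (Sf B (A \ T) - Sf B A) ^ 2 ≤
        (B.card : ℝ) * (180 * (B.card : ℝ) ^ 2) := by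
      refine sum_le_card B A _ _ (by positivity) fun T hT => (hterm T hT).trans ?_
      have h2 := nw_le_bl B A T
      have h3 := nw_nonneg B A T
      have h4 : nw B A T ^ 2 ≤ (B.card : ℝ) ^ 2 := pow_le_pow_left₀ h3 h2 2
      have hc := hB.card3 T (mem_bl.1 hT).1
      have h6 : ∑ e ∈ T, (dg B A e : ℝ) ≤ 3 * (B.card : ℝ) := by
        have : ∑ e ∈ T, (dg B A e : ℝ) ≤ ∑ _e ∈ T, (B.card : ℝ) :=
          Finset.sum_le_sum fun e _ => dg_le B A e
        rw [Finset.sum_const, hc, nsmul_eq_mul] at this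
        exact_mod_cast this
      have h7 : (∑ e ∈ T, (dg B A e : ℝ)) ^ 2 ≤ (3 * (B.card : ℝ)) ^ 2 :=
        pow_le_pow_left₀ (Finset.sum_nonneg fun e _ => Nat.cast_nonneg _) h6 2
      nlinarith
    have h3 : (B.card : ℝ) * (180 * (B.card : ℝ) ^ 2) ≤ 300 * (B.card : ℝ) ^ 3 * Hf B R A := by
      have : 0 ≤ (B.card : ℝ) ^ 3 := by positivity
      nlinarith
    have h4 : 0 ≤ 100 * R ^ 2 * ∑ e ∈ A, (dg B A e : ℝ) + 108 * R * Fo B A := by positivity
    linarith

theorem qvZ_le (B : Finset (Finset α)) (hB : Lin3 B) (R : ℝ) (hR : 1 ≤ R) (A : Finset α) :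
    qv B (Zf B) A ≤ 6 * R * gn B (Zf B) A + 9 * (B.card : ℝ) ^ 3 * Hf B R A := by
  have hM : (0 : ℝ) ≤ (B.card : ℝ) := Nat.cast_nonneg _
  have hH := Hf_nonneg B R A
  have hd : ∀ T ∈ bl B A, 0 ≤ Zf B (A \ T) - Zf B A := fun T hT =>
    sub_nonneg.2 (Z_mono B hB A T hT)
  have hdiff : ∀ T ∈ bl B A, Zf B (A \ T) - Zf B A =
      ((((A \ T).filter (fun e => dg B (A \ T) e = 0)) \
        (A.filter (fun e => dg B A e = 0))).card : ℝ) := by
    intro T hT
    rw [Finset.card_sdiff_of_subset (ZM.zset_subset B A T hT),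
      Nat.cast_sub (Finset.card_le_card (ZM.zset_subset B A T hT))]
    rfl
  unfold qv gn
  rcases good_or_bad B R A with hg | hb
  · have h1 : ∑ T ∈ bl B A, (Zf B (A \ T) - Zf B A) ^ 2 ≤
        6 * R * ∑ T ∈ bl B A, (Zf B (A \ T) - Zf B A) := by
      rw [Finset.mul_sum]
      refine Finset.sum_le_sum fun T hT => ?_
      rw [pow_two]
      refine mul_le_mul_of_nonneg_right ?_ (hd T hT)
      rw [hdiff T hT]
      refine le_trans ?_ (card_nb_le B hB A T hT R hg)
      refine Nat.cast_le.2 (Finset.card_le_card fun e he => ?_)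
      rw [mem_sdiff, mem_filter, mem_filter, mem_sdiff] at he
      refine mem_nb_of_drop he.1.1.2 ?_
      have h2 : dg B A e ≠ 0 := fun h => he.2 ⟨he.1.1.1, h⟩
      have h3 := he.1.2
      omega
    have h2 : 0 ≤ 9 * (B.card : ℝ) ^ 3 * Hf B R A := by positivity
    linarith
  · have h0 : 0 ≤ ∑ T ∈ bl B A, (Zf B (A \ T) - Zf B A) := Finset.sum_nonneg hd
    have h1 : ∑ T ∈ bl B A, (Zf B (A \ T) - Zf B A) ^ 2 ≤
        (B.card : ℝ) * (9 * (B.card : ℝ) ^ 2) := by
      refine sum_le_card B A _ _ (by positivity) fun T hT => ?_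
      have h2 : Zf B (A \ T) - Zf B A ≤ 3 * (B.card : ℝ) := by
        rw [hdiff T hT]
        have h3 : ((A \ T).filter (fun e => dg B (A \ T) e = 0)) \
            (A.filter (fun e => dg B A e = 0)) ⊆ (bl B A).biUnion id := by
          intro e he
          rw [mem_sdiff, mem_filter, mem_filter, mem_sdiff] at he
          have h2 : 0 < dg B A e := Nat.pos_of_ne_zero fun h => he.2 ⟨he.1.1.1, h⟩
          unfold dg at h2
          obtain ⟨T', hT'⟩ := Finset.card_pos.1 h2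
          rw [mem_filter] at hT'
          exact mem_biUnion.2 ⟨T', hT'.1, hT'.2⟩
        have h4 : ((bl B A).biUnion id).card ≤ (bl B A).card * 3 :=
          Finset.card_biUnion_le_card_mul _ _ _ fun T' hT' =>
            (hB.card3 T' (mem_bl.1 hT').1).le
        have h5 : (((bl B A).biUnion id).card : ℝ) ≤ ((bl B A).card : ℝ) * 3 := by
          exact_mod_cast h4
        have h6 := bl_card_le B A
        have h7 : ((((A \ T).filter (fun e => dg B (A \ T) e = 0)) \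
            (A.filter (fun e => dg B A e = 0))).card : ℝ) ≤ (((bl B A).biUnion id).card : ℝ) :=
          Nat.cast_le.2 (Finset.card_le_card h3)
        linarith
      have h8 := pow_le_pow_left₀ (hd T hT) h2 2
      linarith
    have h3 : (B.card : ℝ) * (9 * (B.card : ℝ) ^ 2) ≤ 9 * (B.card : ℝ) ^ 3 * Hf B R A := by
      have : 0 ≤ (B.card : ℝ) ^ 3 := by positivity
      nlinarith
    have h4 : 0 ≤ 6 * R * ∑ T ∈ bl B A, (Zf B (A \ T) - Zf B A) := by positivity
    linarith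

end

end Vale.Agent.P046
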