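import Vale.Agent.P046.Low.TDefs
import Vale.Agent.P046.Low.LMain
import Vale.Agent.P046.Low.TQv

/-!
P046, lower bound in probability: row TSUM (sums of the quadratic variations over time).
-/

namespace Vale.Agent.P046

open Finset

noncomputable section

variable {α : Type} [DecidableEq α]

namespace TSum

theorem It_sum3 (B : Finset (Finset α)) (i : ℕ) (A : Finset α) (f g k : Finset α → ℝ)
    (a b c : ℝ) :
    It B i A (fun A => a * f A + b * g A + c * k A) =
      a * It B i A f + b * It B i A g + c * It B i A k :=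
  LMain.It_lin3 B i A f g k a b c

theorem tele (B : Finset (Finset α)) (hM : 0 < B.card) (A : Finset α) (f : Finset α → ℝ)
    (k k' : ℕ) (hk : k ≤ k') :
    ∑ i ∈ Finset.Ico k k', It B i A (gn B f) / (B.card : ℝ) = It B k' A f - It B k A f := by
  induction k', hk using Nat.le_induction with
  | base => simp
  | succ n hn ih =>
    rw [Finset.sum_Ico_succ_top hn, ih, It_succ B hM n A f]
    ring

theorem Y_le (B : Finset (Finset α)) (hB : Lin3 B) (A : Finset α) :
    Yf B A ≤ (A.card : ℝ) / 3 := by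
  have h := W_nonneg B hB A
  unfold Wf at h
  linarith

theorem It_const_le (B : Finset (Finset α)) (i : ℕ) (A : Finset α) (f : Finset α → ℝ) (c : ℝ)
    (h : ∀ A', A' ⊆ A → f A' ≤ c) : It B i A f ≤ c := by
  have h1 := It_mono B i A f (fun _ => c) h
  have h2 : It B i A (fun _ => c) = c := by
    unfold It
    have h3 : lz B (fun _ => c) = fun _ => c := by
      funext A'
      unfold lz
      simp
    rw [Function.iterate_fixed h3]
  rw [h2] at h1
  exact h1

theorem cardR_mono {A A' : Finset α} (h : A' ⊆ A) : (A'.card : ℝ) ≤ (A.card : ℝ) := by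
  exact_mod_cast Finset.card_le_card h

end TSum

open TSum

theorem sum_deg_le (B : Finset (Finset α)) (hB : Lin3 B) (hM : 0 < B.card) (A : Finset α)
    (k : ℕ) :
    ∑ i ∈ range k, It B i A (fun A => ∑ e ∈ A, (dg B A e : ℝ)) / (B.card : ℝ) ≤
      (A.card : ℝ) := by
  have h1 := tele B hM A (fun A => (A.card : ℝ)) 0 k (Nat.zero_le k)
  have h2 : gn B (fun A => (A.card : ℝ)) =
      fun A => (-1) * (∑ e ∈ A, (dg B A e : ℝ)) + 0 * (∑ e ∈ A, (dg B A e : ℝ)) := by
    funext A'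
    have := drift_card B hB A'
    unfold gn
    rw [this]
    ring
  have h3 : ∀ i, It B i A (gn B (fun A => (A.card : ℝ))) =
      - It B i A (fun A => ∑ e ∈ A, (dg B A e : ℝ)) := by
    intro i
    rw [h2, It_lin]
    ring
  have h4 : It B 0 A (fun A => (A.card : ℝ)) = (A.card : ℝ) := rfl
  have h5 : 0 ≤ It B k A (fun A => (A.card : ℝ)) :=
    It_nonneg B k A _ (fun A' _ => by positivity)
  rw [Nat.Ico_zero_eq_range, Finset.sum_congr rfl fun i _ => by rw [h3 i]] at h1
  have h6 : ∑ i ∈ range k, It B i A (fun A => ∑ e ∈ A, (dg B A e : ℝ)) / (B.card : ℝ) =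
      - ∑ i ∈ range k, -It B i A (fun A => ∑ e ∈ A, (dg B A e : ℝ)) / (B.card : ℝ) := by
    rw [← Finset.sum_neg_distrib]
    refine Finset.sum_congr rfl fun i _ => ?_
    ring
  rw [h6, h1, h4]
  linarith

theorem sum_Fo_le (B : Finset (Finset α)) (hB : Lin3 B) (hM : 0 < B.card) (A : Finset α)
    (k : ℕ) (hk : k ≤ 2 * B.card) :
    ∑ i ∈ range k, It B i A (Fo B) / (B.card : ℝ) ≤ (A.card : ℝ) := by
  have hMr : (0 : ℝ) < B.card := by exact_mod_cast hM
  have h1 := tele B hM A (Yf B) 0 k (Nat.zero_le k)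
  rw [Nat.Ico_zero_eq_range] at h1
  have h2 : gn B (Yf B) = fun A => (-1) * Yf B A + 1 * Fo B A := by
    funext A'
    rw [gn_Y B hB A']
    ring
  have h3 : ∀ i, It B i A (gn B (Yf B)) = - It B i A (Yf B) + It B i A (Fo B) := by
    intro i
    rw [h2, It_lin]
    ring
  have hY : ∀ i, It B i A (Yf B) ≤ (A.card : ℝ) / 3 := fun i =>
    It_const_le B i A _ _ fun A' hA' =>
      (Y_le B hB A').trans (by have := cardR_mono hA'; linarith)
  have hY0 : 0 ≤ It B 0 A (Yf B) := It_nonneg B 0 A _ (fun A' _ => by unfold Yf; positivity)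
  have h4 : ∑ i ∈ range k, It B i A (gn B (Yf B)) / (B.card : ℝ) =
      - ∑ i ∈ range k, It B i A (Yf B) / (B.card : ℝ) +
        ∑ i ∈ range k, It B i A (Fo B) / (B.card : ℝ) := by
    rw [← Finset.sum_neg_distrib, ← Finset.sum_add_distrib]
    refine Finset.sum_congr rfl fun i _ => ?_
    rw [h3 i]
    ring
  have h5 : ∑ i ∈ range k, It B i A (Yf B) / (B.card : ℝ) ≤ 2 * ((A.card : ℝ) / 3) := by
    calc ∑ i ∈ range k, It B i A (Yf B) / (B.card : ℝ) ≤
        ∑ _i ∈ range k, (A.card : ℝ) / 3 / (B.card : ℝ) := by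
          refine Finset.sum_le_sum fun i _ => ?_
          exact div_le_div_of_nonneg_right (hY i) hMr.le
      _ = (k : ℝ) * ((A.card : ℝ) / 3 / (B.card : ℝ)) := by
          rw [Finset.sum_const, card_range, nsmul_eq_mul]
      _ ≤ (2 * (B.card : ℝ)) * ((A.card : ℝ) / 3 / (B.card : ℝ)) := by
          refine mul_le_mul_of_nonneg_right ?_ (by positivity)
          exact_mod_cast hk
      _ = 2 * ((A.card : ℝ) / 3) := by field_simp
  have h6 := hY k
  linarith

namespace TSum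

/-- the numerical facts -/
theorem nums (B : Finset (Finset α)) (hB : Lin3 B) (A : Finset α) (D : ℕ) (hD : 100 ≤ D)
    (hBA : ∀ T ∈ B, T ⊆ A) (hdeg : ∀ e ∈ A, dg B A e = D) (hne : A.Nonempty) :
    0 < B.card ∧ (100 : ℝ) ≤ D ∧ 2 * (D : ℝ) + 1 ≤ A.card ∧ 3 * (B.card : ℝ) = A.card * D ∧
      1 ≤ Real.log A.card ∧ (B.card : ℝ) ≤ (A.card : ℝ) ^ 2 / 6 := by
  obtain ⟨_, h3, hN⟩ := card_facts B hB A D hBA hdeg
  have hN' := hN hne
  have hD2 : (100 : ℝ) ≤ D := by exact_mod_cast hD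
  have hNr : 2 * (D : ℝ) + 1 ≤ (A.card : ℝ) := by exact_mod_cast hN'
  have hMpos : (0 : ℝ) < (B.card : ℝ) := by nlinarith
  refine ⟨by exact_mod_cast hMpos, hD2, hNr, h3, ?_, ?_⟩
  · rw [Real.le_log_iff_exp_le (by linarith)]
    have := Real.exp_one_lt_d9
    linarith
  · nlinarith

/-- the truncation level at time `i` -/
def lev (D : ℕ) (M N : ℝ) (i : ℕ) : ℝ :=
  if (i : ℝ) * D ≤ M then (D : ℝ) + 1 else 16 * Real.log N * (M / i)

theorem pp_sq (D M : ℝ) (hD : 0 ≤ D) (hM : 0 ≤ M) (i : ℕ) :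
    pp D M i ^ 2 = 1 / D + 2 * ((i : ℝ) + 1) / M := by
  unfold pp
  exact Real.sq_sqrt (by positivity)

theorem pp_nonneg (D M : ℝ) (i : ℕ) : 0 ≤ pp D M i := Real.sqrt_nonneg _

theorem pp_le5 (D M : ℝ) (hD : 100 ≤ D) (hM : 1 ≤ M) (i : ℕ) (hi : (i : ℝ) + 1 ≤ 2 * M) :
    pp D M i ^ 2 ≤ 5 := by
  rw [pp_sq D M (by linarith) (by linarith)]
  have h1 : 1 / D ≤ 1 / 100 := one_div_le_one_div_of_le (by norm_num) hD
  have h2 : 2 * ((i : ℝ) + 1) / M ≤ 4 := by
    rw [div_le_iff₀ (by linarith)]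
    linarith
  linarith

theorem lev_ge_one (D : ℕ) (M N : ℝ) (hM : 1 ≤ M) (hlog : 1 ≤ Real.log N) (i : ℕ)
    (hi : (i : ℝ) + 1 ≤ 2 * M) : 1 ≤ lev D M N i := by
  unfold lev
  split_ifs with h
  · have : (0 : ℝ) ≤ D := by positivity
    linarith
  · have hi0 : (0 : ℝ) < i := by
      rcases Nat.eq_zero_or_pos i with h0 | h0
      · exfalso
        rw [h0] at h
        apply h
        simp
        linarith
      · exact_mod_cast h0
    have h1 : 1 / 2 ≤ M / i := by
      rw [le_div_iff₀ hi0]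
      linarith
    nlinarith

theorem pp_lev (D : ℕ) (M N : ℝ) (hD : (100 : ℝ) ≤ D) (hN : 2 * (D : ℝ) + 1 ≤ N)
    (h3 : 3 * M = N * D) (hlog : 1 ≤ Real.log N) (i : ℕ) :
    pp D M i ^ 2 * lev D M N i ≤ 80 * Real.log N := by
  have hMpos : 0 < M := by nlinarith
  have hDpos : (0 : ℝ) < D := by linarith
  rw [pp_sq D M hDpos.le hMpos.le]
  unfold lev
  split_ifs with h
  · have h1 : (i : ℝ) / M ≤ 1 / D := by
      rw [div_le_div_iff₀ hMpos hDpos]
      linarith
    have h2 : 1 / M ≤ 1 / (60 * (D : ℝ)) := by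
      apply one_div_le_one_div_of_le (by positivity)
      nlinarith
    have h4 : 1 / (D : ℝ) + 2 * ((i : ℝ) + 1) / M ≤ 4 / D := by
      have e1 : 2 * ((i : ℝ) + 1) / M = 2 * ((i : ℝ) / M) + 2 * (1 / M) := by ring
      have e2 : 1 / (60 * (D : ℝ)) = (1 / 60) * (1 / D) := by field_simp
      have e3 : 4 / (D : ℝ) = 4 * (1 / D) := by ring
      have e4 : 0 < 1 / (D : ℝ) := by positivity
      rw [e1, e3]
      rw [e2] at h2
      linarith
    calc (1 / (D : ℝ) + 2 * ((i : ℝ) + 1) / M) * ((D : ℝ) + 1) ≤ 4 / D * ((D : ℝ) + 1) :=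
          mul_le_mul_of_nonneg_right h4 (by linarith)
      _ = 4 + 4 * (1 / D) := by field_simp
      _ ≤ 80 * Real.log N := by
          have h5 : 1 / (D : ℝ) ≤ 1 / 100 := one_div_le_one_div_of_le (by norm_num) hD
          linarith
  · push Not at h
    have hi0 : (0 : ℝ) < i := by
      rcases Nat.eq_zero_or_pos i with h0 | h0
      · exfalso
        rw [h0] at h
        simp at h
        linarith
      · exact_mod_cast h0
    have hi1 : (1 : ℝ) ≤ i := by
      have : 0 < i := by exact_mod_cast hi0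
      exact_mod_cast this
    have h1 : 1 / (D : ℝ) ≤ (i : ℝ) / M := by
      rw [div_le_div_iff₀ hDpos hMpos]
      linarith
    have h2 : 2 * ((i : ℝ) + 1) / M ≤ 4 * ((i : ℝ) / M) := by
      rw [← mul_div_assoc]
      apply div_le_div_of_nonneg_right _ hMpos.le
      linarith
    calc (1 / (D : ℝ) + 2 * ((i : ℝ) + 1) / M) * (16 * Real.log N * (M / i)) ≤
          (5 * ((i : ℝ) / M)) * (16 * Real.log N * (M / i)) := by
            apply mul_le_mul_of_nonneg_right _ (by positivity)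
            linarith
      _ = 80 * Real.log N := by field_simp; ring

theorem exp_log_pow {N : ℝ} (hN : 0 < N) :
    Real.exp (-(16 * Real.log N)) = 1 / N ^ 16 := by
  rw [Real.exp_neg, mul_comm, Real.exp_mul, Real.exp_log hN]
  norm_num

theorem cube_small {M N x : ℝ} (hM : 0 ≤ M) (hN : 3 ≤ N) (hMN : M ≤ N ^ 2 / 6)
    (hx : x ≤ N * (1 / N ^ 16)) : M ^ 3 * x ≤ 1 := by
  have hNp : 0 < N := by linarith
  calc M ^ 3 * x ≤ M ^ 3 * (N * (1 / N ^ 16)) := mul_le_mul_of_nonneg_left hx (by positivity)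
    _ ≤ (N ^ 2) ^ 3 * (N * (1 / N ^ 16)) := by
        apply mul_le_mul_of_nonneg_right _ (by positivity)
        apply pow_le_pow_left₀ hM
        nlinarith [sq_nonneg N]
    _ = 1 / N ^ 9 := by field_simp
    _ ≤ 1 := by
        rw [div_le_one (by positivity)]
        exact one_le_pow₀ (by linarith)

/-- the points of large degree are negligible -/
theorem H_small (B : Finset (Finset α)) (hB : Lin3 B) (hM : 0 < B.card) (A : Finset α) (D : ℕ)
    (hdeg : ∀ e ∈ A, dg B A e = D) (hN3 : (3 : ℝ) ≤ A.card)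
    (hMN : (B.card : ℝ) ≤ (A.card : ℝ) ^ 2 / 6) (i : ℕ) :
    (B.card : ℝ) ^ 3 * It B i A (Hf B (lev D B.card A.card i)) ≤ 1 := by
  have hMp : (0 : ℝ) < (B.card : ℝ) := by exact_mod_cast hM
  have hlog0 : 0 ≤ Real.log A.card := Real.log_nonneg (by linarith)
  unfold lev
  split_ifs with h
  · have h1 : It B i A (Hf B ((D : ℝ) + 1)) ≤ 0 := by
      refine It_const_le B i A _ 0 fun A' hA' => ?_
      unfold Hf
      have h2 : A'.filter (fun e => (D : ℝ) + 1 ≤ (dg B A' e : ℝ)) = ∅ := by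
        rw [Finset.filter_eq_empty_iff]
        intro e he hle
        have h3 : dg B A' e ≤ dg B A e := by
          unfold dg
          refine Finset.card_le_card ?_
          intro T hT
          rw [mem_filter, mem_bl] at hT ⊢
          exact ⟨⟨hT.1.1, hT.1.2.trans hA'⟩, hT.2⟩
        rw [hdeg e (hA' he)] at h3
        have h4 : (dg B A' e : ℝ) ≤ D := by exact_mod_cast h3
        linarith
      rw [h2]
      simp
    have h2 : (B.card : ℝ) ^ 3 * It B i A (Hf B ((D : ℝ) + 1)) ≤ (B.card : ℝ) ^ 3 * 0 :=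
      mul_le_mul_of_nonneg_left h1 (by positivity)
    linarith
  · push Not at h
    have hi0 : (0 : ℝ) < i := by
      rcases Nat.eq_zero_or_pos i with h0 | h0
      · exfalso
        rw [h0] at h
        simp at h
        linarith
      · exact_mod_cast h0
    have h1 := It_H B hB hM (16 * Real.log A.card * ((B.card : ℝ) / i)) (by positivity) i A
    have h2 : 16 * Real.log A.card * ((B.card : ℝ) / i) * i / (B.card : ℝ) =
        16 * Real.log A.card := by field_simp
    rw [h2, exp_log_pow (by linarith)] at h1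
    exact cube_small hMp.le hN3 hMN h1

/-- one time step of the weighted sums -/
theorem step_gen (B : Finset (Finset α)) (hM : 0 < B.card) (A : Finset α) (i : ℕ)
    (F : Finset α → ℝ) (w a b c R : ℝ) (hw : 0 ≤ w)
    (hF : ∀ A', F A' ≤ a * (∑ e ∈ A', (dg B A' e : ℝ)) + b * Fo B A' +
      c * (B.card : ℝ) ^ 3 * Hf B R A')
    (hH : (B.card : ℝ) ^ 3 * It B i A (Hf B R) ≤ 1) (hc : 0 ≤ c) (a' b' c' : ℝ)
    (ha : w * a ≤ a') (hb : w * b ≤ b') (hcc : w * c ≤ c') :
    w * (It B i A F / (B.card : ℝ)) ≤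
      a' * (It B i A (fun A => ∑ e ∈ A, (dg B A e : ℝ)) / (B.card : ℝ)) +
      b' * (It B i A (Fo B) / (B.card : ℝ)) + c' * (1 / (B.card : ℝ)) := by
  have hMp : (0 : ℝ) < (B.card : ℝ) := by exact_mod_cast hM
  have h1 := It_mono B i A F (fun A' => a * (∑ e ∈ A', (dg B A' e : ℝ)) + b * Fo B A' +
      (c * (B.card : ℝ) ^ 3) * Hf B R A') (fun A' _ => hF A')
  rw [It_sum3] at h1
  have hd0 : 0 ≤ It B i A (fun A => ∑ e ∈ A, (dg B A e : ℝ)) :=
    It_nonneg B i A _ fun A' _ => Finset.sum_nonneg fun _ _ => by positivity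
  have hf0 : 0 ≤ It B i A (Fo B) := It_nonneg B i A _ fun A' _ => LMain.Fo_nonneg B A'
  set x := It B i A (fun A => ∑ e ∈ A, (dg B A e : ℝ))
  set y := It B i A (Fo B)
  set z := It B i A (Hf B R)
  have h2 : w * It B i A F ≤ a' * x + b' * y + c' := by
    calc w * It B i A F ≤ w * (a * x + b * y + c * (B.card : ℝ) ^ 3 * z) :=
          mul_le_mul_of_nonneg_left h1 hw
      _ = (w * a) * x + (w * b) * y + (w * c) * ((B.card : ℝ) ^ 3 * z) := by ring
      _ ≤ a' * x + b' * y + (w * c) * 1 := by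
          gcongr
      _ ≤ _ := by linarith
  calc w * (It B i A F / (B.card : ℝ)) = (w * It B i A F) / (B.card : ℝ) := by ring
    _ ≤ (a' * x + b' * y + c') / (B.card : ℝ) := div_le_div_of_nonneg_right h2 hMp.le
    _ = _ := by ring

/-- summation of the steps -/
theorem sum_gen (B : Finset (Finset α)) (hB : Lin3 B) (hM : 0 < B.card) (A : Finset α)
    (G : ℕ → ℝ) (a' b' c' : ℝ) (ha : 0 ≤ a') (hb : 0 ≤ b')
    (hG : ∀ i < 2 * B.card, G i ≤
      a' * (It B i A (fun A => ∑ e ∈ A, (dg B A e : ℝ)) / (B.card : ℝ)) +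
      b' * (It B i A (Fo B) / (B.card : ℝ)) + c' * (1 / (B.card : ℝ))) :
    ∑ i ∈ range (2 * B.card), G i ≤ (a' + b') * (A.card : ℝ) + 2 * c' := by
  have hMp : (0 : ℝ) < (B.card : ℝ) := by exact_mod_cast hM
  have h1 := sum_deg_le B hB hM A (2 * B.card)
  have h2 := sum_Fo_le B hB hM A (2 * B.card) le_rfl
  calc ∑ i ∈ range (2 * B.card), G i ≤ ∑ i ∈ range (2 * B.card),
      (a' * (It B i A (fun A => ∑ e ∈ A, (dg B A e : ℝ)) / (B.card : ℝ)) +
      b' * (It B i A (Fo B) / (B.card : ℝ)) + c' * (1 / (B.card : ℝ))) :=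
        Finset.sum_le_sum fun i hi => hG i (Finset.mem_range.1 hi)
    _ = a' * (∑ i ∈ range (2 * B.card),
          It B i A (fun A => ∑ e ∈ A, (dg B A e : ℝ)) / (B.card : ℝ)) +
        b' * (∑ i ∈ range (2 * B.card), It B i A (Fo B) / (B.card : ℝ)) + 2 * c' := by
        rw [Finset.sum_add_distrib, Finset.sum_add_distrib, ← Finset.mul_sum, ← Finset.mul_sum,
          Finset.sum_const, card_range, nsmul_eq_mul]
        push_cast
        field_simp
    _ ≤ a' * (A.card : ℝ) + b' * (A.card : ℝ) + 2 * c' := by gcongr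
    _ = _ := by ring

end TSum

theorem VW_le (B : Finset (Finset α)) (hB : Lin3 B) (A : Finset α) (D : ℕ) (hD : 100 ≤ D)
    (hBA : ∀ T ∈ B, T ⊆ A) (hdeg : ∀ e ∈ A, dg B A e = D) (hne : A.Nonempty) :
    ∑ i ∈ range (2 * B.card), pp D B.card i ^ 2 * (It B i A (qv B (Wf B)) / (B.card : ℝ)) ≤
      10 ^ 8 * (A.card : ℝ) * Real.log A.card ^ 2 := by
  obtain ⟨hM, hD2, hNr, h3, hlog, hMN⟩ := nums B hB A D hD hBA hdeg hne
  have hM1 : (1 : ℝ) ≤ B.card := by exact_mod_cast hM
  have hN3 : (3 : ℝ) ≤ A.card := by linarith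
  refine (sum_gen B hB hM A _ (120 : ℝ) (8640 * Real.log A.card) 500 (by norm_num)
    (by positivity) fun i hi => ?_).trans ?_
  · have hi' : (i : ℝ) + 1 ≤ 2 * (B.card : ℝ) := by exact_mod_cast hi
    have h5 := pp_le5 D B.card hD2 hM1 i hi'
    have h1 := lev_ge_one D B.card A.card hM1 hlog i hi'
    have h6 := pp_lev D B.card A.card hD2 hNr h3 hlog i
    have h7 := H_small B hB hM A D hdeg hN3 hMN i
    refine step_gen B hM A i (qv B (Wf B)) (pp D B.card i ^ 2) 24
      (108 * lev D B.card A.card i) 100 (lev D B.card A.card i) (by positivity) ?_ h7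
      (by norm_num) _ _ _ ?_ ?_ ?_
    · intro A'
      have h8 := qvW_le B hB _ h1 A'
      have h9 := sum_dg B hB A'
      linarith
    · linarith
    · calc pp D B.card i ^ 2 * (108 * lev D B.card A.card i) =
          108 * (pp D B.card i ^ 2 * lev D B.card A.card i) := by ring
        _ ≤ 108 * (80 * Real.log A.card) := by gcongr
        _ = _ := by ring
    · linarith
  · have h1 : (120 + 8640 * Real.log A.card) * (A.card : ℝ) ≤
        (8760 * Real.log A.card) * (A.card : ℝ) := by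
      apply mul_le_mul_of_nonneg_right _ (by linarith)
      linarith
    have h2 : Real.log A.card ≤ Real.log A.card ^ 2 := by nlinarith
    have h4 : (A.card : ℝ) * Real.log A.card ≤ (A.card : ℝ) * Real.log A.card ^ 2 :=
      mul_le_mul_of_nonneg_left h2 (by linarith)
    have h5 : (3 : ℝ) ≤ (A.card : ℝ) * Real.log A.card := by nlinarith
    nlinarith

theorem VS_le (B : Finset (Finset α)) (hB : Lin3 B) (A : Finset α) (D : ℕ) (hD : 100 ≤ D)
    (hBA : ∀ T ∈ B, T ⊆ A) (hdeg : ∀ e ∈ A, dg B A e = D) (hne : A.Nonempty) :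
    ∑ i ∈ range (2 * B.card),
      (pp D B.card i ^ 3) ^ 2 * (It B i A (qv B (Sf B)) / (B.card : ℝ)) ≤
      10 ^ 8 * (A.card : ℝ) * Real.log A.card ^ 2 := by
  obtain ⟨hM, hD2, hNr, h3, hlog, hMN⟩ := nums B hB A D hD hBA hdeg hne
  have hM1 : (1 : ℝ) ≤ B.card := by exact_mod_cast hM
  have hN3 : (3 : ℝ) ≤ A.card := by linarith
  refine (sum_gen B hB hM A _ (3200000 * Real.log A.card ^ 2) (216000 * Real.log A.card) 37500
    (by positivity) (by positivity) fun i hi => ?_).trans ?_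
  · have hi' : (i : ℝ) + 1 ≤ 2 * (B.card : ℝ) := by exact_mod_cast hi
    have h5 := pp_le5 D B.card hD2 hM1 i hi'
    have h1 := lev_ge_one D B.card A.card hM1 hlog i hi'
    have h6 := pp_lev D B.card A.card hD2 hNr h3 hlog i
    have h7 := H_small B hB hM A D hdeg hN3 hMN i
    obtain ⟨s, hs⟩ : ∃ s : ℝ, s = pp D B.card i ^ 2 := ⟨_, rfl⟩
    have hs0 : 0 ≤ s := by rw [hs]; positivity
    have e1 : (pp D B.card i ^ 3) ^ 2 = s ^ 3 := by rw [hs]; ring
    rw [← hs] at h5 h6
    rw [e1]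
    set R := lev D B.card A.card i with hR
    set l := Real.log A.card with hl
    have hsR : 0 ≤ s * R := by positivity
    refine step_gen B hM A i (qv B (Sf B)) (s ^ 3) (100 * R ^ 2) (108 * R) 300 R
      (by positivity) ?_ h7 (by norm_num) _ _ _ ?_ ?_ ?_
    · intro A'
      exact qvS_le B hB R h1 A'
    · calc s ^ 3 * (100 * R ^ 2) = 100 * (s * (s * R) ^ 2) := by ring
        _ ≤ 100 * (5 * (80 * l) ^ 2) := by gcongr
        _ = _ := by ring
    · calc s ^ 3 * (108 * R) = 108 * (s ^ 2 * (s * R)) := by ring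
        _ ≤ 108 * (5 ^ 2 * (80 * l)) := by gcongr
        _ = _ := by ring
    · calc s ^ 3 * 300 ≤ 5 ^ 3 * 300 := by gcongr
        _ = 37500 := by norm_num
  · have h2 : Real.log A.card ≤ Real.log A.card ^ 2 := by nlinarith
    have h4 : (A.card : ℝ) * Real.log A.card ≤ (A.card : ℝ) * Real.log A.card ^ 2 :=
      mul_le_mul_of_nonneg_left h2 (by linarith)
    have h5 : (3 : ℝ) ≤ (A.card : ℝ) * Real.log A.card := by nlinarith
    nlinarith

theorem VZ_le (B : Finset (Finset α)) (hB : Lin3 B) (A : Finset α) (D : ℕ) (hD : 100 ≤ D)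
    (hBA : ∀ T ∈ B, T ⊆ A) (hdeg : ∀ e ∈ A, dg B A e = D) (hne : A.Nonempty) (k : ℕ)
    (hk : 1 ≤ k) (hk2 : k ≤ 2 * B.card) :
    ∑ i ∈ Finset.Ico k (2 * B.card), It B i A (qv B (Zf B)) / (B.card : ℝ) ≤
      10 ^ 8 * (A.card : ℝ) * Real.log A.card * ((B.card : ℝ) / k) := by
  obtain ⟨hM, hD2, hNr, h3, hlog, hMN⟩ := nums B hB A D hD hBA hdeg hne
  have hMp : (0 : ℝ) < (B.card : ℝ) := by exact_mod_cast hM
  have hM1 : (1 : ℝ) ≤ B.card := by exact_mod_cast hM
  have hN3 : (3 : ℝ) ≤ A.card := by linarith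
  have hkp : (0 : ℝ) < k := by exact_mod_cast hk
  have hk2r : (k : ℝ) ≤ 2 * (B.card : ℝ) := by exact_mod_cast hk2
  obtain ⟨q, hq⟩ : ∃ q : ℝ, q = (B.card : ℝ) / k := ⟨_, rfl⟩
  have hq2 : 1 / 2 ≤ q := by
    rw [hq, le_div_iff₀ hkp]
    linarith
  obtain ⟨R, hR⟩ : ∃ R : ℝ, R = 16 * Real.log A.card * q := ⟨_, rfl⟩
  have hR1 : 1 ≤ R := by rw [hR]; nlinarith
  have hstep : ∀ i ∈ Finset.Ico k (2 * B.card), It B i A (qv B (Zf B)) / (B.card : ℝ) ≤
      6 * R * (It B i A (gn B (Zf B)) / (B.card : ℝ)) + 9 * (1 / (B.card : ℝ)) := by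
    intro i hi
    have hki : (k : ℝ) ≤ i := by exact_mod_cast (Finset.mem_Ico.1 hi).1
    have h1 := It_mono B i A (qv B (Zf B)) (fun A' => 6 * R * gn B (Zf B) A' +
      (9 * (B.card : ℝ) ^ 3) * Hf B R A') (fun A' _ => qvZ_le B hB R hR1 A')
    rw [It_lin] at h1
    have h2 := It_H B hB hM R (by linarith) i A
    have h4 : 16 * Real.log A.card ≤ R * i / (B.card : ℝ) := by
      rw [hR, hq]
      have e1 : 16 * Real.log A.card * ((B.card : ℝ) / k) * i / (B.card : ℝ) =
          16 * Real.log A.card * ((i : ℝ) / k) := by field_simp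
      rw [e1]
      have e2 : 1 ≤ (i : ℝ) / k := by
        rw [le_div_iff₀ hkp]
        linarith
      nlinarith
    have h5 : It B i A (Hf B R) ≤ (A.card : ℝ) * (1 / (A.card : ℝ) ^ 16) := by
      refine h2.trans (mul_le_mul_of_nonneg_left ?_ (by linarith))
      rw [← exp_log_pow (by linarith)]
      exact Real.exp_le_exp.2 (by linarith)
    have h6 := cube_small hMp.le hN3 hMN h5
    have h7 : It B i A (qv B (Zf B)) ≤ 6 * R * It B i A (gn B (Zf B)) + 9 := by
      calc It B i A (qv B (Zf B)) ≤ 6 * R * It B i A (gn B (Zf B)) +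
            9 * (B.card : ℝ) ^ 3 * It B i A (Hf B R) := h1
        _ = 6 * R * It B i A (gn B (Zf B)) + 9 * ((B.card : ℝ) ^ 3 * It B i A (Hf B R)) := by ring
        _ ≤ _ := by linarith
    calc It B i A (qv B (Zf B)) / (B.card : ℝ) ≤
        (6 * R * It B i A (gn B (Zf B)) + 9) / (B.card : ℝ) :=
          div_le_div_of_nonneg_right h7 hMp.le
      _ = _ := by ring
  have hsum : ∑ i ∈ Finset.Ico k (2 * B.card), It B i A (qv B (Zf B)) / (B.card : ℝ) ≤
      6 * R * (It B (2 * B.card) A (Zf B) - It B k A (Zf B)) + 18 := by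
    refine (Finset.sum_le_sum hstep).trans ?_
    rw [Finset.sum_add_distrib, ← Finset.mul_sum, tele B hM A (Zf B) k _ hk2, Finset.sum_const,
      Nat.card_Ico, nsmul_eq_mul]
    have h1 : ((2 * B.card - k : ℕ) : ℝ) ≤ 2 * (B.card : ℝ) := by
      have : (2 * B.card - k : ℕ) ≤ 2 * B.card := Nat.sub_le _ _
      exact_mod_cast this
    have h2 : ((2 * B.card - k : ℕ) : ℝ) * (9 * (1 / (B.card : ℝ))) ≤
        (2 * (B.card : ℝ)) * (9 * (1 / (B.card : ℝ))) :=
      mul_le_mul_of_nonneg_right h1 (by positivity)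
    have h4 : (2 * (B.card : ℝ)) * (9 * (1 / (B.card : ℝ))) = 18 := by field_simp; norm_num
    linarith
  have hZN : It B (2 * B.card) A (Zf B) ≤ (A.card : ℝ) :=
    It_const_le B _ A _ _ fun A' hA' => by
      refine le_trans ?_ (cardR_mono hA')
      unfold Zf
      exact_mod_cast Finset.card_filter_le _ _
  have hZ0 : 0 ≤ It B k A (Zf B) := It_nonneg B k A _ fun A' _ => by unfold Zf; positivity
  refine hsum.trans ?_
  rw [← hq]
  have h8 : 6 * R * (It B (2 * B.card) A (Zf B) - It B k A (Zf B)) ≤ 6 * R * (A.card : ℝ) :=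
    mul_le_mul_of_nonneg_left (by linarith) (by linarith)
  have h9 : (1 : ℝ) ≤ (A.card : ℝ) * Real.log A.card * q := by
    have : (3 : ℝ) ≤ (A.card : ℝ) * Real.log A.card := by nlinarith
    nlinarith
  have h10 : 6 * R * (A.card : ℝ) = 96 * ((A.card : ℝ) * Real.log A.card * q) := by
    rw [hR]; ring
  nlinarith

end

end Vale.Agent.P046
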