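import Vale.Agent.P046.Low.TMart
import Vale.Agent.P046.Low.TSum
import Vale.Agent.P046.Low.TZ
import Vale.Agent.P046.Low.Real2
import Vale.Agent.P046.Low.LMain

/-!
P046, lower bound in probability: assembly.
-/

namespace Vale.Agent.P046

open Finset

noncomputable section

namespace TMain

open LMain

variable {α : Type} [DecidableEq α]

theorem pp_nonneg (D M : ℝ) (i : ℕ) : 0 ≤ pp D M i := Real.sqrt_nonneg _

/-- one late term with the factor `g` -/
theorem late_term_g (B : Finset (Finset α)) (hB : Lin3 B) (hNP : NP B) (A : Finset α)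
    (g : Finset α → ℝ) (h0 : ∀ A, 0 ≤ g A) (h1 : ∀ A, g A ≤ 1)
    (hM : 0 < B.card) (hMN : (B.card : ℝ) ≤ (A.card : ℝ) ^ 2) (hN : 2 ≤ A.card) (i : ℕ)
    (hi : 1 ≤ i) :
    It B i A (fun A => Fo B A * g A) ≤
      2 * (6 * Real.log A.card * (B.card : ℝ) / i) * It B i A (fun A => Mf B A * g A) +
      1 / (A.card : ℝ) := by
  have hMp : (0 : ℝ) < (B.card : ℝ) := by exact_mod_cast hM
  have hip : (0 : ℝ) < (i : ℝ) := by exact_mod_cast hi
  have hNp : (2 : ℝ) ≤ (A.card : ℝ) := by exact_mod_cast hN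
  have hlog : 0 ≤ Real.log A.card := Real.log_nonneg (by linarith)
  obtain ⟨R, hR⟩ : ∃ R : ℝ, R = 6 * Real.log A.card * (B.card : ℝ) / i := ⟨_, rfl⟩
  have hR0 : 0 ≤ R := by rw [hR]; positivity
  rw [← hR]
  have h3 := It_mono B i A (fun A => Fo B A * g A)
    (fun A => (2 * R) * (Mf B A * g A) + ((B.card : ℝ) ^ 2) * Hf B R A)
    (fun A' _ => by
      have h4 := Fo_le B hB hNP R hR0 A'
      have h5 : 0 ≤ (B.card : ℝ) ^ 2 * Hf B R A' := by unfold Hf; positivity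
      calc Fo B A' * g A' ≤ (2 * R * Mf B A' + (B.card : ℝ) ^ 2 * Hf B R A') * g A' :=
            mul_le_mul_of_nonneg_right h4 (h0 A')
        _ = (2 * R) * (Mf B A' * g A') + (B.card : ℝ) ^ 2 * Hf B R A' * g A' := by ring
        _ ≤ (2 * R) * (Mf B A' * g A') + (B.card : ℝ) ^ 2 * Hf B R A' := by
            have := mul_le_mul_of_nonneg_left (h1 A') h5
            linarith)
  rw [It_lin] at h3
  have h2 := It_H B hB hM R hR0 i A
  have h6 : R * (i : ℝ) / (B.card : ℝ) = 6 * Real.log A.card := by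
    rw [hR]; field_simp
  rw [h6] at h2
  have h4 : Real.exp (-(6 * Real.log A.card)) = 1 / (A.card : ℝ) ^ 6 := by
    rw [Real.exp_neg, mul_comm, Real.exp_mul, Real.exp_log (by linarith)]
    norm_num
  rw [h4] at h2
  have h5 : (B.card : ℝ) ^ 2 * It B i A (Hf B R) ≤ 1 / (A.card : ℝ) := by
    have hNpos : (0 : ℝ) < (A.card : ℝ) := by linarith
    have hH0 : 0 ≤ It B i A (Hf B R) := LMain.It_nonneg B i A _ fun A' => by unfold Hf; positivity
    calc (B.card : ℝ) ^ 2 * It B i A (Hf B R) ≤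
        ((A.card : ℝ) ^ 2) ^ 2 * ((A.card : ℝ) * (1 / (A.card : ℝ) ^ 6)) := by gcongr
      _ = 1 / (A.card : ℝ) := by field_simp
  linarith

/-- the late sum with the factor `g` -/
theorem late_sum_g (B : Finset (Finset α)) (hB : Lin3 B) (hNP : NP B) (A : Finset α) (D : ℕ)
    (g : Finset α → ℝ) (h0 : ∀ A, 0 ≤ g A) (h1 : ∀ A, g A ≤ 1)
    (hD : 2 ≤ D) (hM : 0 < B.card) (hMN : (B.card : ℝ) ≤ (A.card : ℝ) ^ 2) (hN : 2 ≤ A.card)
    (k : ℕ) (hk : 1 ≤ k) (KL : ℝ) (hKL : 0 < KL) (hkM : (B.card : ℝ) / (2 * KL) ≤ k)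
    (hDKL : 2 * KL ≤ (D : ℝ)) :
    ∑ i ∈ Finset.Ico k (2 * B.card), 3 * It B i A (fun A => Fo B A * g A) / (B.card : ℝ) *
        pp D B.card i ≤
      108 * Real.log A.card * Real.sqrt (2 * KL) *
        (∑ i ∈ Finset.Ico k (2 * B.card), It B i A (fun A => Mf B A * g A) / (B.card : ℝ)) +
        18 / (A.card : ℝ) := by
  have hMp : (0 : ℝ) < (B.card : ℝ) := by exact_mod_cast hM
  have hM1 : (1 : ℝ) ≤ (B.card : ℝ) := by exact_mod_cast hM
  have hD2 : (2 : ℝ) ≤ D := by exact_mod_cast hD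
  have hDp : (0 : ℝ) < (D : ℝ) := by linarith
  have hNp : (2 : ℝ) ≤ (A.card : ℝ) := by exact_mod_cast hN
  have hNpos : (0 : ℝ) < (A.card : ℝ) := by linarith
  have hlog : 0 ≤ Real.log A.card := Real.log_nonneg (by linarith)
  have hterm : ∀ i ∈ Finset.Ico k (2 * B.card),
      3 * It B i A (fun A => Fo B A * g A) / (B.card : ℝ) * pp D B.card i ≤
      108 * Real.log A.card * Real.sqrt (2 * KL) *
        (It B i A (fun A => Mf B A * g A) / (B.card : ℝ)) +
        9 / (A.card : ℝ) / (B.card : ℝ) := by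
    intro i hi
    rw [Finset.mem_Ico] at hi
    have h1 := late_term_g B hB hNP A g h0 h1 hM hMN hN i (hk.trans hi.1)
    have h2 := weight_le (M := (B.card : ℝ)) (D := (D : ℝ)) (KL := KL)
      (lg := Real.log A.card) hMp hKL hlog hk hi.1 hkM hDKL
    have hMf := LMain.It_nonneg B i A (fun A => Mf B A * g A)
      (fun A' => mul_nonneg (Mf_nonneg B A') (h0 A'))
    obtain ⟨s, hs⟩ : ∃ s : ℝ, s = Real.sqrt (1 / (D : ℝ) + 2 * ((i : ℝ) + 1) / (B.card : ℝ)) :=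
      ⟨_, rfl⟩
    unfold pp
    rw [← hs] at h2 ⊢
    have hs0 : 0 ≤ s := by rw [hs]; exact Real.sqrt_nonneg _
    have hs3 : s ≤ 3 := by
      rw [hs]
      apply Real.sqrt_le_iff.2
      refine ⟨by norm_num, ?_⟩
      have h3 : (i : ℝ) + 1 ≤ 2 * (B.card : ℝ) := by exact_mod_cast hi.2
      have h4 : 2 * ((i : ℝ) + 1) / (B.card : ℝ) ≤ 4 := by
        rw [div_le_iff₀ hMp]; linarith
      have h5 : 1 / (D : ℝ) ≤ 1 / 2 := one_div_le_one_div_of_le (by norm_num) hD2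
      norm_num
      norm_num at h5
      linarith
    obtain ⟨I, hI⟩ : ∃ I : ℝ, I = It B i A (fun A => Mf B A * g A) := ⟨_, rfl⟩
    rw [← hI] at h1 hMf ⊢
    calc 3 * It B i A (fun A => Fo B A * g A) / (B.card : ℝ) * s ≤
        3 * (2 * (6 * Real.log A.card * (B.card : ℝ) / i) * I +
          1 / (A.card : ℝ)) / (B.card : ℝ) * s := by gcongr
      _ = 6 * (6 * Real.log A.card * (B.card : ℝ) / i * s) * (I / (B.card : ℝ)) +
          3 * s / (A.card : ℝ) / (B.card : ℝ) := by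
          ring
      _ ≤ 6 * (18 * Real.log A.card * Real.sqrt (2 * KL)) *
          (I / (B.card : ℝ)) + 3 * 3 / (A.card : ℝ) / (B.card : ℝ) := by
          have h6 : 0 ≤ I / (B.card : ℝ) := by positivity
          have h7 : 6 * (6 * Real.log A.card * (B.card : ℝ) / i * s) *
              (I / (B.card : ℝ)) ≤ 6 * (18 * Real.log A.card * Real.sqrt (2 * KL)) *
              (I / (B.card : ℝ)) :=
            mul_le_mul_of_nonneg_right (by linarith) h6
          have h8 : 3 * s / (A.card : ℝ) / (B.card : ℝ) ≤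
              3 * 3 / (A.card : ℝ) / (B.card : ℝ) := by gcongr
          linarith
      _ = _ := by ring
  refine (Finset.sum_le_sum hterm).trans ?_
  rw [Finset.sum_add_distrib, ← Finset.mul_sum, Finset.sum_const, nsmul_eq_mul, Nat.card_Ico]
  have h2 : (((2 * B.card - k : ℕ)) : ℝ) * (9 / (A.card : ℝ) / (B.card : ℝ)) ≤
      18 / (A.card : ℝ) := by
    have h3 : (((2 * B.card - k : ℕ)) : ℝ) ≤ 2 * (B.card : ℝ) := by
      have : 2 * B.card - k ≤ 2 * B.card := Nat.sub_le _ _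
      exact_mod_cast this
    calc (((2 * B.card - k : ℕ)) : ℝ) * (9 / (A.card : ℝ) / (B.card : ℝ)) ≤
        2 * (B.card : ℝ) * (9 / (A.card : ℝ) / (B.card : ℝ)) := by gcongr
      _ = _ := by field_simp; norm_num
  linarith

/-- the three error sums -/
theorem err_le (B : Finset (Finset α)) (hM : 0 < B.card) (g : Finset α → ℝ)
    (hg : ∀ A, gn B g A = 0) (h0 : ∀ A, 0 ≤ g A) (h1 : ∀ A, g A ≤ 1) (A : Finset α)
    (f : Finset α → ℝ) (w : ℕ → ℝ) (hw : ∀ i, 0 ≤ w i) (k : ℕ) (η V : ℝ) (hη : 0 < η)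
    (hV : ∑ i ∈ range k, w i ^ 2 * (It B i A (qv B f) / (B.card : ℝ)) ≤ V) (hVη : V ≤ η ^ 2) :
    ∑ i ∈ range k, w i * (|It B i A (cr B f g)| / (B.card : ℝ)) ≤ η := by
  have h2 := cr_le B hM g hg h0 h1 A f w k η hη
  have h3 : ∑ i ∈ range k, |w i| * (|It B i A (cr B f g)| / (B.card : ℝ)) =
      ∑ i ∈ range k, w i * (|It B i A (cr B f g)| / (B.card : ℝ)) :=
    Finset.sum_congr rfl fun i _ => by rw [abs_of_nonneg (hw i)]
  rw [h3] at h2
  refine h2.trans ?_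
  have h4 : (∑ i ∈ range k, w i ^ 2 * (It B i A (qv B f) / (B.card : ℝ))) / η ≤ η := by
    rw [div_le_iff₀ hη]
    calc _ ≤ V := hV
      _ ≤ η ^ 2 := hVη
      _ = η * η := by ring
  linarith

/-- the late error sum for `Z` -/
theorem errZ_le (B : Finset (Finset α)) (hM : 0 < B.card) (g : Finset α → ℝ)
    (hg : ∀ A, gn B g A = 0) (h0 : ∀ A, 0 ≤ g A) (h1 : ∀ A, g A ≤ 1) (A : Finset α)
    (f : Finset α → ℝ) (k m : ℕ) (η V : ℝ) (hη : 0 < η)
    (hV : ∑ i ∈ Finset.Ico k m, It B i A (qv B f) / (B.card : ℝ) ≤ V) (hVη : V ≤ η ^ 2) :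
    ∑ i ∈ Finset.Ico k m, |It B i A (cr B f g)| / (B.card : ℝ) ≤ η := by
  have hsum : ∀ F : ℕ → ℝ, ∑ i ∈ range m, (if k ≤ i then (1 : ℝ) else 0) * F i =
      ∑ i ∈ Finset.Ico k m, F i := by
    intro F
    have h2 : Finset.Ico k m = (range m).filter (fun i => k ≤ i) := by
      ext i
      simp only [Finset.mem_Ico, Finset.mem_filter, Finset.mem_range]
      tauto
    rw [h2, Finset.sum_filter]
    refine Finset.sum_congr rfl fun i _ => ?_
    split_ifs <;> simp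
  have h2 := err_le B hM g hg h0 h1 A f (fun i => if k ≤ i then (1 : ℝ) else 0)
    (fun i => by split_ifs <;> norm_num) m η V hη (by
      have h3 : ∀ i, (if k ≤ i then (1 : ℝ) else 0) ^ 2 = if k ≤ i then (1 : ℝ) else 0 := by
        intro i
        split_ifs <;> norm_num
      simp only [h3]
      rw [hsum]
      exact hV) hVη
  rw [hsum] at h2
  exact h2

theorem It_lin4 (B : Finset (Finset α)) (i : ℕ) (A : Finset α) (f g k l : Finset α → ℝ)
    (a b c d : ℝ) :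
    It B i A (fun A => a * f A + b * g A + c * k A + d * l A) =
      a * It B i A f + b * It B i A g + c * It B i A k + d * It B i A l := by
  have h1 := It_lin B i A (fun A => a * f A + b * g A + c * k A) l 1 d
  have h2 := It_lin3 B i A f g k a b c
  simp only [one_mul] at h1
  rw [h1, h2]

/-- the statement of the real lemma for a fixed constant -/
def RealStmt (c0 : ℝ) : Prop := ∀ (M : ℕ) (N D G F1 F2 : ℝ), 2 ≤ D → 2 * D + 1 ≤ N →
    100 ≤ N → 3 * (M : ℝ) = N * D → 0 ≤ G → ∀ (a q φ z τ eW eS : ℕ → ℝ), a 0 = N * G →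
    q 0 = N * D * G → (∀ i, 0 ≤ a i) → (∀ i, 0 ≤ q i) → (∀ i, 0 ≤ φ i) → (∀ i, 0 ≤ eW i) →
    (∀ i, 0 ≤ eS i) → (∀ i, z i ≤ F1) → (∀ i, 0 ≤ τ i) →
    (∀ i, a i - (q i + φ i) / M - eW i ≤ a (i + 1)) →
    (∀ i, ∀ l : ℝ, q (i + 1) ≤
      q i + (-3 * (2 * l * q i - l ^ 2 * a i) + 2 * q i) / M + eS i) →
    (∀ i, 2 * a i - 2 * z i - 2 * τ i ≤ q i) →
    ∑ i ∈ Finset.Ico M (2 * M), τ i / M ≤ F2 →
    c0 * (N / Real.sqrt D) * G ≤
      5 * ∑ i ∈ range (2 * M),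
        (φ i / M * pp D M i + eW i * pp D M i + eS i * pp D M i ^ 3) + 4 * F1 + 4 * F2

/-- application of the real lemma -/
theorem apply_real2 {c0 : ℝ} (hreal : RealStmt c0)
    (B : Finset (Finset α)) (A : Finset α) (D : ℕ) (hD : 2 ≤ D) (hB : Lin3 B)
    (hBA : ∀ T ∈ B, T ⊆ A) (hdeg : ∀ e ∈ A, dg B A e = D) (hne : A.Nonempty)
    (hN100 : 100 ≤ A.card) (g : Finset α → ℝ)
    (hg : ∀ A, gn B g A = 0) (h0 : ∀ A, 0 ≤ g A) (F1 F2 : ℝ)
    (hF1 : ∀ i, It B i A (fun A => Zf B A * g A) ≤ F1)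
    (hF2 : ∑ i ∈ Finset.Ico B.card (2 * B.card),
      It B i A (fun A => Mf B A * g A) / (B.card : ℝ) ≤ F2) :
    c0 * ((A.card : ℝ) / Real.sqrt D) * g A ≤
      5 * ∑ i ∈ range (2 * B.card), (3 * It B i A (fun A => Fo B A * g A) / (B.card : ℝ) *
        pp D B.card i + |It B i A (cr B (Wf B) g)| / (B.card : ℝ) * pp D B.card i +
        |It B i A (cr B (Sf B) g)| / (B.card : ℝ) * pp D B.card i ^ 3) + 4 * F1 + 4 * F2 := by
  obtain ⟨hbl, h3, hN⟩ := card_facts B hB A D hBA hdeg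
  have hN' := hN hne
  have hD2 : (2 : ℝ) ≤ D := by exact_mod_cast hD
  have hNr : 2 * (D : ℝ) + 1 ≤ (A.card : ℝ) := by exact_mod_cast hN'
  have hMpos : (0 : ℝ) < (B.card : ℝ) := by nlinarith
  have hM0 : 0 < B.card := by exact_mod_cast hMpos
  have hY0 : Yf B A = 0 := by
    unfold Yf
    have : isos B A = ∅ := by
      unfold isos
      rw [Finset.filter_eq_empty_iff]
      intro T hT hall
      have hTB := (mem_bl.1 hT).1
      have hTA := (mem_bl.1 hT).2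
      have hc := hB.card3 T hTB
      obtain ⟨e, he⟩ : T.Nonempty := by
        rw [← Finset.card_pos, hc]; norm_num
      have h1 := hall e he
      rw [hdeg e (hTA he)] at h1
      omega
    rw [this]; simp
  refine hreal B.card (A.card : ℝ) (D : ℝ) (g A) F1 F2 hD2 hNr
    (by exact_mod_cast hN100) h3 (h0 A) (fun i => It B i A (fun A => Wf B A * g A))
    (fun i => It B i A (fun A => Sf B A * g A))
    (fun i => 3 * It B i A (fun A => Fo B A * g A)) (fun i => It B i A (fun A => Zf B A * g A))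
    (fun i => It B i A (fun A => Mf B A * g A))
    (fun i => |It B i A (cr B (Wf B) g)| / (B.card : ℝ))
    (fun i => |It B i A (cr B (Sf B) g)| / (B.card : ℝ))
    ?_ ?_ ?_ ?_ ?_ ?_ ?_ hF1 ?_ ?_ ?_ ?_ hF2
  · show It B 0 A (fun A => Wf B A * g A) = (A.card : ℝ) * g A
    unfold It Wf
    simp [hY0]
  · show It B 0 A (fun A => Sf B A * g A) = (A.card : ℝ) * D * g A
    have e1 : ∑ e ∈ A, (dg B A e : ℝ) = (A.card : ℝ) * D := by
      rw [Finset.sum_congr rfl (fun e he => by rw [hdeg e he]), Finset.sum_const, nsmul_eq_mul]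
    unfold It Sf
    simp [hY0, e1]
  · exact fun i => LMain.It_nonneg B i A _ fun A' => mul_nonneg (W_nonneg B hB A') (h0 A')
  · exact fun i => LMain.It_nonneg B i A _ fun A' => mul_nonneg (S_nonneg B hB A') (h0 A')
  · exact fun i => mul_nonneg (by norm_num) (LMain.It_nonneg B i A _ fun A' =>
      mul_nonneg (Fo_nonneg B A') (h0 A'))
  · exact fun i => by positivity
  · exact fun i => by positivity
  · exact fun i => LMain.It_nonneg B i A _ fun A' => mul_nonneg (Mf_nonneg B A') (h0 A')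
  · intro i
    show It B i A (fun A => Wf B A * g A) - (It B i A (fun A => Sf B A * g A) +
      3 * It B i A (fun A => Fo B A * g A)) / (B.card : ℝ) -
      |It B i A (cr B (Wf B) g)| / (B.card : ℝ) ≤ It B (i + 1) A (fun A => Wf B A * g A)
    rw [It_succ B hM0 i A (fun A => Wf B A * g A)]
    have e1 : gn B (fun A => Wf B A * g A) = fun A => (-1) * (Sf B A * g A) +
        (-3) * (Fo B A * g A) + 1 * cr B (Wf B) g A := by
      funext A'
      rw [gn_mul B (Wf B) g A' (hg A'), gn_W B hB A']; ring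
    rw [e1, It_lin3]
    have h4 := neg_abs_le (It B i A (cr B (Wf B) g))
    have h5 : (-1 * It B i A (fun A => Sf B A * g A) + -3 * It B i A (fun A => Fo B A * g A) +
        1 * It B i A (cr B (Wf B) g)) / (B.card : ℝ) ≥
        (-(It B i A (fun A => Sf B A * g A) + 3 * It B i A (fun A => Fo B A * g A)) -
        |It B i A (cr B (Wf B) g)|) / (B.card : ℝ) := by
      apply div_le_div_of_nonneg_right _ hMpos.le
      linarith
    rw [sub_div, neg_div] at h5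
    linarith
  · intro i l
    show It B (i + 1) A (fun A => Sf B A * g A) ≤ It B i A (fun A => Sf B A * g A) +
      (-3 * (2 * l * It B i A (fun A => Sf B A * g A) -
      l ^ 2 * It B i A (fun A => Wf B A * g A)) + 2 * It B i A (fun A => Sf B A * g A)) /
      (B.card : ℝ) + |It B i A (cr B (Sf B) g)| / (B.card : ℝ)
    rw [It_succ B hM0 i A (fun A => Sf B A * g A)]
    have e1 : gn B (fun A => Sf B A * g A) = fun A => (-3) * (Qf B A * g A) +
        2 * (Sf B A * g A) + (-3) * (Fo B A * g A) + 1 * cr B (Sf B) g A := by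
      funext A'
      rw [gn_mul B (Sf B) g A' (hg A'), gn_S B hB A']; ring
    have e2 : 2 * l * It B i A (fun A => Sf B A * g A) -
        l ^ 2 * It B i A (fun A => Wf B A * g A) ≤ It B i A (fun A => Qf B A * g A) := by
      have h1 := It_mono B i A (fun A => (2 * l) * (Sf B A * g A) + (-l ^ 2) * (Wf B A * g A))
        (fun A => Qf B A * g A)
        (fun A' _ => by
          have h5 := mul_le_mul_of_nonneg_right (cs_nonneg B hB A' l) (h0 A')
          linarith)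
      rw [It_lin] at h1
      linarith
    have e4 : 0 ≤ It B i A (fun A => Fo B A * g A) :=
      LMain.It_nonneg B i A _ fun A' => mul_nonneg (Fo_nonneg B A') (h0 A')
    rw [e1, It_lin4]
    have h4 := le_abs_self (It B i A (cr B (Sf B) g))
    have e3 : (-3 * It B i A (fun A => Qf B A * g A) + 2 * It B i A (fun A => Sf B A * g A) +
        -3 * It B i A (fun A => Fo B A * g A) + 1 * It B i A (cr B (Sf B) g)) / (B.card : ℝ) ≤
        ((-3 * (2 * l * It B i A (fun A => Sf B A * g A) -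
        l ^ 2 * It B i A (fun A => Wf B A * g A)) + 2 * It B i A (fun A => Sf B A * g A)) +
        |It B i A (cr B (Sf B) g)|) / (B.card : ℝ) := by
      apply div_le_div_of_nonneg_right _ hMpos.le
      linarith
    rw [add_div _ (|It B i A (cr B (Sf B) g)|)] at e3
    linarith
  · intro i
    show 2 * It B i A (fun A => Wf B A * g A) - 2 * It B i A (fun A => Zf B A * g A) -
      2 * It B i A (fun A => Mf B A * g A) ≤ It B i A (fun A => Sf B A * g A)
    have h1 := It_mono B i A (fun A => 2 * (Wf B A * g A) + (-2) * (Zf B A * g A) +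
      (-2) * (Mf B A * g A)) (fun A => Sf B A * g A)
      (fun A' _ => by
        have h5 := mul_le_mul_of_nonneg_right (S_lower B hB A') (h0 A')
        linarith)
    rw [It_lin3] at h1
    linarith

/-- early part of the final arithmetic -/
theorem fin_early {c0 c1 CE K L D M S k ε : ℝ}
    (hc0 : 0 < c0) (hc1 : 0 < c1) (hCE : 0 < CE) (hε : 0 < ε) (hKp : 0 < K)
    (hKc : 640 * CE / (c1 * c0 * ε) ≤ K)
    (hDp : 0 < D) (hMp : 0 < M)
    (hLD : 320 * CE / (c1 * c0 * ε) * L ≤ D) (hkKL : k * (K * L) ≤ M) (hS0 : 0 < S) :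
    5 * (8 * CE / c1 * S * L * (1 / D + 2 * k / M)) ≤ c0 * ε / 4 * S := by
  have h1 : L * (1 / D) ≤ c1 * (c0 * ε) / (320 * CE) := by
    rw [mul_one_div, div_le_div_iff₀ hDp (by positivity)]
    have h2 : 320 * CE / (c1 * c0 * ε) * L = 320 * CE * L / (c1 * (c0 * ε)) := by ring
    rw [h2, div_le_iff₀ (by positivity)] at hLD
    linarith
  have h2 : L * (2 * k / M) ≤ 2 / K := by
    rw [mul_div_assoc', div_le_div_iff₀ hMp hKp]
    linarith
  have h3 : 2 / K ≤ c1 * (c0 * ε) / (320 * CE) := by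
    rw [div_le_div_iff₀ hKp (by positivity)]
    have h4 : 640 * CE / (c1 * c0 * ε) = 640 * CE / (c1 * (c0 * ε)) := by ring
    rw [h4, div_le_iff₀ (by positivity)] at hKc
    linarith
  have h5 : L * (1 / D + 2 * k / M) ≤ 2 * (c1 * (c0 * ε) / (320 * CE)) := by
    rw [mul_add]; linarith
  calc 5 * (8 * CE / c1 * S * L * (1 / D + 2 * k / M)) =
      40 * CE / c1 * S * (L * (1 / D + 2 * k / M)) := by ring
    _ ≤ 40 * CE / c1 * S * (2 * (c1 * (c0 * ε) / (320 * CE))) := by gcongr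
    _ = c0 * ε / 4 * S := by field_simp; norm_num

theorem fin_small {c0 D N S ε : ℝ} (hc0ε : 0 < c0 * ε) (hD : 1 ≤ D)
    (hDc : 720 / (c0 * ε) ≤ D) (hN : 2 * D + 1 ≤ N) (hS : S = N / Real.sqrt D) :
    5 * (18 / N) ≤ c0 * ε / 8 * S := by
  have hDp : 0 < D := by linarith
  have hsD : 0 < Real.sqrt D := Real.sqrt_pos.2 hDp
  have h1 : 90 / D ≤ c0 * ε / 8 := by
    rw [div_le_iff₀ hc0ε] at hDc
    rw [div_le_iff₀ hDp]; linarith
  have h2 : (1 : ℝ) ≤ S := by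
    rw [hS, le_div_iff₀ hsD, one_mul]
    have h4 : Real.sqrt D ≤ D := by
      rw [Real.sqrt_le_iff]
      exact ⟨hDp.le, by nlinarith⟩
    linarith
  have h3 : 90 / N ≤ 90 / D :=
    div_le_div_of_nonneg_left (by norm_num) hDp (by linarith)
  have h5 : 5 * (18 / N) = 90 / N := by ring
  rw [h5]
  have h6 : c0 * ε / 8 * 1 ≤ c0 * ε / 8 * S := mul_le_mul_of_nonneg_left h2 (by linarith)
  linarith

/-- the weight `W = lg √(2KL)` -/
theorem fin_W {c0 K L S lg δ ε x ez c : ℝ} (hc0 : 0 < c0) (hε : 0 < ε) (hKp : 0 < K)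
    (hK8 : 8 ≤ K) (hL1 : 1 ≤ L) (hS0 : 0 < S) (hlogN : 1 ≤ lg)
    (hδ : δ = c0 * ε / 4500) (hc : c = c0 / (1100 * Real.sqrt (2 * K)))
    (hx : x = c * S / (lg * Real.sqrt L))
    (hez : ez = δ * S / (lg * Real.sqrt (2 * (K * L)))) :
    1 ≤ lg * Real.sqrt (2 * (K * L)) ∧ (lg * Real.sqrt (2 * (K * L))) * x = c0 / 1100 * S ∧
    (lg * Real.sqrt (2 * (K * L))) * ez = δ * S ∧ 0 ≤ x ∧ 0 ≤ ez := by
  have hs2K : 0 < Real.sqrt (2 * K) := Real.sqrt_pos.2 (by positivity)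
  have hsL : 0 < Real.sqrt L := Real.sqrt_pos.2 (by linarith)
  have hlg0 : 0 < lg := by linarith
  have hLp : 0 < L := by linarith
  have hKL8 : 8 * 1 ≤ K * L := mul_le_mul hK8 hL1 (by norm_num) hKp.le
  have hsq1 : 1 ≤ Real.sqrt (2 * (K * L)) := by
    rw [show (1 : ℝ) = Real.sqrt 1 by simp]
    apply Real.sqrt_le_sqrt
    linarith
  have hsKL : 0 < Real.sqrt (2 * (K * L)) := by linarith
  have hδ0 : 0 < δ := by rw [hδ]; positivity
  have hcp : 0 < c := by rw [hc]; positivity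
  refine ⟨?_, ?_, ?_, ?_, ?_⟩
  · have := mul_le_mul hlogN hsq1 (by norm_num) hlg0.le
    linarith
  · have hW2 : lg * Real.sqrt (2 * (K * L)) = lg * Real.sqrt L * Real.sqrt (2 * K) := by
      rw [show 2 * (K * L) = L * (2 * K) by ring, Real.sqrt_mul (by linarith)]
      ring
    rw [hW2, hx, hc]; field_simp
  · rw [hez]; field_simp
  · rw [hx]; positivity
  · rw [hez]; positivity

/-- the final arithmetic; `E` early sum, `Lt` late sum, `err1`, `err2` error sums, `T` the sum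
of the mixed blocks at late times, `T2` the same over the window -/
theorem fin_arith2 {c0 c1 CE K L D N M S G lg k E Lt err1 err2 ez T T2 x δ ε c : ℝ}
    (hc0 : 0 < c0) (hc1 : 0 < c1) (hCE : 0 < CE) (hε : 0 < ε) (hK8 : 8 ≤ K)
    (hKc : 640 * CE / (c1 * c0 * ε) ≤ K) (hL1 : 1 ≤ L)
    (hD : 100 ≤ D) (hDc : 720 / (c0 * ε) ≤ D) (hN : 2 * D + 1 ≤ N) (hMp : 0 < M)
    (hLD : 320 * CE / (c1 * c0 * ε) * L ≤ D) (hkKL : k * (K * L) ≤ M)
    (hS : S = N / Real.sqrt D) (hG0 : 0 ≤ G) (hlogN : 1 ≤ lg)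
    (hδ : δ = c0 * ε / 4500) (hc : c = c0 / (1100 * Real.sqrt (2 * K)))
    (hx : x = c * S / (lg * Real.sqrt L))
    (hap : c0 * S * G ≤ 5 * (E + Lt + err1 + err2) + 4 * (x * G) + 4 * T2)
    (hes : E ≤ 8 * CE / c1 * S * L * (1 / D + 2 * k / M))
    (hls : Lt ≤ 108 * lg * Real.sqrt (2 * (K * L)) * T + 18 / N)
    (hez : ez = δ * S / (lg * Real.sqrt (2 * (K * L))))
    (hT : T ≤ x * G + ez) (hT2 : T2 ≤ x * G + ez) (he1 : err1 ≤ δ * S) (he2 : err2 ≤ δ * S) :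
    G ≤ ε := by
  have hDp : 0 < D := by linarith
  have hKp : 0 < K := by linarith
  have hsD : 0 < Real.sqrt D := Real.sqrt_pos.2 hDp
  have hNp : 0 < N := by linarith
  have hS0 : 0 < S := by rw [hS]; positivity
  have hc0ε : 0 < c0 * ε := by positivity
  obtain ⟨hW1, hWx, hWez, hx0, hez0⟩ := fin_W hc0 hε hKp hK8 hL1 hS0 hlogN hδ hc hx hez
  have hls' : Lt ≤ 108 * ((lg * Real.sqrt (2 * (K * L))) * T) + 18 / N := by
    have : 108 * lg * Real.sqrt (2 * (K * L)) * T =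
      108 * ((lg * Real.sqrt (2 * (K * L))) * T) := by ring
    linarith
  clear hls
  generalize lg * Real.sqrt (2 * (K * L)) = W at hW1 hWx hWez hls'
  have hE5 := fin_early (L := L) (k := k) (ε := ε) hc0 hc1 hCE hε hKp hKc hDp hMp hLD hkKL hS0
  have hN90 := fin_small hc0ε (by linarith) hDc hN hS
  have hW0 : 0 ≤ W := by linarith
  have hLt : 5 * Lt ≤ 540 * (W * x) * G + 540 * (W * ez) + 5 * (18 / N) := by
    have h2 : W * T ≤ W * (x * G + ez) := mul_le_mul_of_nonneg_left hT hW0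
    have h3 : W * (x * G + ez) = W * x * G + W * ez := by ring
    rw [h3] at h2
    linarith
  have hxW : x * 1 ≤ x * W := mul_le_mul_of_nonneg_left hW1 hx0
  have hezW : ez * 1 ≤ ez * W := mul_le_mul_of_nonneg_left hW1 hez0
  have h8 : 4 * (x * G) + 4 * T2 ≤ 8 * (W * x) * G + 4 * (W * ez) := by
    have h1 : x * G ≤ W * x * G := by
      have := mul_le_mul_of_nonneg_right hxW hG0
      have e1 : x * 1 * G = x * G := by ring
      have e2 : x * W * G = W * x * G := by ring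
      linarith
    have e3 : ez * W = W * ez := by ring
    linarith
  have h9 : c0 * S * G ≤ c0 * ε / 4 * S + c0 * ε / 8 * S + 548 * (W * x) * G +
      544 * (W * ez) + 10 * (δ * S) := by linarith
  rw [hWx, hWez] at h9
  have hp : 0 < c0 * ε * S := by positivity
  have h10 : 554 * (δ * S) ≤ c0 * ε / 8 * S := by
    have e1 : 554 * (δ * S) = 554 / 4500 * (c0 * ε * S) := by rw [hδ]; ring
    have e2 : c0 * ε / 8 * S = 1 / 8 * (c0 * ε * S) := by ring
    rw [e1, e2]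
    linarith
  have h11 : 548 * (c0 / 1100 * S) * G ≤ 1 / 2 * (c0 * S * G) := by
    have h0 : 0 ≤ c0 * S * G := by positivity
    have e1 : 548 * (c0 / 1100 * S) * G = 548 / 1100 * (c0 * S * G) := by ring
    rw [e1]
    linarith
  have e3 : c0 * ε / 4 * S + c0 * ε / 8 * S = 3 / 8 * (c0 * S * ε) := by ring
  have e4 : c0 * ε / 8 * S = 1 / 8 * (c0 * S * ε) := by ring
  rw [e4] at h10
  rw [e3] at h9
  have h12 : c0 * S * G ≤ c0 * S * ε := by linarith
  have h13 : 0 < c0 * S := by positivity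
  exact le_of_mul_le_mul_left h12 h13

/-- the variance conditions -/
theorem star_facts {K L D N S lg δ M k : ℝ} (hδ : 0 < δ) (hK : 0 < K) (hL1 : 1 ≤ L)
    (hLlg : L ≤ 2 * lg) (hlg : 1 ≤ lg) (hD : 0 < D) (hN : 0 < N) (hK1 : 1 ≤ K)
    (hDN : D ≤ 2 * Real.sqrt N)
    (hS : S = N / Real.sqrt D) (hst : 4 * 10 ^ 9 * K ^ 2 * lg ^ 5 ≤ δ ^ 2 * Real.sqrt N)
    (hk : 0 < k) (hkM : M / (2 * (K * L)) ≤ k) :
    10 ^ 8 * N * lg ^ 2 ≤ (δ * S) ^ 2 ∧
    10 ^ 8 * N * lg * (M / k) ≤ (δ * S / (lg * Real.sqrt (2 * (K * L)))) ^ 2 := by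
  have hsN : 0 < Real.sqrt N := Real.sqrt_pos.2 hN
  have hNN : Real.sqrt N * Real.sqrt N = N := Real.mul_self_sqrt hN.le
  have hS2 : S ^ 2 = N * (N / D) := by
    rw [hS, div_pow, Real.sq_sqrt hD.le]; ring
  have hND : Real.sqrt N / 2 ≤ N / D := by
    rw [div_le_div_iff₀ (by norm_num) hD]
    have h0 : Real.sqrt N * D ≤ Real.sqrt N * (2 * Real.sqrt N) := by gcongr
    have h1 : Real.sqrt N * (2 * Real.sqrt N) = 2 * (Real.sqrt N * Real.sqrt N) := by ring
    rw [h1, hNN] at h0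
    linarith
  have hlg0 : 0 < lg := by linarith
  have h1 : (1 : ℝ) ≤ K ^ 2 := one_le_pow₀ hK1
  have hlg5 : lg ^ 2 ≤ lg ^ 5 := pow_le_pow_right₀ hlg (by norm_num)
  have h3 : 10 ^ 8 * lg ^ 2 ≤ δ ^ 2 * (N / D) := by
    have h4 : δ ^ 2 * (Real.sqrt N / 2) ≤ δ ^ 2 * (N / D) := by gcongr
    have h5 : lg ^ 2 ≤ K ^ 2 * lg ^ 5 := by
      calc lg ^ 2 ≤ 1 * lg ^ 5 := by linarith
        _ ≤ K ^ 2 * lg ^ 5 := by gcongr
    have h6 : 0 ≤ lg ^ 2 := by positivity
    linarith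
  have hKL : 0 < K * L := by positivity
  constructor
  · calc 10 ^ 8 * N * lg ^ 2 = N * (10 ^ 8 * lg ^ 2) := by ring
      _ ≤ N * (δ ^ 2 * (N / D)) := by gcongr
      _ = (δ * S) ^ 2 := by rw [mul_pow, hS2]; ring
  · have hMk : M / k ≤ 2 * (K * L) := by
      rw [div_le_iff₀ (by positivity)] at hkM
      rw [div_le_iff₀ hk]; linarith
    have h7 : (δ * S / (lg * Real.sqrt (2 * (K * L)))) ^ 2 =
        N * (δ ^ 2 * (N / D)) / (lg ^ 2 * (2 * (K * L))) := by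
      rw [div_pow, mul_pow, mul_pow, hS2, Real.sq_sqrt (by positivity)]
      ring
    rw [h7, le_div_iff₀ (by positivity)]
    have h8 : 10 ^ 8 * lg ^ 3 * (2 * (K * L)) ^ 2 ≤ δ ^ 2 * (N / D) := by
      have h9 : δ ^ 2 * (Real.sqrt N / 2) ≤ δ ^ 2 * (N / D) := by gcongr
      have h10 : (2 * (K * L)) ^ 2 ≤ 16 * K ^ 2 * lg ^ 2 := by
        have : 2 * (K * L) ≤ 2 * (K * (2 * lg)) := by gcongr
        calc (2 * (K * L)) ^ 2 ≤ (2 * (K * (2 * lg))) ^ 2 :=
              pow_le_pow_left₀ (by positivity) this 2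
          _ = _ := by ring
      have h11 : 10 ^ 8 * lg ^ 3 * (2 * (K * L)) ^ 2 ≤ 10 ^ 8 * lg ^ 3 * (16 * K ^ 2 * lg ^ 2) := by
        gcongr
      have h12 : 10 ^ 8 * lg ^ 3 * (16 * K ^ 2 * lg ^ 2) = 16 * 10 ^ 8 * (K ^ 2 * lg ^ 5) := by ring
      have h13 : 0 ≤ K ^ 2 * lg ^ 5 := by positivity
      have h14 : 4 * 10 ^ 9 * (K ^ 2 * lg ^ 5) ≤ δ ^ 2 * Real.sqrt N := by linarith
      linarith
    calc 10 ^ 8 * N * lg * (M / k) * (lg ^ 2 * (2 * (K * L))) ≤
        10 ^ 8 * N * lg * (2 * (K * L)) * (lg ^ 2 * (2 * (K * L))) := by gcongr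
      _ = N * (10 ^ 8 * lg ^ 3 * (2 * (K * L)) ^ 2) := by ring
      _ ≤ N * (δ ^ 2 * (N / D)) := by gcongr

/-- splitting of the sum of the real lemma -/
theorem split3 (m k : ℕ) (hk : k ≤ m) (a b c : ℕ → ℝ) :
    ∑ i ∈ range m, (a i + b i + c i) =
      ∑ i ∈ range k, a i + ∑ i ∈ Finset.Ico k m, a i + ∑ i ∈ range m, b i +
        ∑ i ∈ range m, c i := by
  rw [Finset.sum_add_distrib, Finset.sum_add_distrib, Finset.sum_range_add_sum_Ico a hk]

/-- the bound for a fixed structure -/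
theorem typical_fixed {c0 c1 CE K0 K L ε δ : ℝ} {ψ ψ' : ℝ → ℝ} {K1 : ℝ} (h : Pot ψ ψ' c1 K1)
    (hc0 : 0 < c0) (hCE : 0 < CE) (hε : 0 < ε) (hreal : RealStmt c0)
    (B : Finset (Finset α)) (A : Finset α) (D : ℕ) (hB : Lin3 B) (hNP : NP B)
    (hBA : ∀ T ∈ B, T ⊆ A) (hdeg : ∀ e ∈ A, dg B A e = D) (hne : A.Nonempty)
    (hD100 : 100 ≤ D) (hDN : (D : ℝ) ≤ 2 * Real.sqrt (A.card : ℝ))
    (hearly : ∀ i : ℕ, (i : ℝ) * (K0 * (1 + Real.log D)) ≤ (B.card : ℝ) →
      It B i A (Pt B ψ (1 / (1 / (D : ℝ) + 2 * (i : ℝ) / (B.card : ℝ)))) ≤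
      CE * ((A.card : ℝ) / Real.sqrt D) * (1 + Real.log D) *
        Real.sqrt (1 / (D : ℝ) + 2 * (i : ℝ) / (B.card : ℝ)))
    (hδ : δ = c0 * ε / 4500)
    (hst : 4 * 10 ^ 9 * K ^ 2 * Real.log A.card ^ 5 ≤ δ ^ 2 * Real.sqrt (A.card : ℝ))
    (hL : L = 1 + Real.log D) (hLlg : L ≤ 2 * Real.log A.card) (hK8 : 8 ≤ K) (hKK0 : K0 ≤ K)
    (hKc : 640 * CE / (c1 * c0 * ε) ≤ K)
    (hDc : 720 / (c0 * ε) ≤ (D : ℝ)) (hLD : 320 * CE / (c1 * c0 * ε) * L ≤ D)
    (hKL2 : 2 * (K * L) ≤ D) :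
    gx B (c0 / (1100 * Real.sqrt (2 * K)) * ((A.card : ℝ) / Real.sqrt D) /
      (Real.log A.card * Real.sqrt L)) A ≤ ε := by
  obtain ⟨hbl, h3, hN⟩ := card_facts B hB A D hBA hdeg
  have hN' := hN hne
  have hDr : (100 : ℝ) ≤ D := by exact_mod_cast hD100
  have hNr : 2 * (D : ℝ) + 1 ≤ (A.card : ℝ) := by exact_mod_cast hN'
  have hNp : (0 : ℝ) < (A.card : ℝ) := by linarith
  have hMp : (0 : ℝ) < (B.card : ℝ) := by nlinarith
  have hM0 : 0 < B.card := by exact_mod_cast hMp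
  have hlogD : 0 ≤ Real.log (D : ℝ) := Real.log_nonneg (by linarith)
  have hL1 : 1 ≤ L := by linarith
  have hMD : 2 / 3 * (D : ℝ) ^ 2 ≤ (B.card : ℝ) := by nlinarith
  have hMN : (B.card : ℝ) ≤ (A.card : ℝ) ^ 2 := by nlinarith
  have hKp : 0 < K := by linarith
  have hKLp : 0 < K * L := by positivity
  obtain ⟨k, hk1, hkM, hkKL, hk8, hp2⟩ := time_facts hK8 hL1 hDr hMD hKL2
  have h2k : 2 * k ≤ B.card := by
    have h1 : (2 : ℝ) * k ≤ (B.card : ℝ) := by
      have : (0 : ℝ) ≤ k := by positivity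
      linarith
    exact_mod_cast h1
  have hEk := hearly k (by
    rw [← hL]
    have h1 : K0 * L ≤ K * L := mul_le_mul_of_nonneg_right hKK0 (by linarith)
    calc (k : ℝ) * (K0 * L) ≤ k * (K * L) := by gcongr
      _ ≤ _ := hkKL)
  have hes := early_sum B hB A D (by omega) hM0 ψ ψ' c1 K1 h CE k h2k hp2 hEk
  have hlogN : 1 ≤ Real.log A.card := by
    rw [Real.le_log_iff_exp_le hNp]
    have := Real.exp_one_lt_d9
    linarith
  obtain ⟨x, hx⟩ : ∃ x : ℝ, x = c0 / (1100 * Real.sqrt (2 * K)) *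
    ((A.card : ℝ) / Real.sqrt D) / (Real.log A.card * Real.sqrt L) := ⟨_, rfl⟩
  rw [← hx]
  have hx0 : 0 ≤ x := by rw [hx]; positivity
  obtain ⟨S, hS⟩ : ∃ S : ℝ, S = (A.card : ℝ) / Real.sqrt D := ⟨_, rfl⟩
  rw [← hS] at hx
  have hkp : (0 : ℝ) < (k : ℝ) := by exact_mod_cast hk1
  have hsD : 0 < Real.sqrt (D : ℝ) := Real.sqrt_pos.2 (by linarith)
  have hSp : 0 < S := by rw [hS]; positivity
  have hδ0 : 0 < δ := by rw [hδ]; positivity
  obtain ⟨hv1, hv2⟩ := star_facts (M := (B.card : ℝ)) (k := (k : ℝ)) hδ0 hKp hL1 hLlg hlogN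
    (show (0 : ℝ) < D by linarith) hNp (by linarith) hDN hS hst hkp hkM
  have hg := fun A' => gn_gx B hB x A'
  have h0 := fun A' => gx_nonneg B hB x A'
  have h1 := fun A' => gx_le_one B hB x A'
  have hk2 : k ≤ 2 * B.card := by omega
  have hezp : 0 < δ * S / (Real.log A.card * Real.sqrt (2 * (K * L))) := by
    have : 0 < Real.sqrt (2 * (K * L)) := Real.sqrt_pos.2 (by positivity)
    have h2 : 0 < Real.log (A.card : ℝ) := by linarith
    positivity
  -- late mixed blocks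
  have hT : ∑ i ∈ Finset.Ico k (2 * B.card),
      It B i A (fun A => Mf B A * gx B x A) / (B.card : ℝ) ≤ x * gx B x A +
      δ * S / (Real.log A.card * Real.sqrt (2 * (K * L))) := by
    have h4 := late_M B hB hM0 x hx0 A k (2 * B.card) hk2
    have h5 := errZ_le B hM0 (gx B x) hg h0 h1 A (Zf B) k (2 * B.card) _ _ hezp
      (VZ_le B hB A D hD100 hBA hdeg hne k hk1 hk2) hv2
    linarith
  have hT2 : ∑ i ∈ Finset.Ico B.card (2 * B.card),
      It B i A (fun A => Mf B A * gx B x A) / (B.card : ℝ) ≤ x * gx B x A +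
      δ * S / (Real.log A.card * Real.sqrt (2 * (K * L))) := by
    refine le_trans ?_ hT
    refine Finset.sum_le_sum_of_subset_of_nonneg ?_ ?_
    · exact Finset.Ico_subset_Ico_left (by omega)
    · intro i _ _
      exact div_nonneg (LMain.It_nonneg B i A _ fun A' => mul_nonneg (Mf_nonneg B A') (h0 A'))
        hMp.le
  have hap := apply_real2 hreal B A D (by omega) hB hBA hdeg hne (by omega) (gx B x) hg h0
    (x * gx B x A) _ (fun i => It_Zg B hB hM0 x hx0 i A) le_rfl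
  rw [split3 (2 * B.card) k hk2] at hap
  have hls := late_sum_g B hB hNP A D (gx B x) h0 h1 (by omega) hM0 hMN (by omega) k hk1
    (K * L) hKLp hkM hKL2
  have he1 := err_le B hM0 (gx B x) hg h0 h1 A (Wf B) (fun i => pp D B.card i)
    (fun i => pp_nonneg _ _ i) (2 * B.card) (δ * S) _ (by positivity)
    (VW_le B hB A D hD100 hBA hdeg hne) hv1
  have he2 := err_le B hM0 (gx B x) hg h0 h1 A (Sf B) (fun i => pp D B.card i ^ 3)
    (fun i => pow_nonneg (pp_nonneg _ _ i) 3) (2 * B.card) (δ * S) _ (by positivity)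
    (VS_le B hB A D hD100 hBA hdeg hne) hv1
  have he1' : ∑ i ∈ range (2 * B.card), |It B i A (cr B (Wf B) (gx B x))| / (B.card : ℝ) *
      pp D B.card i ≤ δ * S := by
    refine le_trans (le_of_eq (Finset.sum_congr rfl fun i _ => ?_)) he1
    ring
  have he2' : ∑ i ∈ range (2 * B.card), |It B i A (cr B (Sf B) (gx B x))| / (B.card : ℝ) *
      pp D B.card i ^ 3 ≤ δ * S := by
    refine le_trans (le_of_eq (Finset.sum_congr rfl fun i _ => ?_)) he2
    ring
  have hes2 : ∑ i ∈ range k, 3 * It B i A (fun A => Fo B A * gx B x A) / (B.card : ℝ) *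
      pp D B.card i ≤ 8 * CE / c1 * S * L * (1 / (D : ℝ) + 2 * (k : ℝ) / (B.card : ℝ)) := by
    rw [hS, hL]
    refine le_trans (Finset.sum_le_sum fun i _ => ?_) hes
    have h6 : It B i A (fun A => Fo B A * gx B x A) ≤ It B i A (Fo B) := by
      have h7 := It_mono B i A (fun A => Fo B A * gx B x A) (Fo B) (fun A' _ => by
        have h8 := mul_le_mul_of_nonneg_left (h1 A') (Fo_nonneg B A')
        linarith)
      exact h7
    unfold pp
    have h9 : 0 ≤ Real.sqrt (1 / (D : ℝ) + 2 * ((i : ℝ) + 1) / (B.card : ℝ)) :=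
      Real.sqrt_nonneg _
    gcongr
  rw [← hS] at hap
  exact fin_arith2 hc0 h.cpos hCE hε hK8 hKc hL1 hDr hDc hNr hMp hLD hkKL hS (h0 A) hlogN hδ rfl
    hx hap hes2 hls rfl hT hT2 he1' he2'

/-- the growth condition -/
theorem star_of {K δ D N : ℝ} (hδ : 0 < δ) (hK : 0 < K) (hD : 1 ≤ D) (hDN : D ≤ N)
    (h : (2 * 10 ^ 16 * K ^ 2 / δ ^ 2) ^ 4 ≤ D) :
    4 * 10 ^ 9 * K ^ 2 * Real.log N ^ 5 ≤ δ ^ 2 * Real.sqrt N := by
  have hN1 : 1 ≤ N := by linarith
  have hN0 : 0 < N := by linarith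
  obtain ⟨t, ht⟩ : ∃ t : ℝ, t = N ^ (1 / 20 : ℝ) := ⟨_, rfl⟩
  have ht0 : 0 < t := by rw [ht]; positivity
  have h1 : Real.log N ≤ 20 * t := by
    have h2 := Real.log_le_rpow_div hN0.le (show (0 : ℝ) < 1 / 20 by norm_num)
    rw [← ht] at h2
    linarith
  have hl0 : 0 ≤ Real.log N := Real.log_nonneg hN1
  have h3 : Real.log N ^ 5 ≤ (20 * t) ^ 5 := pow_le_pow_left₀ hl0 h1 5
  have ht20 : t ^ 20 = N := by
    rw [ht, ← Real.rpow_natCast, ← Real.rpow_mul hN0.le]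
    norm_num
  have hs : Real.sqrt N = t ^ 10 := by
    rw [← ht20, show t ^ 20 = (t ^ 10) ^ 2 by ring, Real.sqrt_sq (by positivity)]
  have h5 : 2 * 10 ^ 16 * K ^ 2 / δ ^ 2 ≤ t ^ 5 := by
    have h6 : (2 * 10 ^ 16 * K ^ 2 / δ ^ 2) ^ 4 ≤ (t ^ 5) ^ 4 := by
      have : (t ^ 5) ^ 4 = N := by rw [← ht20]; ring
      rw [this]; linarith
    exact le_of_pow_le_pow_left₀ (by norm_num) (by positivity) h6
  rw [div_le_iff₀ (by positivity)] at h5
  rw [hs]
  calc 4 * 10 ^ 9 * K ^ 2 * Real.log N ^ 5 ≤ 4 * 10 ^ 9 * K ^ 2 * (20 * t) ^ 5 := by gcongr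
    _ = (128 * 10 ^ 14 * K ^ 2) * t ^ 5 := by ring
    _ ≤ (t ^ 5 * δ ^ 2) * t ^ 5 := by
        refine mul_le_mul_of_nonneg_right ?_ (by positivity)
        refine le_trans ?_ h5
        have : 0 ≤ K ^ 2 := by positivity
        linarith
    _ = δ ^ 2 * t ^ 10 := by ring

end TMain

open TMain LMain

/-- [TMAIN] for regular linear 3-uniform hypergraphs with `D ^ 2 ≤ 4 N`: the probability of a
small final set is small -/
theorem typical_regular : ∀ ε : ℝ, 0 < ε → ∃ c : ℝ, 0 < c ∧ ∃ D0 : ℕ, ∀ (α : Type)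
    [DecidableEq α] (B : Finset (Finset α)) (A : Finset α) (D : ℕ), D0 ≤ D →
    (D : ℝ) ^ 2 ≤ 4 * A.card → Lin3 B → NP B →
    (∀ T ∈ B, T ⊆ A) → (∀ e ∈ A, dg B A e = D) → A.Nonempty →
    gx B (c * ((A.card : ℝ) / Real.sqrt D) /
      (Real.log A.card * Real.sqrt (1 + Real.log D))) A ≤ ε := by
  intro ε hε
  obtain ⟨ψ, ψ', c1, K1, h⟩ := exists_pot
  obtain ⟨CE, K0, hCE, hK0, hearly⟩ := early_pot ψ ψ' c1 K1 h
  obtain ⟨c0, hc0, hreal⟩ := low_real2
  have hc1 := h.cpos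
  obtain ⟨K, hK⟩ : ∃ K : ℝ, K = K0 + 8 + 640 * CE / (c1 * c0 * ε) := ⟨_, rfl⟩
  have hKq : 0 < 640 * CE / (c1 * c0 * ε) := by positivity
  have hK8 : 8 ≤ K := by linarith
  have hKp : 0 < K := by linarith
  obtain ⟨κ, hκ⟩ : ∃ κ : ℝ, κ = 2 * K + 320 * CE / (c1 * c0 * ε) := ⟨_, rfl⟩
  have hκp : 0 < κ := by rw [hκ]; positivity
  obtain ⟨δ, hδ⟩ : ∃ δ : ℝ, δ = c0 * ε / 4500 := ⟨_, rfl⟩
  have hδ0 : 0 < δ := by rw [hδ]; positivity
  refine ⟨c0 / (1100 * Real.sqrt (2 * K)), by positivity,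
    ⌈9 * κ ^ 2⌉₊ + ⌈720 / (c0 * ε)⌉₊ + ⌈(2 * 10 ^ 16 * K ^ 2 / δ ^ 2) ^ 4⌉₊ + 100, ?_⟩
  intro α _ B A D hDD hD2 hB hNP hBA hdeg hne
  have hD100 : 100 ≤ D := by omega
  have hDκ : 9 * κ ^ 2 ≤ (D : ℝ) := by
    have h1 : ⌈9 * κ ^ 2⌉₊ ≤ D := by omega
    exact Nat.ceil_le.1 h1
  have hDc : 720 / (c0 * ε) ≤ (D : ℝ) := by
    have h1 : ⌈720 / (c0 * ε)⌉₊ ≤ D := by omega
    exact Nat.ceil_le.1 h1
  have hDs : (2 * 10 ^ 16 * K ^ 2 / δ ^ 2) ^ 4 ≤ (D : ℝ) := by
    have h1 : ⌈(2 * 10 ^ 16 * K ^ 2 / δ ^ 2) ^ 4⌉₊ ≤ D := by omega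
    exact Nat.ceil_le.1 h1
  have hDr : (100 : ℝ) ≤ D := by exact_mod_cast hD100
  obtain ⟨L, hL⟩ : ∃ L : ℝ, L = 1 + Real.log D := ⟨_, rfl⟩
  have hlogD : 0 ≤ Real.log (D : ℝ) := Real.log_nonneg (by linarith)
  have hL1 : 1 ≤ L := by linarith
  have hκL : κ * L ≤ D := by rw [hL]; exact log_small κ hκp D (by linarith) hDκ
  have hKL2 : 2 * (K * L) ≤ D := by
    have : 0 ≤ 320 * CE / (c1 * c0 * ε) * L := by positivity
    rw [hκ] at hκL
    linarith
  have hLD : 320 * CE / (c1 * c0 * ε) * L ≤ D := by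
    have : 0 ≤ 2 * K * L := by positivity
    rw [hκ] at hκL
    linarith
  have hN' := (card_facts B hB A D hBA hdeg).2.2 hne
  have hNr : 2 * (D : ℝ) + 1 ≤ (A.card : ℝ) := by exact_mod_cast hN'
  have hNp : (0 : ℝ) < (A.card : ℝ) := by linarith
  have hDN : (D : ℝ) ≤ 2 * Real.sqrt (A.card : ℝ) := by
    have h2 : Real.sqrt ((D : ℝ) ^ 2) ≤ Real.sqrt (4 * A.card) := Real.sqrt_le_sqrt hD2
    rw [Real.sqrt_sq (by linarith), Real.sqrt_mul (by norm_num),
      show (4 : ℝ) = 2 ^ 2 by norm_num, Real.sqrt_sq (by norm_num)] at h2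
    exact h2
  have hLlg : L ≤ 2 * Real.log A.card := by
    have h2 : Real.log (D : ℝ) ≤ Real.log A.card := Real.log_le_log (by linarith) (by linarith)
    have h3 : 1 ≤ Real.log (A.card : ℝ) := by
      rw [Real.le_log_iff_exp_le hNp]
      have := Real.exp_one_lt_d9
      linarith
    linarith
  rw [← hL]
  exact typical_fixed h hc0 hCE hε hreal B A D hB hNP hBA hdeg hne hD100 hDN
    (hearly α B A D (by omega) hB hBA hdeg hne) hδ
    (star_of hδ0 hKp (by linarith) (by linarith) hDs) hL hLlg hK8 (by linarith) (by linarith) hDc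
    hLD hKL2

end

end Vale.Agent.P046
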