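import Vale.Agent.P046.Low.TDefs
import Vale.Agent.P046.Low.ItOf

/-!
P046, lower bound in probability: row TMART (product rule, energy, Cauchy-Schwarz).
-/

namespace Vale.Agent.P046

open Finset

noncomputable section

variable {α : Type} [DecidableEq α]

theorem gn_mul (B : Finset (Finset α)) (f g : Finset α → ℝ) (A : Finset α)
    (h : gn B g A = 0) :
    gn B (fun A => f A * g A) A = g A * gn B f A + cr B f g A := by
  have h1 : gn B (fun A => f A * g A) A = g A * gn B f A + cr B f g A + f A * gn B g A := by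
    unfold gn cr
    rw [mul_sum, mul_sum, ← sum_add_distrib, ← sum_add_distrib]
    refine sum_congr rfl fun T _ => ?_
    ring
  rw [h1, h]
  ring

namespace TMart

theorem It_const (B : Finset (Finset α)) (c : ℝ) (i : ℕ) (A : Finset α) :
    It B i A (fun _ => c) = c := by
  have h1 : lz B (fun _ => c) = fun _ => c := by
    ext A
    unfold lz
    simp
  have h2 : ((lz B)^[i]) (fun _ => c) = fun _ => c := Function.iterate_fixed h1 i
  unfold It
  rw [h2]

theorem qv_eq (B : Finset (Finset α)) (g : Finset α → ℝ) (A : Finset α)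
    (h : gn B g A = 0) : gn B (fun A => g A * g A) A = qv B g A := by
  rw [gn_mul B g g A h, h]
  unfold cr qv
  rw [mul_zero, zero_add]
  refine sum_congr rfl fun T _ => ?_
  ring

theorem cr_pt (B : Finset (Finset α)) (f g : Finset α → ℝ) (A : Finset α) (w η : ℝ)
    (hη : 0 < η) :
    |w| * |cr B f g A| ≤ w ^ 2 / (2 * η) * qv B f A + η / 2 * qv B g A := by
  have h1 : |cr B f g A| ≤ ∑ T ∈ bl B A, |f (A \ T) - f A| * |g (A \ T) - g A| := by
    unfold cr
    refine (abs_sum_le_sum_abs _ _).trans (le_of_eq ?_)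
    exact sum_congr rfl fun T _ => abs_mul _ _
  refine (mul_le_mul_of_nonneg_left h1 (abs_nonneg w)).trans ?_
  unfold qv
  rw [mul_sum, mul_sum, mul_sum, ← sum_add_distrib]
  refine sum_le_sum fun T _ => ?_
  have h2 : 0 ≤ (|w| * |f (A \ T) - f A| - η * |g (A \ T) - g A|) ^ 2 / (2 * η) := by
    positivity
  have h3 : (|w| * |f (A \ T) - f A| - η * |g (A \ T) - g A|) ^ 2 / (2 * η) =
      w ^ 2 / (2 * η) * (f (A \ T) - f A) ^ 2 + η / 2 * (g (A \ T) - g A) ^ 2 -
        |w| * (|f (A \ T) - f A| * |g (A \ T) - g A|) := by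
    rw [← sq_abs w, ← sq_abs (f (A \ T) - f A), ← sq_abs (g (A \ T) - g A)]
    field_simp
    ring
  linarith

end TMart

theorem energy (B : Finset (Finset α)) (hM : 0 < B.card) (g : Finset α → ℝ)
    (hg : ∀ A, gn B g A = 0) (h0 : ∀ A, 0 ≤ g A) (h1 : ∀ A, g A ≤ 1) (A : Finset α) (k : ℕ) :
    ∑ i ∈ range k, It B i A (qv B g) / (B.card : ℝ) ≤ 1 := by
  have hq : gn B (fun A => g A * g A) = qv B g := by
    ext A
    exact TMart.qv_eq B g A (hg A)
  have h2 : ∑ i ∈ range k, It B i A (qv B g) / (B.card : ℝ) =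
      It B k A (fun A => g A * g A) - It B 0 A (fun A => g A * g A) := by
    induction k with
    | zero => simp
    | succ k ih =>
      rw [sum_range_succ, ih, It_succ B hM k A (fun A => g A * g A), hq]
      ring
  have h3 : It B k A (fun A => g A * g A) ≤ 1 := by
    have := It_mono B k A (fun A => g A * g A) (fun _ => 1) fun A' _ => by
      have ha := h0 A'
      have hb := h1 A'
      nlinarith
    rwa [TMart.It_const] at this
  have h4 : 0 ≤ It B 0 A (fun A => g A * g A) :=
    It_nonneg B 0 A _ fun A' _ => mul_self_nonneg _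
  linarith

theorem cr_le (B : Finset (Finset α)) (hM : 0 < B.card) (g : Finset α → ℝ)
    (hg : ∀ A, gn B g A = 0) (h0 : ∀ A, 0 ≤ g A) (h1 : ∀ A, g A ≤ 1) (A : Finset α)
    (f : Finset α → ℝ) (w : ℕ → ℝ) (k : ℕ) (η : ℝ) (hη : 0 < η) :
    ∑ i ∈ range k, |w i| * (|It B i A (cr B f g)| / (B.card : ℝ)) ≤
      ((∑ i ∈ range k, w i ^ 2 * (It B i A (qv B f) / (B.card : ℝ))) / η + η) / 2 := by
  have hMr : (0 : ℝ) < B.card := by exact_mod_cast hM
  have hpt : ∀ i : ℕ, |w i| * (|It B i A (cr B f g)| / (B.card : ℝ)) ≤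
      w i ^ 2 * (It B i A (qv B f) / (B.card : ℝ)) / (2 * η) +
        η / 2 * (It B i A (qv B g) / (B.card : ℝ)) := by
    intro i
    have hup : It B i A (fun A => |w i| * cr B f g A + 0 * cr B f g A) ≤
        It B i A (fun A => w i ^ 2 / (2 * η) * qv B f A + η / 2 * qv B g A) :=
      It_mono B i A _ _ fun A' _ => by
        have h3 := TMart.cr_pt B f g A' (w i) η hη
        have h4 : |w i| * cr B f g A' ≤ |w i| * |cr B f g A'| :=
          mul_le_mul_of_nonneg_left (le_abs_self _) (abs_nonneg _)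
        linarith
    have hlo : It B i A (fun A => (-|w i|) * cr B f g A + 0 * cr B f g A) ≤
        It B i A (fun A => w i ^ 2 / (2 * η) * qv B f A + η / 2 * qv B g A) :=
      It_mono B i A _ _ fun A' _ => by
        have h3 := TMart.cr_pt B f g A' (w i) η hη
        have h4 : |w i| * (-cr B f g A') ≤ |w i| * |cr B f g A'| :=
          mul_le_mul_of_nonneg_left (neg_le_abs _) (abs_nonneg _)
        linarith
    rw [It_lin, It_lin] at hup hlo
    have h5 : |w i| * |It B i A (cr B f g)| ≤
        w i ^ 2 / (2 * η) * It B i A (qv B f) + η / 2 * It B i A (qv B g) := by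
      rcases abs_cases (It B i A (cr B f g)) with ⟨h6, _⟩ | ⟨h6, _⟩
      · rw [h6]; linarith
      · rw [h6]; linarith
    have h7 : |w i| * (|It B i A (cr B f g)| / (B.card : ℝ)) =
        (|w i| * |It B i A (cr B f g)|) / (B.card : ℝ) := by ring
    rw [h7, div_le_iff₀ hMr]
    refine h5.trans (le_of_eq ?_)
    field_simp
  have hen := energy B hM g hg h0 h1 A k
  calc ∑ i ∈ range k, |w i| * (|It B i A (cr B f g)| / (B.card : ℝ))
      ≤ ∑ i ∈ range k, (w i ^ 2 * (It B i A (qv B f) / (B.card : ℝ)) / (2 * η) +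
        η / 2 * (It B i A (qv B g) / (B.card : ℝ))) := sum_le_sum fun i _ => hpt i
    _ = (∑ i ∈ range k, w i ^ 2 * (It B i A (qv B f) / (B.card : ℝ))) / (2 * η) +
        η / 2 * ∑ i ∈ range k, It B i A (qv B g) / (B.card : ℝ) := by
        rw [sum_add_distrib, ← sum_div, ← mul_sum]
    _ ≤ (∑ i ∈ range k, w i ^ 2 * (It B i A (qv B f) / (B.card : ℝ))) / (2 * η) +
        η / 2 * 1 := by
        have := mul_le_mul_of_nonneg_left hen (by positivity : (0 : ℝ) ≤ η / 2)
        linarith
    _ = ((∑ i ∈ range k, w i ^ 2 * (It B i A (qv B f) / (B.card : ℝ))) / η + η) / 2 := by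
        field_simp

end

end Vale.Agent.P046
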